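import Mathlib

/-!
# Characters of abelian groups

Two separation lemmas obtained from the injectivity of divisible groups:
a non-torsion element is detected by an additive map to `ℝ`, and a nonzero element is detected
by a unitary character.
-/

namespace Vale.Agent.H49

/-- A non-torsion element of an abelian group is detected by a real-valued additive map. -/
theorem exists_real_hom_ne_zero {A : Type*} [AddCommGroup A] (a : A) (ha : ¬ IsOfFinAddOrder a) :
    ∃ f : A →+ ℝ, f a ≠ 0 := by
  have hinj : Function.Injective (zmultiplesHom A a) :=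
    injective_zsmul_iff_not_isOfFinAddOrder.mpr ha
  obtain ⟨h, hh⟩ := (Module.Baer.of_divisible ℝ).extension_property_addMonoidHom
    (zmultiplesHom A a) hinj (Int.castAddHom ℝ)
  refine ⟨h, ?_⟩
  have h1 : h a = 1 := by
    have := congrArg (fun g : ℤ →+ ℝ => g 1) hh
    simpa using this
  rw [h1]
  exact one_ne_zero

/-- The additive map `ℚ → Circle`, `r ↦ exp (2 π i r)`. -/
noncomputable def ratExp : ℚ →+ Additive Circle where
  toFun r := Additive.ofMul (Circle.exp (2 * Real.pi * (r : ℝ)))
  map_zero' := by simp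
  map_add' r s := by
    simp only [Rat.cast_add, mul_add, Circle.exp_add]
    rfl

theorem ratExp_ker : AddSubgroup.zmultiples (1 : ℚ) ≤ ratExp.ker := by
  rw [AddSubgroup.zmultiples_le, AddMonoidHom.mem_ker]
  show Additive.ofMul (Circle.exp (2 * Real.pi * ((1 : ℚ) : ℝ))) = 0
  rw [Rat.cast_one, mul_one, Circle.exp_two_pi]
  rfl

/-- The injective additive map `ℚ/ℤ → Circle`. -/
noncomputable def circExp : AddCircle (1 : ℚ) →+ Additive Circle :=
  QuotientAddGroup.lift _ ratExp ratExp_ker

theorem circExp_eq_zero {x : AddCircle (1 : ℚ)} (h : circExp x = 0) : x = 0 := by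
  obtain ⟨r, rfl⟩ := QuotientAddGroup.mk_surjective x
  have h1 : Circle.exp (2 * Real.pi * (r : ℝ)) = 1 := h
  obtain ⟨n, hn⟩ := Circle.exp_eq_one.mp h1
  have hpi := Real.pi_pos
  have hr : (r : ℝ) = n := by
    have h2 : 2 * Real.pi * ((r : ℝ) - n) = 0 := by linarith
    have h3 : (r : ℝ) - n = 0 := by
      rcases mul_eq_zero.mp h2 with h4 | h4
      · linarith
      · exact h4
    linarith
  have hr' : r = n := by exact_mod_cast hr
  rw [hr']
  exact (AddCircle.coe_eq_zero_iff (1 : ℚ)).mpr ⟨n, by simp⟩

/-- A nonzero element of an abelian group is detected by a unitary character. -/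
theorem exists_unitary_char_ne_one {Q : Type*} [AddCommGroup Q] (q : Q) (hq : q ≠ 0) :
    ∃ χ : Q → ℂ, (∀ x, ‖χ x‖ = 1) ∧ (∀ x y, χ (x + y) = χ x * χ y) ∧ χ 0 = 1 ∧ χ q ≠ 1 := by
  obtain ⟨c, hc⟩ := CharacterModule.exists_character_apply_ne_zero_of_ne_zero hq
  refine ⟨fun x => ((Additive.toMul (circExp (c x)) : Circle) : ℂ), fun x => Circle.norm_coe _,
    ?_, ?_, ?_⟩
  · intro x y
    simp [map_add]
  · simp
  · intro h
    apply hc
    apply circExp_eq_zero
    have h2 : (Additive.toMul (circExp (c q)) : Circle) = 1 := by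
      ext
      simpa using h
    exact h2

end Vale.Agent.H49
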