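import Vale.Agent.H49.Twist
import Vale.Agent.H49.Chars

/-!
# The support of the class-sum traces of an idempotent, seen in an abelian quotient

For an idempotent matrix `e` over `L1 G` and an additive map `ψ : G → A` to an abelian group,
the values `ψ x` at the classes `[x]` with nonzero trace form a finite set of torsion elements.
-/

namespace Vale.Agent.H49

open scoped BigOperators

namespace L1

variable {G : Type*} [Group G]

theorem conj_swap_mem (x : G) (g h : G) (hgh : g * h ∈ conjugatesOf x) :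
    h * g ∈ conjugatesOf x := by
  have h1 : IsConj (g * h) (h * g) := isConj_iff.mpr ⟨g⁻¹, by group⟩
  exact IsConj.trans hgh h1

theorem nrm_twist_sub_self (χ : G → ℂ) (hχ : ∀ g, ‖χ g‖ = 1) (a : L1 G) :
    nrm (twistFun χ hχ a - a) = ∑' g, ‖χ g - 1‖ * ‖a g‖ := by
  unfold nrm
  refine tsum_congr (fun g => ?_)
  rw [sub_apply, twistFun_apply, ← norm_mul]
  congr 1
  ring

theorem norm_char_sub_one_le (χ : G → ℂ) (hχ : ∀ g, ‖χ g‖ = 1) (g : G) : ‖χ g - 1‖ ≤ 2 := by
  calc ‖χ g - 1‖ ≤ ‖χ g‖ + ‖(1 : ℂ)‖ := norm_sub_le _ _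
    _ = 2 := by rw [hχ, norm_one]; norm_num

section matrix

variable {n : Type*} [Fintype n] [DecidableEq n]

/-- The total weight of a matrix over `L1 G` at a group element. -/
noncomputable def wt (e : Matrix n n (L1 G)) (g : G) : ℝ := ∑ i, ∑ j, ‖e i j g‖

theorem summable_wt (e : Matrix n n (L1 G)) : Summable (wt e) :=
  summable_sum fun i _ => summable_sum fun j _ => (e i j).summable

theorem wt_nonneg (e : Matrix n n (L1 G)) (g : G) : 0 ≤ wt e g :=
  Finset.sum_nonneg fun _ _ => Finset.sum_nonneg fun _ _ => norm_nonneg _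

theorem msize_twist_sub (χ : G → ℂ) (hχ : ∀ g, ‖χ g‖ = 1)
    (hmul : ∀ g h, χ (g * h) = χ g * χ h) (e : Matrix n n (L1 G)) :
    msize ((twist χ hχ hmul).mapMatrix e - e) = ∑' g, ‖χ g - 1‖ * wt e g := by
  have hs : ∀ i j, Summable fun g => ‖χ g - 1‖ * ‖e i j g‖ := fun i j =>
    Summable.of_nonneg_of_le (fun g => mul_nonneg (norm_nonneg _) (norm_nonneg _))
      (fun g => mul_le_mul_of_nonneg_right (norm_char_sub_one_le χ hχ g) (norm_nonneg _))
      ((e i j).summable.mul_left 2)
  unfold msize wt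
  simp_rw [Finset.mul_sum]
  rw [Summable.tsum_finsetSum (fun i _ => summable_sum fun j _ => hs i j)]
  refine Finset.sum_congr rfl (fun i _ => ?_)
  rw [Summable.tsum_finsetSum (fun j _ => hs i j)]
  refine Finset.sum_congr rfl (fun j _ => ?_)
  exact nrm_twist_sub_self χ hχ (e i j)

theorem msize_twist_sub_le (F : Finset G) (χ : G → ℂ) (hχ : ∀ g, ‖χ g‖ = 1)
    (hmul : ∀ g h, χ (g * h) = χ g * χ h) (hF : ∀ g ∈ F, χ g = 1) (e : Matrix n n (L1 G)) :
    msize ((twist χ hχ hmul).mapMatrix e - e) ≤ 2 * (∑' g, wt e g - ∑ g ∈ F, wt e g) := by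
  classical
  rw [msize_twist_sub]
  have hind : Summable (Set.indicator (↑F : Set G) (wt e)) := (summable_wt e).indicator _
  have hsum2 : Summable fun g => 2 * (wt e g - Set.indicator (↑F : Set G) (wt e) g) :=
    ((summable_wt e).sub hind).mul_left 2
  have hsum1 : Summable fun g => ‖χ g - 1‖ * wt e g :=
    Summable.of_nonneg_of_le (fun g => mul_nonneg (norm_nonneg _) (wt_nonneg e g))
      (fun g => mul_le_mul_of_nonneg_right (norm_char_sub_one_le χ hχ g) (wt_nonneg e g))
      ((summable_wt e).mul_left 2)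
  have hle : ∀ g, ‖χ g - 1‖ * wt e g ≤ 2 * (wt e g - Set.indicator (↑F : Set G) (wt e) g) := by
    intro g
    by_cases hg : g ∈ F
    · have : χ g - 1 = 0 := by rw [hF g hg, sub_self]
      rw [this, norm_zero, zero_mul, Set.indicator_of_mem (Finset.mem_coe.mpr hg), sub_self,
        mul_zero]
    · rw [Set.indicator_of_notMem (fun h => hg (Finset.mem_coe.mp h)), sub_zero]
      exact mul_le_mul_of_nonneg_right (norm_char_sub_one_le χ hχ g) (wt_nonneg e g)
  calc ∑' g, ‖χ g - 1‖ * wt e g
      ≤ ∑' g, 2 * (wt e g - Set.indicator (↑F : Set G) (wt e) g) :=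
        hsum1.tsum_le_tsum hle hsum2
    _ = 2 * (∑' g, wt e g - ∑ g ∈ F, wt e g) := by
        rw [tsum_mul_left, (summable_wt e).tsum_sub hind, ← sum_eq_tsum_indicator]

/-- There is a finite set `F` of group elements such that any unitary character which is
trivial on `F` is trivial on every class carrying a nonzero trace of the idempotent `e`. -/
theorem exists_support_finset (e : Matrix n n (L1 G)) (he : e * e = e) :
    ∃ F : Finset G, ∀ (χ : G → ℂ) (_ : ∀ g, ‖χ g‖ = 1) (_ : ∀ g h, χ (g * h) = χ g * χ h),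
      (∀ g ∈ F, χ g = 1) → ∀ x : G, χ x ≠ 1 → mtr (conjugatesOf x) e = 0 := by
  have hW := (summable_wt e).hasSum
  have hev : ∀ᶠ s : Finset G in Filter.atTop, ∑' g, wt e g - 1 / 4 < ∑ g ∈ s, wt e g :=
    hW.eventually (lt_mem_nhds (by linarith))
  obtain ⟨F, hF⟩ := hev.exists
  refine ⟨F, fun χ hχ hmul hχF x hx => ?_⟩
  have hclose : msize ((twist χ hχ hmul).mapMatrix e - e) < 1 := by
    have := msize_twist_sub_le F χ hχ hmul hχF e
    linarith
  have hidem : (twist χ hχ hmul).mapMatrix e * (twist χ hχ hmul).mapMatrix e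
      = (twist χ hχ hmul).mapMatrix e := by rw [← map_mul, he]
  have h1 : mtr (conjugatesOf x) ((twist χ hχ hmul).mapMatrix e) = mtr (conjugatesOf x) e :=
    mtr_eq_of_close _ (conj_swap_mem x) e _ he hidem hclose
  have hχ1 : χ 1 = 1 := char_one χ hχ hmul
  have hconst : ∀ g ∈ conjugatesOf x, χ g = χ x := by
    intro g hg
    obtain ⟨c, rfl⟩ := isConj_iff.mp hg
    have h2 : χ c * χ c⁻¹ = 1 := by rw [← hmul, mul_inv_cancel, hχ1]
    rw [hmul, hmul]
    calc χ c * χ x * χ c⁻¹ = χ x * (χ c * χ c⁻¹) := by ring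
      _ = χ x := by rw [h2, mul_one]
  have h2 : mtr (conjugatesOf x) ((twist χ hχ hmul).mapMatrix e)
      = χ x * mtr (conjugatesOf x) e := by
    simp only [mtr_apply, Finset.mul_sum]
    refine Finset.sum_congr rfl (fun i _ => ?_)
    exact tr1_twist _ χ hχ (χ x) hconst (e i i)
  have h3 : (χ x - 1) * mtr (conjugatesOf x) e = 0 := by
    rw [sub_mul, one_mul, ← h2, h1, sub_self]
  rcases mul_eq_zero.mp h3 with h4 | h4
  · exact absurd (sub_eq_zero.mp h4) hx
  · exact h4

/-- The torsion elements of a finitely generated subgroup of an abelian group form a finite set. -/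
theorem finite_torsion_closure {A : Type*} [AddCommGroup A] (s : Finset A) :
    {a : A | a ∈ AddSubgroup.closure (s : Set A) ∧ IsOfFinAddOrder a}.Finite := by
  haveI : AddGroup.FG (AddSubgroup.closure (s : Set A)) := AddGroup.closure_finset_fg s
  haveI : Module.Finite ℤ (AddSubgroup.closure (s : Set A)) :=
    Module.Finite.iff_addGroup_fg.mpr inferInstance
  haveI : Finite (Submodule.torsion ℤ (AddSubgroup.closure (s : Set A))) :=
    Module.finite_of_fg_torsion _ (Submodule.torsion_isTorsion)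
  refine Set.Finite.subset (Set.finite_range
    (fun t : Submodule.torsion ℤ (AddSubgroup.closure (s : Set A)) =>
      ((t : AddSubgroup.closure (s : Set A)) : A))) ?_
  rintro a ⟨haB, hfin⟩
  obtain ⟨k, hk, hka⟩ := isOfFinAddOrder_iff_nsmul_eq_zero.mp hfin
  refine ⟨⟨⟨a, haB⟩, ?_⟩, rfl⟩
  rw [Submodule.mem_torsion_iff]
  refine ⟨⟨(k : ℤ), mem_nonZeroDivisors_of_ne_zero (by exact_mod_cast hk.ne')⟩, ?_⟩
  apply Subtype.ext
  simpa using hka

/-- **Finiteness and torsion of the support modulo commutators.** For an idempotent matrix `e`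
over `L1 G` and an additive map `ψ` from `G` to an abelian group, the values of `ψ` on the
classes with nonzero class-sum trace lie in a finite set of elements of finite order. -/
theorem exists_finite_torsion_support {A : Type*} [AddCommGroup A] (ψ : G → A)
    (hψ : ∀ a b, ψ (a * b) = ψ a + ψ b) (e : Matrix n n (L1 G)) (he : e * e = e) :
    ∃ Φ : Finset A, (∀ a ∈ Φ, IsOfFinAddOrder a) ∧
      ∀ x : G, mtr (conjugatesOf x) e ≠ 0 → ψ x ∈ Φ := by
  classical
  obtain ⟨F, hF⟩ := exists_support_finset e he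
  have hfin := finite_torsion_closure (F.image ψ)
  have hψ1 : ψ 1 = 0 := by
    have := hψ 1 1
    rw [mul_one] at this
    exact (add_eq_left.mp this.symm)
  refine ⟨hfin.toFinset, fun a ha => ((Set.Finite.mem_toFinset hfin).mp ha).2, fun x hx => ?_⟩
  rw [Set.Finite.mem_toFinset]
  constructor
  · by_contra hnot
    have hq : (QuotientAddGroup.mk (ψ x) :
        A ⧸ AddSubgroup.closure ((F.image ψ : Finset A) : Set A)) ≠ 0 := by
      rw [Ne, QuotientAddGroup.eq_zero_iff]
      exact hnot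
    obtain ⟨χ₀, hn, hm, h0, hne⟩ := exists_unitary_char_ne_one _ hq
    refine hx (hF (fun g => χ₀ (QuotientAddGroup.mk (ψ g))) (fun g => hn _)
      (fun g h => by rw [hψ, QuotientAddGroup.mk_add, hm]) (fun g hg => ?_) x hne)
    have hmem : ψ g ∈ AddSubgroup.closure ((F.image ψ : Finset A) : Set A) :=
      AddSubgroup.subset_closure (Finset.mem_coe.mpr (Finset.mem_image_of_mem ψ hg))
    rw [(QuotientAddGroup.eq_zero_iff _).mpr hmem, h0]
  · by_contra hnot
    obtain ⟨f, hf⟩ := exists_real_hom_ne_zero (ψ x) hnot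
    refine hx (mtr_eq_zero_of_hom (fun g => f (ψ g)) (fun a b => by rw [hψ, map_add])
      (conjugatesOf x) (conj_swap_mem x) (f (ψ x)) hf ?_ e he)
    intro g hg
    obtain ⟨c, rfl⟩ := isConj_iff.mp hg
    have h2 : ψ c + ψ c⁻¹ = 0 := by rw [← hψ, mul_inv_cancel, hψ1]
    have h3 : ψ (c * x * c⁻¹) = ψ x := by
      rw [hψ, hψ]
      calc ψ c + ψ x + ψ c⁻¹ = ψ x + (ψ c + ψ c⁻¹) := by abel
        _ = ψ x := by rw [h2, add_zero]
    rw [h3]

end matrix

end L1

end Vale.Agent.H49
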