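import Vale.Agent.H49.TransVal

/-!
# Matrices of infinite order in positive characteristic

A square matrix of infinite multiplicative order over a field `K` of characteristic `p > 0` has,
over the algebraic closure `L` of `K`, an eigenvalue `μ` and an absolute value `v` on `L` with
`v μ ≠ 1`: if all eigenvalues were nonzero and algebraic over the prime field they would be roots
of unity, and the matrix would have finite order; so either `0` is an eigenvalue or some
eigenvalue is transcendental over the prime field.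
-/

namespace Vale.Agent.H49.RankOne

open Polynomial

/-- A nonzero element that is algebraic over `ZMod p` is a root of unity. -/
theorem exists_pow_eq_one_of_isAlgebraic {L : Type*} [Field L] (p : ℕ) [Fact p.Prime]
    [Algebra (ZMod p) L] {a : L} (ha0 : a ≠ 0) (ha : IsAlgebraic (ZMod p) a) :
    ∃ N : ℕ, 0 < N ∧ a ^ N = 1 := by
  have hint : IsIntegral (ZMod p) a := ha.isIntegral
  have hfd : FiniteDimensional (ZMod p) (IntermediateField.adjoin (ZMod p) {a}) :=
    IntermediateField.adjoin.finiteDimensional hint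
  have hfin : Finite (IntermediateField.adjoin (ZMod p) {a}) := Module.finite_of_finite (ZMod p)
  have hmem : a ∈ IntermediateField.adjoin (ZMod p) {a} :=
    IntermediateField.mem_adjoin_simple_self _ a
  obtain ⟨i, j, hij, h⟩ := Finite.exists_ne_map_eq_of_infinite
    (fun n : ℕ => (⟨a, hmem⟩ : IntermediateField.adjoin (ZMod p) {a}) ^ n)
  have h' : a ^ i = a ^ j := by
    have := congrArg (fun z : IntermediateField.adjoin (ZMod p) {a} => (z : L)) h
    simpa using this
  rcases Nat.lt_or_gt_of_ne hij with hlt | hlt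
  · refine ⟨j - i, Nat.sub_pos_of_lt hlt, ?_⟩
    have hj : j = (j - i) + i := (Nat.sub_add_cancel hlt.le).symm
    rw [hj, pow_add] at h'
    have := mul_right_cancel₀ (pow_ne_zero i ha0)
      (by rw [one_mul]; exact h' : 1 * a ^ i = a ^ (j - i) * a ^ i)
    exact this.symm
  · refine ⟨i - j, Nat.sub_pos_of_lt hlt, ?_⟩
    have hi : i = (i - j) + j := (Nat.sub_add_cancel hlt.le).symm
    rw [hi, pow_add] at h'
    have := mul_right_cancel₀ (pow_ne_zero j ha0)
      (by rw [one_mul]; exact h' : a ^ (i - j) * a ^ j = 1 * a ^ j)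
    exact this

/-- Over an algebraically closed field of characteristic `p`, a square matrix all of whose
eigenvalues are roots of unity has finite order. -/
theorem pow_eq_one_of_roots {L : Type*} [Field L] [IsAlgClosed L] (p : ℕ) [Fact p.Prime]
    [CharP L p] {n : ℕ} (A : Matrix (Fin n) (Fin n) L)
    (h : ∀ a ∈ A.charpoly.roots, ∃ N : ℕ, 0 < N ∧ a ^ N = 1) :
    ∃ m : ℕ, 0 < m ∧ A ^ m = 1 := by
  classical
  choose! Nf hNf using h
  set N : ℕ := ∏ a ∈ A.charpoly.roots.toFinset, Nf a with hN
  have hNpos : 0 < N := by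
    apply Finset.prod_pos
    intro a ha
    exact (hNf a (Multiset.mem_toFinset.mp ha)).1
  have hroot : ∀ a ∈ A.charpoly.roots, a ^ N = 1 := by
    intro a ha
    obtain ⟨c, hc⟩ := Finset.dvd_prod_of_mem Nf (Multiset.mem_toFinset.mpr ha)
    rw [hN, hc, pow_mul, (hNf a ha).2, one_pow]
  set c := Multiset.card A.charpoly.roots with hc
  have hsplit : A.charpoly = (A.charpoly.roots.map (X - C ·)).prod :=
    (IsAlgClosed.splits A.charpoly).eq_prod_roots_of_monic (Matrix.charpoly_monic A)
  have hdvd1 : A.charpoly ∣ (X ^ N - 1 : L[X]) ^ c := by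
    have h1 : (A.charpoly.roots.map (X - C ·)).prod ∣
        (A.charpoly.roots.map (fun _ => (X ^ N - 1 : L[X]))).prod := by
      apply Multiset.prod_dvd_prod_of_dvd
      intro a ha
      rw [dvd_iff_isRoot]
      simp [hroot a ha]
    rw [← hsplit] at h1
    simpa [hc] using h1
  have hcp : c ≤ p ^ c := (Nat.lt_pow_self (Fact.out : p.Prime).one_lt).le
  have hdvd2 : A.charpoly ∣ (X ^ (N * p ^ c) - 1 : L[X]) := by
    have h2 : (X ^ N - 1 : L[X]) ^ (p ^ c) = X ^ (N * p ^ c) - 1 := by
      rw [sub_pow_char_pow_of_commute p c (Commute.all _ _), one_pow, ← pow_mul]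
    rw [← h2]
    exact hdvd1.trans (pow_dvd_pow _ hcp)
  obtain ⟨q, hq⟩ := hdvd2
  have h3 : aeval A (X ^ (N * p ^ c) - 1 : L[X]) = 0 := by
    rw [hq, map_mul, Matrix.aeval_self_charpoly, zero_mul]
  refine ⟨N * p ^ c, Nat.mul_pos hNpos (pow_pos (Fact.out : p.Prime).pos _), ?_⟩
  simpa [sub_eq_zero] using h3

/-- A matrix of infinite order over a field of positive characteristic has, over the algebraic
closure, an eigenvalue at which some absolute value is not `1`. -/
theorem exists_eigen_absVal {K : Type*} [Field K] (p : ℕ) [Fact p.Prime] [CharP K p] {n : ℕ}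
    (M : Matrix (Fin n) (Fin n) K) (hM : ¬ IsOfFinOrder M) :
    ∃ (μ : AlgebraicClosure K) (w : Fin n → AlgebraicClosure K) (v :
      AbsoluteValue (AlgebraicClosure K) ℝ), w ≠ 0 ∧
      (M.map (algebraMap K (AlgebraicClosure K))).mulVec w = μ • w ∧ v μ ≠ 1 := by
  classical
  set L := AlgebraicClosure K with hL
  let _ : Algebra (ZMod p) L := ZMod.algebra L p
  set A : Matrix (Fin n) (Fin n) L := M.map (algebraMap K L) with hA
  -- an eigenvector for every root of the characteristic polynomial
  have heig : ∀ a ∈ A.charpoly.roots, ∃ w : Fin n → L, w ≠ 0 ∧ A.mulVec w = a • w := by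
    intro a ha
    have hroot : A.charpoly.eval a = 0 := (mem_roots'.mp ha).2
    rw [Matrix.eval_charpoly] at hroot
    obtain ⟨w, hw0, hw⟩ := Matrix.exists_mulVec_eq_zero_iff.mpr hroot
    refine ⟨w, hw0, ?_⟩
    rw [Matrix.sub_mulVec, sub_eq_zero] at hw
    rw [← hw]
    ext i
    simp [Matrix.mulVec, dotProduct, Matrix.scalar_apply, Matrix.diagonal_apply]
  by_cases hall : ∀ a ∈ A.charpoly.roots, a ≠ 0 ∧ IsAlgebraic (ZMod p) a
  · exfalso
    apply hM
    obtain ⟨m, hm, hAm⟩ := pow_eq_one_of_roots p A
      (fun a ha => exists_pow_eq_one_of_isAlgebraic p (hall a ha).1 (hall a ha).2)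
    rw [isOfFinOrder_iff_pow_eq_one]
    refine ⟨m, hm, ?_⟩
    have h1 : (M ^ m).map (algebraMap K L) = (1 : Matrix (Fin n) (Fin n) K).map (algebraMap K L) := by
      have h2 : (M ^ m).map (algebraMap K L) = A ^ m := by
        rw [hA]
        exact map_pow (algebraMap K L).mapMatrix M m
      rw [h2, hAm]
      simp
    exact Matrix.map_injective (FaithfulSMul.algebraMap_injective K L) h1
  · push Not at hall
    obtain ⟨a, ha, ha2⟩ := hall
    obtain ⟨w, hw0, hw⟩ := heig a ha
    by_cases ha0 : a = 0
    · refine ⟨a, w, AbsoluteValue.trivial, hw0, hw, ?_⟩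
      rw [ha0]
      simp
    · have htr : Transcendental (ZMod p) a := ha2 ha0
      obtain ⟨v, hv⟩ := exists_absVal_ne_one (k := ZMod p) htr
      exact ⟨a, w, v, hw0, hw, hv⟩

end Vale.Agent.H49.RankOne
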