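import Vale.Agent.H49.MixedVal
import Vale.Agent.H49.CharPEigen

/-!
# Eigenvalues that are not units of the ring of algebraic integers

Let `M` be a square matrix over a field `K` (of any characteristic) and let `μ`, in the algebraic
closure `L` of `K`, be a root of the characteristic polynomial of `M` such that `μ` or `μ⁻¹` is
not integral over `ℤ`.  Then `μ` is an eigenvalue of `M` over `L` and `L` carries a real-valued
absolute value `v` with `v μ ≠ 1`.
-/

namespace Vale.Agent.H49.RankOne

open Polynomial

/-- A root of the characteristic polynomial in the algebraic closure is an eigenvalue there. -/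
theorem exists_eigenvector_of_root {K : Type*} [Field K] {n : ℕ} (M : Matrix (Fin n) (Fin n) K)
    (μ : AlgebraicClosure K) (hroot : aeval μ M.charpoly = 0) :
    ∃ w : Fin n → AlgebraicClosure K, w ≠ 0 ∧
      (M.map (algebraMap K (AlgebraicClosure K))).mulVec w = μ • w := by
  classical
  have h1 : (M.map (algebraMap K (AlgebraicClosure K))).charpoly.eval μ = 0 := by
    have h2 : (M.map (algebraMap K (AlgebraicClosure K))).charpoly =
        M.charpoly.map (algebraMap K (AlgebraicClosure K)) :=
      Matrix.charpoly_map M (algebraMap K (AlgebraicClosure K))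
    rw [h2, eval_map, ← aeval_def]
    exact hroot
  rw [Matrix.eval_charpoly] at h1
  obtain ⟨w, hw0, hw⟩ := Matrix.exists_mulVec_eq_zero_iff.mpr h1
  refine ⟨w, hw0, ?_⟩
  rw [Matrix.sub_mulVec, sub_eq_zero] at hw
  rw [← hw]
  ext i
  simp [Matrix.mulVec, dotProduct, Matrix.scalar_apply, Matrix.diagonal_apply]

/-- In a field of positive characteristic, an element `μ` such that `μ` or `μ⁻¹` is not integral
over `ℤ` is transcendental over the prime field. -/
theorem transcendental_of_not_isIntegral {L : Type*} [Field L] (p : ℕ) [Fact p.Prime]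
    [Algebra (ZMod p) L] {μ : L} (hμ : ¬ IsIntegral ℤ μ ∨ ¬ IsIntegral ℤ μ⁻¹) :
    Transcendental (ZMod p) μ := by
  intro halg
  by_cases h0 : μ = 0
  · subst h0
    rcases hμ with h | h
    · exact h isIntegral_zero
    · rw [inv_zero] at h
      exact h isIntegral_zero
  · obtain ⟨N, hN, hpow⟩ := exists_pow_eq_one_of_isAlgebraic p h0 halg
    rcases hμ with h | h
    · apply h
      apply IsIntegral.of_pow hN
      rw [hpow]
      exact isIntegral_one
    · apply h
      apply IsIntegral.of_pow hN
      rw [inv_pow, hpow, inv_one]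
      exact isIntegral_one

/-- A root `μ` of the characteristic polynomial such that `μ` or `μ⁻¹` is not integral over `ℤ`
is an eigenvalue over the algebraic closure, at which some absolute value is not `1`. -/
theorem exists_eigen_absVal_of_not_isIntegral {K : Type*} [Field K] {n : ℕ}
    (M : Matrix (Fin n) (Fin n) K) (μ : AlgebraicClosure K) (hroot : aeval μ M.charpoly = 0)
    (hμ : ¬ IsIntegral ℤ μ ∨ ¬ IsIntegral ℤ μ⁻¹) :
    ∃ (w : Fin n → AlgebraicClosure K) (v : AbsoluteValue (AlgebraicClosure K) ℝ), w ≠ 0 ∧
      (M.map (algebraMap K (AlgebraicClosure K))).mulVec w = μ • w ∧ v μ ≠ 1 := by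
  obtain ⟨w, hw0, hw⟩ := exists_eigenvector_of_root M μ hroot
  obtain ⟨p, hp⟩ := CharP.exists K
  rcases CharP.char_is_prime_or_zero K p with hpp | hp0
  · have : Fact p.Prime := ⟨hpp⟩
    let _ : Algebra (ZMod p) (AlgebraicClosure K) := ZMod.algebra _ p
    obtain ⟨v, hv⟩ := exists_absVal_ne_one (k := ZMod p) (transcendental_of_not_isIntegral p hμ)
    exact ⟨w, v, hw0, hw, hv⟩
  · subst hp0
    have hK0 : CharZero K := CharP.charP_to_charZero K
    have hμ0 : μ ≠ 0 := by
      rintro rfl
      rcases hμ with h | h
      · exact h isIntegral_zero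
      · rw [inv_zero] at h
        exact h isIntegral_zero
    obtain ⟨v, hv⟩ := exists_absVal_ne_one_of_not_isIntegral hμ0 hμ
    exact ⟨w, v, hw0, hw, hv⟩

end Vale.Agent.H49.RankOne
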