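import Vale.Agent.H49.Restrict

/-!
# From explicit matrix entries to matrices over `L1 G`
-/

namespace Vale.Agent.H49

open scoped BigOperators

namespace L1

variable {G : Type*} [Group G] {q : ℕ}

/-- The matrix over `L1 G` with the given absolutely summable entries. -/
noncomputable def ofEntries (e : Fin q → Fin q → G → ℂ)
    (hsum : ∀ i j, Summable fun g => ‖e i j g‖) : Matrix (Fin q) (Fin q) (L1 G) :=
  fun i j => mk' (e i j) (hsum i j)

theorem ofEntries_idem (e : Fin q → Fin q → G → ℂ)
    (hsum : ∀ i j, Summable fun g => ‖e i j g‖)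
    (hidem : ∀ i j g, ∑ k, ∑' h, e i k h * e k j (h⁻¹ * g) = e i j g) :
    ofEntries e hsum * ofEntries e hsum = ofEntries e hsum := by
  ext i j g
  rw [Matrix.mul_apply, sum_apply]
  exact hidem i j g

theorem mtr_ofEntries (e : Fin q → Fin q → G → ℂ)
    (hsum : ∀ i j, Summable fun g => ‖e i j g‖) (C : Set G) :
    mtr C (ofEntries e hsum) = ∑' y : C, ∑ i, e i i y := by
  have hswap : ∑' y : C, ∑ i, e i i y = ∑ i, ∑' y : C, e i i y :=
    Summable.tsum_finsetSum (f := fun i (y : C) => e i i y)
      (fun i _ => ((hsum i i).of_norm.subtype C))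
  rw [hswap, mtr_apply]
  refine Finset.sum_congr rfl (fun i _ => ?_)
  exact (tsum_subtype C (e i i)).symm

end L1

end Vale.Agent.H49
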