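import Mathlib

/-!
# A basis of an eigenspace in matrix form

For a square matrix `A` with an eigenvector for the eigenvalue `μ`, we produce matrices
`B` (`n × d`, whose columns span the eigenspace) and `P` (`d × n`, a left inverse of `B`) such
that every matrix `Z` commuting with `A` satisfies `Z * B = B * (P * Z * B)`.
-/

namespace Vale.Agent.H49

open scoped BigOperators

theorem exists_eigen_basis {K : Type*} [Field K] {n : ℕ} (A : Matrix (Fin n) (Fin n) K) (μ : K)
    (w : Fin n → K) (hw : w ≠ 0) (hA : A.mulVec w = μ • w) :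
    ∃ (d : ℕ) (B : Matrix (Fin n) (Fin d) K) (P : Matrix (Fin d) (Fin n) K), 0 < d ∧
      P * B = 1 ∧ A * B = μ • B ∧
      ∀ Z : Matrix (Fin n) (Fin n) K, Z * A = A * Z → Z * B = B * (P * Z * B) := by
  classical
  set f : Module.End K (Fin n → K) := Matrix.toLin' A with hf
  set W : Submodule K (Fin n → K) := Module.End.eigenspace f μ with hW
  have hwW : w ∈ W := by
    rw [hW, Module.End.mem_eigenspace_iff, hf, Matrix.toLin'_apply]
    exact hA
  have hWne : W ≠ ⊥ := (Submodule.ne_bot_iff W).mpr ⟨w, hwW, hw⟩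
  have hd : 0 < Module.finrank K W := by
    have := (Submodule.one_le_finrank_iff (S := W)).mpr hWne
    omega
  obtain ⟨W', hc⟩ := Submodule.exists_isCompl W
  let b := Module.finBasis K W
  -- the coordinate map and the inclusion
  let L : (Fin n → K) →ₗ[K] (Fin (Module.finrank K W) → K) :=
    (b.equivFun : W →ₗ[K] (Fin (Module.finrank K W) → K)) ∘ₗ (W.projectionOnto W' hc)
  let L' : (Fin (Module.finrank K W) → K) →ₗ[K] (Fin n → K) :=
    W.subtype ∘ₗ (b.equivFun.symm : (Fin (Module.finrank K W) → K) →ₗ[K] W)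
  have hL'W : ∀ c, L' c ∈ W := fun c => Submodule.coe_mem _
  have hLL' : ∀ u : Fin n → K, u ∈ W → L' (L u) = u := by
    intro u hu
    have h1 : W.projectionOnto W' hc u = ⟨u, hu⟩ :=
      Submodule.projectionOnto_apply_left hc ⟨u, hu⟩
    show (W.subtype (b.equivFun.symm (b.equivFun (W.projectionOnto W' hc u)))) = u
    rw [LinearEquiv.symm_apply_apply, h1]
    rfl
  have hL'L : L ∘ₗ L' = LinearMap.id := by
    apply LinearMap.ext
    intro c
    show b.equivFun (W.projectionOnto W' hc (W.subtype (b.equivFun.symm c))) = c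
    have h1 : W.projectionOnto W' hc (W.subtype (b.equivFun.symm c)) = b.equivFun.symm c :=
      Submodule.projectionOnto_apply_left hc (b.equivFun.symm c)
    rw [h1, LinearEquiv.apply_symm_apply]
  refine ⟨Module.finrank K W, LinearMap.toMatrix' L', LinearMap.toMatrix' L, hd, ?_, ?_, ?_⟩
  · rw [← LinearMap.toMatrix'_comp, hL'L, LinearMap.toMatrix'_id]
  · have h1 : f ∘ₗ L' = μ • L' := by
      apply LinearMap.ext
      intro c
      have h0 : f (L' c) = μ • L' c := Module.End.mem_eigenspace_iff.mp (hL'W c)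
      simpa using h0
    have h2 : A = LinearMap.toMatrix' f := by
      rw [hf, LinearMap.toMatrix'_toLin']
    rw [h2, ← LinearMap.toMatrix'_comp, h1, map_smul]
  · intro Z hZ
    set g : Module.End K (Fin n → K) := Matrix.toLin' Z with hg
    have hcomm : ∀ u, g (f u) = f (g u) := by
      intro u
      have h1 : g ∘ₗ f = f ∘ₗ g := by
        rw [hg, hf, ← Matrix.toLin'_mul, ← Matrix.toLin'_mul, hZ]
      exact LinearMap.congr_fun h1 u
    have hgW : ∀ u, u ∈ W → g u ∈ W := by
      intro u hu
      have hu' : f u = μ • u := Module.End.mem_eigenspace_iff.mp hu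
      refine Module.End.mem_eigenspace_iff.mpr ?_
      rw [← hcomm, hu', map_smul]
    have h3 : L' ∘ₗ (L ∘ₗ (g ∘ₗ L')) = g ∘ₗ L' := by
      apply LinearMap.ext
      intro c
      exact hLL' _ (hgW _ (hL'W c))
    have h4 : Z = LinearMap.toMatrix' g := by
      rw [hg, LinearMap.toMatrix'_toLin']
    rw [h4, Matrix.mul_assoc, ← LinearMap.toMatrix'_comp, ← LinearMap.toMatrix'_comp,
      ← LinearMap.toMatrix'_comp, h3]

end Vale.Agent.H49
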