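import Vale.Agent.H49.Length
import Vale.Agent.H49.EigenBasis

/-!
# Linear representations: vanishing of class-sum traces at elements with an eigenvalue of
absolute value different from one
-/

namespace Vale.Agent.H49

open scoped BigOperators

section absval

variable {K : Type*} [Field K] (v : AbsoluteValue K ℝ)

/-- The sum of the absolute values of the entries of a matrix. -/
def esum {m n : Type*} [Fintype m] [Fintype n] (A : Matrix m n K) : ℝ := ∑ i, ∑ j, v (A i j)

theorem esum_nonneg {m n : Type*} [Fintype m] [Fintype n] (A : Matrix m n K) : 0 ≤ esum v A :=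
  Finset.sum_nonneg fun _ _ => Finset.sum_nonneg fun _ _ => v.nonneg _

theorem entry_le_esum {m n : Type*} [Fintype m] [Fintype n] (A : Matrix m n K) (i : m) (j : n) :
    v (A i j) ≤ esum v A := by
  unfold esum
  have h1 : v (A i j) ≤ ∑ j', v (A i j') :=
    Finset.single_le_sum (f := fun j' => v (A i j')) (fun _ _ => v.nonneg _) (Finset.mem_univ j)
  have h2 : ∑ j', v (A i j') ≤ ∑ i', ∑ j', v (A i' j') :=
    Finset.single_le_sum (f := fun i' => ∑ j', v (A i' j'))
      (fun _ _ => Finset.sum_nonneg fun _ _ => v.nonneg _) (Finset.mem_univ i)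
  exact h1.trans h2

theorem esum_mul_le {l m n : Type*} [Fintype l] [Fintype m] [Fintype n] (A : Matrix l m K)
    (B : Matrix m n K) : esum v (A * B) ≤ esum v A * esum v B := by
  unfold esum
  have h1 : ∀ i j, v ((A * B) i j) ≤ (∑ k, v (A i k)) * (∑ k', v (B k' j)) := by
    intro i j
    have : (A * B) i j = ∑ k, A i k * B k j := rfl
    rw [this]
    refine (v.sum_le _ _).trans ?_
    rw [Finset.sum_mul]
    refine Finset.sum_le_sum (fun k _ => ?_)
    rw [v.map_mul]
    refine mul_le_mul_of_nonneg_left ?_ (v.nonneg _)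
    exact Finset.single_le_sum (f := fun k' => v (B k' j)) (fun _ _ => v.nonneg _)
      (Finset.mem_univ k)
  calc ∑ i, ∑ j, v ((A * B) i j)
      ≤ ∑ i, ∑ j, (∑ k, v (A i k)) * (∑ k', v (B k' j)) :=
        Finset.sum_le_sum fun i _ => Finset.sum_le_sum fun j _ => h1 i j
    _ = (∑ i, ∑ k, v (A i k)) * (∑ j, ∑ k', v (B k' j)) := by
        rw [Finset.sum_mul_sum]
    _ = (∑ i, ∑ j, v (A i j)) * ∑ i, ∑ j, v (B i j) := by
        rw [Finset.sum_comm (f := fun j k' => v (B k' j))]

theorem esum_one (d : ℕ) : esum v (1 : Matrix (Fin d) (Fin d) K) = d := by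
  unfold esum
  have h1 : ∀ i : Fin d, ∑ j, v ((1 : Matrix (Fin d) (Fin d) K) i j) = 1 := by
    intro i
    rw [Finset.sum_eq_single i]
    · simp
    · intro j _ hj
      simp [Matrix.one_apply_ne' hj]
    · intro h
      exact absurd (Finset.mem_univ i) h
  simp [h1]

theorem abv_det_le (d : ℕ) (M : Matrix (Fin d) (Fin d) K) :
    v M.det ≤ (d.factorial : ℝ) * esum v M ^ d := by
  rw [Matrix.det_apply]
  refine (v.sum_le _ _).trans ?_
  have h1 : ∀ σ : Equiv.Perm (Fin d),
      v (Equiv.Perm.sign σ • ∏ i, M (σ i) i) ≤ esum v M ^ d := by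
    intro σ
    have h2 : v (Equiv.Perm.sign σ • ∏ i, M (σ i) i) = v (∏ i, M (σ i) i) := by
      rcases Int.units_eq_one_or (Equiv.Perm.sign σ) with h | h
      · rw [h, one_smul]
      · rw [h, Units.neg_smul, one_smul, v.map_neg]
    rw [h2, v.map_prod]
    calc ∏ i, v (M (σ i) i) ≤ ∏ _i : Fin d, esum v M :=
          Finset.prod_le_prod (fun _ _ => v.nonneg _) (fun i _ => entry_le_esum v M _ _)
      _ = esum v M ^ d := by simp
  calc ∑ σ : Equiv.Perm (Fin d), v (Equiv.Perm.sign σ • ∏ i, M (σ i) i)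
      ≤ ∑ _σ : Equiv.Perm (Fin d), esum v M ^ d := Finset.sum_le_sum fun σ _ => h1 σ
    _ = (d.factorial : ℝ) * esum v M ^ d := by
        simp [Fintype.card_perm]

end absval

namespace K1

section linear

variable {G : Type*} [Group G] {K : Type*} [Field K] (v : AbsoluteValue K ℝ) {n : ℕ}
  (ρ : G →* Matrix (Fin n) (Fin n) K)

/-- The size `max 1 (max (esum (ρ g)) (esum (ρ g⁻¹)))` of a group element in a linear
representation. -/
noncomputable def rsize (g : G) : ℝ := max 1 (max (esum v (ρ g)) (esum v (ρ g⁻¹)))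

theorem one_le_rsize (g : G) : 1 ≤ rsize v ρ g := le_max_left _ _

theorem rsize_inv (g : G) : rsize v ρ g⁻¹ = rsize v ρ g := by
  unfold rsize
  rw [inv_inv, max_comm (esum v (ρ g⁻¹))]

theorem esum_le_rsize (g : G) : esum v (ρ g) ≤ rsize v ρ g :=
  (le_max_left _ _).trans (le_max_right _ _)

theorem rsize_mul_le (g h : G) : rsize v ρ (g * h) ≤ rsize v ρ g * rsize v ρ h := by
  have hg := one_le_rsize v ρ g
  have hh := one_le_rsize v ρ h
  have h1 : esum v (ρ (g * h)) ≤ rsize v ρ g * rsize v ρ h := by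
    rw [map_mul]
    refine (esum_mul_le v _ _).trans ?_
    exact mul_le_mul (esum_le_rsize v ρ g) (esum_le_rsize v ρ h) (esum_nonneg v _) (by linarith)
  have h2 : esum v (ρ (g * h)⁻¹) ≤ rsize v ρ g * rsize v ρ h := by
    rw [mul_inv_rev, map_mul]
    refine (esum_mul_le v _ _).trans ?_
    have a1 : esum v (ρ h⁻¹) ≤ rsize v ρ h := by
      have := esum_le_rsize v ρ h⁻¹
      rwa [rsize_inv] at this
    have a2 : esum v (ρ g⁻¹) ≤ rsize v ρ g := by
      have := esum_le_rsize v ρ g⁻¹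
      rwa [rsize_inv] at this
    calc esum v (ρ h⁻¹) * esum v (ρ g⁻¹) ≤ rsize v ρ h * rsize v ρ g :=
          mul_le_mul a1 a2 (esum_nonneg v _) (by linarith)
      _ = rsize v ρ g * rsize v ρ h := mul_comm _ _
  unfold rsize at hg hh ⊢
  refine max_le ?_ (max_le h1 h2)
  nlinarith

/-- **Linear criterion.** Let `ρ` be a representation of `G` by `n × n` matrices over a field
`K` carrying an absolute value `v`, and let `x ∈ G` be such that `ρ x` has an eigenvalue `μ`
with `v μ ≠ 1`.  Then the class-sum trace over the conjugacy class of `x` of every idempotent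
matrix over `L1 G` vanishes. -/
theorem mtr_eq_zero_of_eigenvalue {N : Type*} [Fintype N] [DecidableEq N] (x : G) (μ : K)
    (w : Fin n → K) (hw : w ≠ 0) (hμ : (ρ x).mulVec w = μ • w) (hv : v μ ≠ 1)
    (e : Matrix N N (L1 G)) (he : e * e = e) : L1.mtr (conjugatesOf x) e = 0 := by
  obtain ⟨d, B, P, hd, hPB, hAB, hZ⟩ := exists_eigen_basis (ρ x) μ w hw hμ
  -- the restricted matrices
  set M : G → Matrix (Fin d) (Fin d) K := fun g => P * ρ g * B with hM
  have hcomm : ∀ ζ : G, ζ * x = x * ζ → ρ ζ * B = B * M ζ := by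
    intro ζ hζ
    have h1 : ρ ζ * ρ x = ρ x * ρ ζ := by rw [← map_mul, ← map_mul, hζ]
    exact hZ (ρ ζ) h1
  have hMmul : ∀ g ζ : G, ζ * x = x * ζ → M (g * ζ) = M g * M ζ := by
    intro g ζ hζ
    show P * ρ (g * ζ) * B = P * ρ g * B * M ζ
    rw [map_mul, Matrix.mul_assoc, Matrix.mul_assoc, hcomm ζ hζ, Matrix.mul_assoc,
      Matrix.mul_assoc]
  have hM1 : M 1 = 1 := by
    show P * ρ 1 * B = 1
    rw [map_one, Matrix.mul_one, hPB]
  have hinvc : ∀ ζ : G, ζ * x = x * ζ → ζ⁻¹ * x = x * ζ⁻¹ := by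
    intro ζ hζ
    have h1 : ζ⁻¹ * (ζ * x) * ζ⁻¹ = ζ⁻¹ * (x * ζ) * ζ⁻¹ := by rw [hζ]
    have h2 : ζ⁻¹ * (ζ * x) * ζ⁻¹ = x * ζ⁻¹ := by group
    have h3 : ζ⁻¹ * (x * ζ) * ζ⁻¹ = ζ⁻¹ * x := by group
    rw [h2, h3] at h1
    exact h1.symm
  have hdet : ∀ ζ : G, ζ * x = x * ζ → (M ζ).det * (M ζ⁻¹).det = 1 := by
    intro ζ hζ
    rw [← Matrix.det_mul, ← hMmul ζ ζ⁻¹ (hinvc ζ hζ), mul_inv_cancel, hM1, Matrix.det_one]
  have hvdet : ∀ ζ : G, ζ * x = x * ζ → v (M ζ).det * v (M ζ⁻¹).det = 1 := by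
    intro ζ hζ
    rw [← v.map_mul, hdet ζ hζ, v.map_one]
  have hpos : ∀ ζ : G, ζ * x = x * ζ → 0 < v (M ζ).det := by
    intro ζ hζ
    have h1 := hvdet ζ hζ
    have h2 : v (M ζ).det ≠ 0 := by
      intro h0
      rw [h0, zero_mul] at h1
      exact zero_ne_one h1
    exact lt_of_le_of_ne (v.nonneg _) (Ne.symm h2)
  -- the character and the length function
  set φ : G → ℝ := fun g => Real.log (v (M g).det) with hφdef
  set Q : ℝ := (d.factorial : ℝ) * (esum v P * esum v B) ^ d with hQ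
  have hPBge : (1 : ℝ) ≤ esum v P * esum v B := by
    have h1 := esum_mul_le v P B
    rw [hPB, esum_one] at h1
    have h2 : (1 : ℝ) ≤ (d : ℝ) := by exact_mod_cast hd
    linarith
  have hQ1 : 1 ≤ Q := by
    have h1 : (1 : ℝ) ≤ (esum v P * esum v B) ^ d := one_le_pow₀ hPBge
    have h2 : (1 : ℝ) ≤ (d.factorial : ℝ) := by exact_mod_cast Nat.factorial_pos d
    rw [hQ]
    nlinarith
  set ℓ : G → ℝ := fun g => (d : ℝ) * Real.log (rsize v ρ g) + Real.log Q with hℓdef
  have hℓ : ∀ g h, ℓ (g * h) ≤ ℓ g + ℓ h := by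
    intro g h
    have hg := one_le_rsize v ρ g
    have hh := one_le_rsize v ρ h
    have h1 : Real.log (rsize v ρ (g * h)) ≤ Real.log (rsize v ρ g) + Real.log (rsize v ρ h) := by
      rw [← Real.log_mul (by linarith) (by linarith)]
      exact Real.log_le_log (by linarith [one_le_rsize v ρ (g * h)]) (rsize_mul_le v ρ g h)
    have h2 : 0 ≤ Real.log Q := Real.log_nonneg hQ1
    have h3 : (0 : ℝ) ≤ (d : ℝ) := Nat.cast_nonneg d
    show (d : ℝ) * Real.log (rsize v ρ (g * h)) + Real.log Q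
      ≤ ((d : ℝ) * Real.log (rsize v ρ g) + Real.log Q)
        + ((d : ℝ) * Real.log (rsize v ρ h) + Real.log Q)
    nlinarith [mul_le_mul_of_nonneg_left h1 h3]
  have hupper : ∀ ζ : G, ζ * x = x * ζ → φ ζ ≤ ℓ ζ := by
    intro ζ hζ
    have h1 : v (M ζ).det ≤ Q * rsize v ρ ζ ^ d := by
      refine (abv_det_le v d (M ζ)).trans ?_
      have h2 : esum v (M ζ) ≤ esum v P * esum v B * rsize v ρ ζ := by
        have h3 : esum v (M ζ) ≤ esum v P * esum v (ρ ζ) * esum v B :=
          (esum_mul_le v _ _).trans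
            (mul_le_mul_of_nonneg_right (esum_mul_le v _ _) (esum_nonneg v _))
        have h4 : esum v P * esum v (ρ ζ) * esum v B ≤ esum v P * rsize v ρ ζ * esum v B :=
          mul_le_mul_of_nonneg_right
            (mul_le_mul_of_nonneg_left (esum_le_rsize v ρ ζ) (esum_nonneg v _))
            (esum_nonneg v _)
        calc esum v (M ζ) ≤ esum v P * rsize v ρ ζ * esum v B := h3.trans h4
          _ = esum v P * esum v B * rsize v ρ ζ := by ring
      have h5 : esum v (M ζ) ^ d ≤ (esum v P * esum v B * rsize v ρ ζ) ^ d :=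
        pow_le_pow_left₀ (esum_nonneg v _) h2 d
      rw [hQ]
      calc (d.factorial : ℝ) * esum v (M ζ) ^ d
          ≤ (d.factorial : ℝ) * (esum v P * esum v B * rsize v ρ ζ) ^ d :=
            mul_le_mul_of_nonneg_left h5 (Nat.cast_nonneg _)
        _ = (d.factorial : ℝ) * (esum v P * esum v B) ^ d * rsize v ρ ζ ^ d := by
            rw [mul_pow]
            ring
    have hr := one_le_rsize v ρ ζ
    have h6 : Real.log (v (M ζ).det) ≤ Real.log (Q * rsize v ρ ζ ^ d) :=
      Real.log_le_log (hpos ζ hζ) h1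
    rw [Real.log_mul (by linarith) (by positivity), Real.log_pow] at h6
    show Real.log (v (M ζ).det) ≤ (d : ℝ) * Real.log (rsize v ρ ζ) + Real.log Q
    linarith
  have hφinv : ∀ ζ : G, ζ * x = x * ζ → φ ζ⁻¹ = -φ ζ := by
    intro ζ hζ
    have h1 := hvdet ζ hζ
    have h2 := hpos ζ hζ
    have h3 := hpos ζ⁻¹ (hinvc ζ hζ)
    have h4 : Real.log (v (M ζ).det * v (M ζ⁻¹).det) = 0 := by rw [h1, Real.log_one]
    rw [Real.log_mul h2.ne' h3.ne'] at h4
    show Real.log (v (M ζ⁻¹).det) = -Real.log (v (M ζ).det)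
    linarith
  have hφℓ : ∀ η ∈ Subgroup.centralizer {x}, |φ η| ≤ ℓ η := by
    intro η hη
    have hηc : η * x = x * η := Subgroup.mem_centralizer_singleton_iff.mp hη
    rw [abs_le]
    constructor
    · have h1 := hupper η⁻¹ (hinvc η hηc)
      rw [hφinv η hηc] at h1
      have h2 : ℓ η⁻¹ = ℓ η := by
        show (d : ℝ) * Real.log (rsize v ρ η⁻¹) + Real.log Q
          = (d : ℝ) * Real.log (rsize v ρ η) + Real.log Q
        rw [rsize_inv]
      rw [h2] at h1
      linarith
    · exact hupper η hηc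
  have hφadd : ∀ a ∈ Subgroup.centralizer {x}, ∀ b ∈ Subgroup.centralizer {x},
      φ (a * b) = φ a + φ b := by
    intro a ha b hb
    have hac : a * x = x * a := Subgroup.mem_centralizer_singleton_iff.mp ha
    have hbc : b * x = x * b := Subgroup.mem_centralizer_singleton_iff.mp hb
    show Real.log (v (M (a * b)).det) = Real.log (v (M a).det) + Real.log (v (M b).det)
    rw [hMmul a b hbc, Matrix.det_mul, v.map_mul,
      Real.log_mul (hpos a hac).ne' (hpos b hbc).ne']
  have hMx : (M x).det = μ ^ d := by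
    show (P * ρ x * B).det = μ ^ d
    rw [Matrix.mul_assoc, hAB, Matrix.mul_smul, hPB, Matrix.det_smul, Matrix.det_one, mul_one,
      Fintype.card_fin]
  have hφx : φ x ≠ 0 := by
    have h1 := hpos x rfl
    rw [hMx, v.map_pow] at h1
    have hμpos : 0 < v μ := by
      have h2 : v μ ≠ 0 := by
        intro h0
        rw [h0, zero_pow hd.ne'] at h1
        exact lt_irrefl _ h1
      exact lt_of_le_of_ne (v.nonneg _) (Ne.symm h2)
    show Real.log (v (M x).det) ≠ 0
    rw [hMx, v.map_pow, Real.log_pow]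
    refine mul_ne_zero (Nat.cast_ne_zero.mpr hd.ne') ?_
    intro h0
    rcases Real.log_eq_zero.mp h0 with h | h | h
    · exact hμpos.ne' h
    · exact hv h
    · linarith
  have hfin : ((Subgroup.centralizer {x}).subgroupOf (Subgroup.centralizer {x})).FiniteIndex := by
    rw [Subgroup.subgroupOf_self]
    infer_instance
  exact mtr_eq_zero_of_length x ℓ hℓ (Subgroup.centralizer {x})
    (Subgroup.mem_centralizer_singleton_iff.mpr rfl) hfin φ hφadd hφℓ hφx e he

end linear

end K1

end Vale.Agent.H49
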