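import Vale.Agent.H49.EmbedC
import Vale.Agent.H49.EigenAbs
import Vale.Agent.H49.Linear
import Vale.Agent.H49.Explicit

/-!
# Eigenvalues that are algebraic units but not roots of unity

For a countable group `H`, a representation `ρ` of `H` over a field `K` of characteristic zero
and `y ∈ H` such that the characteristic polynomial of `ρ y` has a root `μ` in the algebraic
closure that is a nonzero algebraic integer but not a root of unity, the class-sum trace over the
class of `y` of every idempotent matrix over `L1 H` vanishes: the countable field generated by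
the matrix entries and `μ` embeds into `ℂ` in such a way that the image of `μ` has absolute value
different from `1` (Kronecker), and the linear criterion applies over `ℂ`.
-/

namespace Vale.Agent.H49

open Polynomial

/-- The subgroup generated by a countable set is countable. -/
theorem countable_closure' {G : Type*} [Group G] (S : Set G) (hS : S.Countable) :
    Countable (Subgroup.closure S) := by
  have hSc : Countable S := hS.to_subtype
  have h1 : Countable (FreeGroup S) := by
    unfold FreeGroup
    infer_instance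
  have h2 : (FreeGroup.lift (Subtype.val : S → G)).range = Subgroup.closure S := by
    rw [FreeGroup.range_lift_eq_closure]
    simp
  rw [← h2]
  exact (FreeGroup.lift (Subtype.val : S → G)).rangeRestrict_surjective.countable

/-- A root of the characteristic polynomial in the base field is an eigenvalue. -/
theorem exists_eigenvector_of_eval {K : Type*} [Field K] {n : ℕ} (A : Matrix (Fin n) (Fin n) K)
    (μ : K) (h : A.charpoly.eval μ = 0) : ∃ w : Fin n → K, w ≠ 0 ∧ A.mulVec w = μ • w := by
  classical
  rw [Matrix.eval_charpoly] at h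
  obtain ⟨w, hw0, hw⟩ := Matrix.exists_mulVec_eq_zero_iff.mpr h
  refine ⟨w, hw0, ?_⟩
  rw [Matrix.sub_mulVec, sub_eq_zero] at hw
  rw [← hw]
  ext i
  simp [Matrix.mulVec, dotProduct, Matrix.scalar_apply, Matrix.diagonal_apply]

/-- The usual absolute value of `ℂ`. -/
noncomputable def absC : AbsoluteValue ℂ ℝ where
  toFun z := ‖z‖
  map_mul' := norm_mul
  nonneg' := norm_nonneg
  eq_zero' _ := norm_eq_zero
  add_le' := norm_add_le

theorem mtr_eq_zero_of_unit_eigenvalue {H : Type*} [Group H] [Countable H]
    {K : Type*} [Field K] [CharZero K] {n : ℕ} (ρ : H →* Matrix (Fin n) (Fin n) K) (y : H)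
    (μ : AlgebraicClosure K) (hroot : aeval μ (ρ y).charpoly = 0) (hμ0 : μ ≠ 0)
    (hint : IsIntegral ℤ μ) (hnot : ∀ m : ℕ, 0 < m → μ ^ m ≠ 1)
    {N : Type*} [Fintype N] [DecidableEq N] (e : Matrix N N (L1 H)) (he : e * e = e) :
    L1.mtr (conjugatesOf y) e = 0 := by
  classical
  -- the countable field generated by the matrix entries and `μ`
  set S : Set (AlgebraicClosure K) :=
    (Set.range fun p : H × Fin n × Fin n => algebraMap K (AlgebraicClosure K) (ρ p.1 p.2.1 p.2.2))
      ∪ {μ} with hS
  have hSc : S.Countable := (Set.countable_range _).union (Set.countable_singleton μ)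
  set E : Subfield (AlgebraicClosure K) := Subfield.closure S with hE
  have hEc : Countable E := by
    rw [← Cardinal.mk_le_aleph0_iff]
    refine (Subfield.cardinalMk_closure_le_max S).trans (max_le ?_ le_rfl)
    exact Cardinal.mk_le_aleph0_iff.mpr hSc.to_subtype
  have hE0 : CharZero E := (E.subtype).charZero
  set μE : E := ⟨μ, Subfield.subset_closure (Or.inr rfl)⟩ with hμE
  have hμE0 : μE ≠ 0 := fun h => hμ0 (congrArg Subtype.val h)
  have hintE : IsIntegral ℤ μE := by
    obtain ⟨p, hp, hpμ⟩ := hint
    refine ⟨p, hp, ?_⟩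
    apply E.subtype.injective
    rw [Polynomial.hom_eval₂, map_zero]
    have : (E.subtype).comp (algebraMap ℤ E) = algebraMap ℤ (AlgebraicClosure K) :=
      RingHom.ext_int _ _
    rw [this]
    exact hpμ
  have hnotE : ∀ m : ℕ, 0 < m → μE ^ m ≠ 1 := by
    intro m hm h
    exact hnot m hm (congrArg Subtype.val h)
  obtain ⟨θ, hθ⟩ := RankOne.exists_ringHom_norm_ne_one hμE0 hintE hnotE
  -- the representation over `E`, then over `ℂ`
  have hιinj : Function.Injective E.subtype := Subtype.val_injective
  let ρE : H → Matrix (Fin n) (Fin n) E := fun h => Matrix.of fun i j =>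
    ⟨algebraMap K (AlgebraicClosure K) (ρ h i j),
      Subfield.subset_closure (Or.inl ⟨(h, i, j), rfl⟩)⟩
  have hρE : ∀ h, (ρE h).map E.subtype = (ρ h).map (algebraMap K (AlgebraicClosure K)) :=
    fun h => rfl
  have hmapinj : Function.Injective
      (fun A : Matrix (Fin n) (Fin n) E => A.map E.subtype) := Matrix.map_injective hιinj
  have hρE1 : ρE 1 = 1 := by
    apply hmapinj
    show (ρE 1).map E.subtype = (1 : Matrix (Fin n) (Fin n) E).map E.subtype
    rw [hρE, map_one, Matrix.map_one _ (map_zero _) (map_one _),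
      Matrix.map_one _ (map_zero _) (map_one _)]
  have hρEmul : ∀ a b, ρE (a * b) = ρE a * ρE b := by
    intro a b
    apply hmapinj
    show (ρE (a * b)).map E.subtype = (ρE a * ρE b).map E.subtype
    rw [Matrix.map_mul, hρE, hρE, hρE, map_mul, Matrix.map_mul]
  let ρC : H →* Matrix (Fin n) (Fin n) ℂ :=
    { toFun := fun h => (ρE h).map θ
      map_one' := by
        rw [hρE1]
        exact Matrix.map_one _ (map_zero _) (map_one _)
      map_mul' := fun a b => by rw [hρEmul, Matrix.map_mul] }
  have hrootE : (ρE y).charpoly.eval μE = 0 := by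
    apply hιinj
    rw [map_zero]
    have h1 : E.subtype ((ρE y).charpoly.eval μE) =
        ((ρE y).charpoly.map E.subtype).eval (E.subtype μE) := by
      rw [Polynomial.eval_map, Polynomial.eval₂_at_apply]
    rw [h1, ← Matrix.charpoly_map, hρE, Matrix.charpoly_map, Polynomial.eval_map,
      ← Polynomial.aeval_def]
    exact hroot
  have hrootC : (ρC y).charpoly.eval (θ μE) = 0 := by
    show ((ρE y).map θ).charpoly.eval (θ μE) = 0
    rw [Matrix.charpoly_map, Polynomial.eval_map, Polynomial.eval₂_at_apply, hrootE, map_zero]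
  obtain ⟨w, hw0, hw⟩ := exists_eigenvector_of_eval (ρC y) (θ μE) hrootC
  exact K1.mtr_eq_zero_of_eigenvalue absC ρC y (θ μE) w hw0 hw hθ e he

section reduce

variable {G : Type*} [Group G] {q : ℕ}

/-- The convolution identity restricts to a subgroup containing the supports. -/
theorem hidem_restrict (e : Fin q → Fin q → G → ℂ)
    (hidem : ∀ i j g, ∑ k, ∑' h, e i k h * e k j (h⁻¹ * g) = e i j g)
    (G₀ : Subgroup G) (hsupp : ∀ i j g, e i j g ≠ 0 → g ∈ G₀) (i j : Fin q) (g : G₀) :
    ∑ k, ∑' h : G₀, e i k (h : G) * e k j ((h⁻¹ * g : G₀) : G) = e i j (g : G) := by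
  rw [← hidem i j g]
  refine Finset.sum_congr rfl (fun k _ => ?_)
  have hs : Function.support (fun h : G => e i k h * e k j (h⁻¹ * (g : G))) ⊆ (G₀ : Set G) := by
    intro h hh
    exact hsupp i k h (left_ne_zero_of_mul hh)
  have h1 := tsum_subtype_eq_of_support_subset hs
  rw [← h1]
  rfl

/-- Reduction of a class sum to the classes of a subgroup containing the supports. -/
theorem tsum_conj_eq_zero_of_subgroup (e : Fin q → Fin q → G → ℂ)
    (hsum : ∀ i j, Summable fun g => ‖e i j g‖) (x : G) (G₀ : Subgroup G)
    (hsupp : ∀ i j g, e i j g ≠ 0 → g ∈ G₀)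
    (h0 : ∀ y : G₀, (y : G) ∈ conjugatesOf x →
      ∑' z : conjugatesOf y, ∑ i, e i i ((z : G₀) : G) = 0) :
    ∑' z : conjugatesOf x, ∑ i, e i i z = 0 := by
  classical
  set f : G → ℂ := fun g => ∑ i, e i i g with hf
  have hfsum : Summable f := summable_sum (fun i _ => (hsum i i).of_norm)
  have hfsupp : ∀ g, f g ≠ 0 → g ∈ G₀ := by
    intro g hg
    by_contra hgG
    apply hg
    apply Finset.sum_eq_zero
    intro i _
    by_contra hne
    exact hgG (hsupp i i g hne)
  set F : G₀ → ℂ := fun g => Set.indicator (conjugatesOf x) f (g : G) with hF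
  have hFsum : Summable F := (hfsum.indicator _).comp_injective Subtype.val_injective
  have h1 : ∑' z : conjugatesOf x, f z = ∑' g : G₀, F g := by
    rw [tsum_subtype (conjugatesOf x) f]
    have hs : Function.support (Set.indicator (conjugatesOf x) f) ⊆ (G₀ : Set G) := by
      intro g hg
      apply hfsupp g
      intro h0'
      apply hg
      by_cases hgx : g ∈ conjugatesOf x
      · rw [Set.indicator_of_mem hgx, h0']
      · rw [Set.indicator_of_notMem hgx]
    exact (tsum_subtype_eq_of_support_subset hs).symm
  show ∑' z : conjugatesOf x, f z = 0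
  rw [h1]
  have h2 : ∑' g : G₀, F g =
      ∑' c : ConjClasses G₀, ∑' g : {g : G₀ // ConjClasses.mk g = c}, F g := by
    rw [← (Equiv.sigmaFiberEquiv (ConjClasses.mk : G₀ → ConjClasses G₀)).tsum_eq F]
    exact Summable.tsum_sigma' (fun c => hFsum.comp_injective Subtype.val_injective)
      (hFsum.comp_injective (Equiv.sigmaFiberEquiv _).injective)
  rw [h2]
  have hconj : ∀ a b : G₀, IsConj a b → ((a : G) ∈ conjugatesOf x ↔ (b : G) ∈ conjugatesOf x) := by
    intro a b hab
    have hab' : IsConj (a : G) (b : G) := G₀.subtype.map_isConj hab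
    constructor
    · intro ha
      exact IsConj.trans ha hab'
    · intro hb
      exact IsConj.trans hb hab'.symm
  have h3 : ∀ c : ConjClasses G₀, ∑' g : {g : G₀ // ConjClasses.mk g = c}, F g = 0 := by
    intro c
    obtain ⟨y, rfl⟩ := ConjClasses.mk_surjective c
    by_cases hy : (y : G) ∈ conjugatesOf x
    · have hset : {g : G₀ | ConjClasses.mk g = ConjClasses.mk y} = conjugatesOf y := by
        ext g
        show ConjClasses.mk g = ConjClasses.mk y ↔ IsConj y g
        rw [ConjClasses.mk_eq_mk_iff_isConj, isConj_comm]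
      have h4 : ∑' g : {g : G₀ // ConjClasses.mk g = ConjClasses.mk y}, F g =
          ∑' z : conjugatesOf y, F z := by
        show ∑' g : ({g : G₀ | ConjClasses.mk g = ConjClasses.mk y} : Set G₀), F g = _
        rw [hset]
      rw [h4, ← h0 y hy]
      apply tsum_congr
      intro z
      have hz : ((z : G₀) : G) ∈ conjugatesOf x := (hconj y z z.2).mp hy
      show Set.indicator (conjugatesOf x) f ((z : G₀) : G) = _
      rw [Set.indicator_of_mem hz]
    · have h5 : ∀ g : {g : G₀ // ConjClasses.mk g = ConjClasses.mk y}, F g = 0 := by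
        intro g
        have hg : IsConj (g : G₀) y := ConjClasses.mk_eq_mk_iff_isConj.mp g.2
        have hgx : ((g : G₀) : G) ∉ conjugatesOf x := fun h => hy ((hconj _ _ hg).mp h)
        show Set.indicator (conjugatesOf x) f ((g : G₀) : G) = 0
        rw [Set.indicator_of_notMem hgx]
      simp [h5]
  simp [h3]

end reduce

open scoped BigOperators in
/-- **Uniform linear criterion.**  Let `ρ` be a representation of a group `G` over any field and
let `x ∈ G` be such that the characteristic polynomial of `ρ x` has a root, in the algebraic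
closure, that is not a root of unity.  Then the class sum over the conjugacy class of `x` of the
diagonal of every idempotent matrix over `ℓ¹(G)` vanishes. -/
theorem tsum_eq_zero_of_eigenvalue_not_rootOfUnity {G : Type*} [Group G] (q : ℕ)
    (e : Fin q → Fin q → G → ℂ) (hsum : ∀ i j, Summable fun g => ‖e i j g‖)
    (hidem : ∀ i j g, ∑ k, ∑' h, e i k h * e k j (h⁻¹ * g) = e i j g)
    {K : Type*} [Field K] (n : ℕ) (ρ : G →* Matrix (Fin n) (Fin n) K) (x : G)
    (μ : AlgebraicClosure K) (hroot : aeval μ (ρ x).charpoly = 0)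
    (hμ : ∀ m : ℕ, 0 < m → μ ^ m ≠ 1) :
    ∑' y : conjugatesOf x, ∑ i, e i i y = 0 := by
  classical
  by_cases hint : ¬ IsIntegral ℤ μ ∨ ¬ IsIntegral ℤ μ⁻¹
  · obtain ⟨w, v, hw, hev, hv⟩ :=
      RankOne.exists_eigen_absVal_of_not_isIntegral (ρ x) μ hroot hint
    have h := K1.mtr_eq_zero_of_eigenvalue v
      (((algebraMap K (AlgebraicClosure K)).mapMatrix.toMonoidHom).comp ρ) x μ w hw hev hv
      (L1.ofEntries e hsum) (L1.ofEntries_idem e hsum hidem)
    rw [L1.mtr_ofEntries] at h
    exact h
  rw [not_or, not_not, not_not] at hint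
  by_cases hμ0 : μ = 0
  · obtain ⟨w, hw, hev⟩ := RankOne.exists_eigenvector_of_root (ρ x) μ hroot
    have hv : (AbsoluteValue.trivial : AbsoluteValue (AlgebraicClosure K) ℝ) μ ≠ 1 := by
      rw [hμ0]
      simp
    have h := K1.mtr_eq_zero_of_eigenvalue AbsoluteValue.trivial
      (((algebraMap K (AlgebraicClosure K)).mapMatrix.toMonoidHom).comp ρ) x μ w hw hev hv
      (L1.ofEntries e hsum) (L1.ofEntries_idem e hsum hidem)
    rw [L1.mtr_ofEntries] at h
    exact h
  obtain ⟨p, hp⟩ := CharP.exists K
  rcases CharP.char_is_prime_or_zero K p with hpp | hp0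
  · -- positive characteristic: an algebraic integer is a root of unity
    exfalso
    have : Fact p.Prime := ⟨hpp⟩
    let _ : Algebra (ZMod p) (AlgebraicClosure K) := ZMod.algebra _ p
    have halg : IsAlgebraic (ZMod p) μ := (hint.1.tower_top (A := ZMod p)).isAlgebraic
    obtain ⟨N, hN, hpow⟩ := RankOne.exists_pow_eq_one_of_isAlgebraic p hμ0 halg
    exact hμ N hN hpow
  · subst hp0
    have hK0 : CharZero K := CharP.charP_to_charZero K
    -- the countable subgroup generated by the supports
    set G₀ : Subgroup G := Subgroup.closure (⋃ i, ⋃ j, Function.support (e i j)) with hG₀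
    have hcount : Countable G₀ := by
      apply countable_closure'
      exact Set.countable_iUnion fun i => Set.countable_iUnion fun j =>
        (hsum i j).of_norm.countable_support
    have hsupp : ∀ i j g, e i j g ≠ 0 → g ∈ G₀ := by
      intro i j g hg
      apply Subgroup.subset_closure
      exact Set.mem_iUnion.mpr ⟨i, Set.mem_iUnion.mpr ⟨j, hg⟩⟩
    apply tsum_conj_eq_zero_of_subgroup e hsum x G₀ hsupp
    intro y hy
    have hroot' : aeval μ ((ρ.comp G₀.subtype) y).charpoly = 0 := by
      obtain ⟨c, hc⟩ := isConj_iff.mp hy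
      have h1 : ρ (y : G) = ρ c * ρ x * ρ c⁻¹ := by
        rw [← hc, map_mul, map_mul]
      have h2 : (ρ (y : G)).charpoly = (ρ x).charpoly := by
        rw [h1]
        have hc1 : ρ c * ρ c⁻¹ = 1 := by rw [← map_mul, mul_inv_cancel, map_one]
        have hc2 : ρ c⁻¹ * ρ c = 1 := by rw [← map_mul, inv_mul_cancel, map_one]
        have hinv : (ρ c)⁻¹ = ρ c⁻¹ := Matrix.inv_eq_right_inv hc1
        rw [← hinv]
        exact Matrix.charpoly_units_conj (⟨ρ c, ρ c⁻¹, hc1, hc2⟩ : (Matrix (Fin n) (Fin n) K)ˣ)
          (ρ x)
      show aeval μ (ρ (y : G)).charpoly = 0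
      rw [h2]
      exact hroot
    have hsum₀ : ∀ i j, Summable fun g : G₀ => ‖e i j (g : G)‖ :=
      fun i j => (hsum i j).comp_injective Subtype.val_injective
    have hidem₀ := hidem_restrict e hidem G₀ hsupp
    have h := mtr_eq_zero_of_unit_eigenvalue (ρ.comp G₀.subtype) y μ hroot' hμ0 hint.1 hμ
      (L1.ofEntries (fun i j (g : G₀) => e i j (g : G)) hsum₀)
      (L1.ofEntries_idem (fun i j (g : G₀) => e i j (g : G)) hsum₀ hidem₀)
    rw [L1.mtr_ofEntries] at h
    exact h

end Vale.Agent.H49
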