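import Vale.Agent.H49.Length
import Vale.Agent.H49.Explicit

/-!
# Isometries with an axis in a space with the four-point inequality of nonpositive curvature

Let a group `G` act by isometries on a (pseudo)metric space `X` in which the sum of the squares
of the two diagonals of every quadrilateral is at most the sum of the squares of its four sides
(this holds in every `CAT(0)` space).  Let `x ∈ G` and `o ∈ X` be such that
`dist o (x ^ n • o) = n * a` for all `n`, with `a > 0` (the orbit of `o` under the powers of `x`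
lies on an axis of `x`).  The Busemann function `b z = lim (dist z (x ^ n • o) - n * a)` then
satisfies `b (g • z) = b z + b (g • o)` for every `g` commuting with `x`, so `g ↦ b (g • o)` is
additive on the centralizer of `x`, is bounded by the displacement `dist (g • o) o`, and takes
the value `-a` at `x`.  The length-function criterion then shows that the class-sum trace of
every idempotent matrix over `ℓ¹(G)` vanishes at the conjugacy class of `x`.
-/

namespace Vale.Agent.H49.Axis

variable {G : Type*} [Group G] {X : Type*} [PseudoMetricSpace X] [MulAction G X]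

/-- The sequence `dist z (x ^ n • o) - n * a`, whose limit is the Busemann function. -/
noncomputable def bseq (x : G) (a : ℝ) (o z : X) (n : ℕ) : ℝ := dist z (x ^ n • o) - n * a

/-- The Busemann function of the orbit of `o` under the powers of `x`. -/
noncomputable def bus (x : G) (a : ℝ) (o z : X) : ℝ := ⨅ n : ℕ, bseq x a o z n

theorem bseq_ge {x : G} {a : ℝ} {o : X} (haxis : ∀ n : ℕ, dist o (x ^ n • o) = n * a)
    (z : X) (n : ℕ) : -dist o z ≤ bseq x a o z n := by
  have h := dist_triangle o z (x ^ n • o)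
  rw [haxis n] at h
  unfold bseq
  linarith

theorem bddBelow_bseq {x : G} {a : ℝ} {o : X} (haxis : ∀ n : ℕ, dist o (x ^ n • o) = n * a)
    (z : X) : BddBelow (Set.range (bseq x a o z)) :=
  ⟨-dist o z, by rintro _ ⟨n, rfl⟩; exact bseq_ge haxis z n⟩

theorem bus_le {x : G} {a : ℝ} {o : X} (haxis : ∀ n : ℕ, dist o (x ^ n • o) = n * a)
    (z : X) (n : ℕ) : bus x a o z ≤ bseq x a o z n :=
  ciInf_le (bddBelow_bseq haxis z) n

theorem le_bus {x : G} {a : ℝ} {o : X} (z : X) (c : ℝ) (h : ∀ n, c ≤ bseq x a o z n) :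
    c ≤ bus x a o z :=
  le_ciInf h

theorem bus_self {x : G} {a : ℝ} {o : X} (haxis : ∀ n : ℕ, dist o (x ^ n • o) = n * a) :
    bus x a o o = 0 := by
  have h : ∀ n : ℕ, bseq x a o o n = 0 := by
    intro n
    unfold bseq
    rw [haxis n, sub_self]
  unfold bus
  simp [h]

theorem bus_sub_le_dist {x : G} {a : ℝ} {o : X} (haxis : ∀ n : ℕ, dist o (x ^ n • o) = n * a)
    (z w : X) : bus x a o z - bus x a o w ≤ dist z w := by
  have h : bus x a o z - dist z w ≤ bus x a o w := by
    apply le_bus
    intro n
    have h1 := bus_le haxis z n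
    have h2 := dist_triangle z w (x ^ n • o)
    unfold bseq at h1 ⊢
    linarith
  linarith

theorem abs_bus_sub_le_dist {x : G} {a : ℝ} {o : X}
    (haxis : ∀ n : ℕ, dist o (x ^ n • o) = n * a) (z w : X) :
    |bus x a o z - bus x a o w| ≤ dist z w := by
  rw [abs_le]
  constructor
  · have := bus_sub_le_dist haxis w z
    rw [dist_comm] at this
    linarith
  · exact bus_sub_le_dist haxis z w

theorem dist_pow_smul (hiso : ∀ (g : G) (p r : X), dist (g • p) (g • r) = dist p r) (x : G)
    (m k : ℕ) (p o : X) : dist (x ^ m • p) (x ^ (m + k) • o) = dist p (x ^ k • o) := by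
  rw [pow_add, mul_smul, hiso]

/-- First comparison: only the triangle inequality and the isometry are used. -/
theorem bus_le_add (hiso : ∀ (g : G) (p r : X), dist (g • p) (g • r) = dist p r) {x : G} {a : ℝ}
    {o o' : X} (haxis : ∀ n : ℕ, dist o (x ^ n • o) = n * a) (z : X) :
    bus x a o z ≤ bus x a o' z + bus x a o o' := by
  have key : ∀ m k : ℕ, bus x a o z ≤ bseq x a o' z m + bseq x a o o' k := by
    intro m k
    have h1 := bus_le haxis z (m + k)
    have h2 := dist_triangle z (x ^ m • o') (x ^ (m + k) • o)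
    rw [dist_pow_smul hiso] at h2
    unfold bseq at h1 ⊢
    push_cast at h1 ⊢
    linarith
  have h3 : ∀ m : ℕ, bus x a o z - bus x a o o' ≤ bseq x a o' z m := by
    intro m
    have h4 : bus x a o z - bseq x a o' z m ≤ bus x a o o' := by
      apply le_bus
      intro k
      have := key m k
      linarith
    linarith
  have h5 : bus x a o z - bus x a o o' ≤ bus x a o' z := le_bus z _ h3
  linarith

/-- Second comparison: this is where the four-point inequality enters. -/
theorem bus_add_bus_le (hiso : ∀ (g : G) (p r : X), dist (g • p) (g • r) = dist p r)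
    (hquad : ∀ p q r s : X,
      dist p r ^ 2 + dist q s ^ 2 ≤ dist p q ^ 2 + dist q r ^ 2 + dist r s ^ 2 + dist s p ^ 2)
    {x : G} {a : ℝ} (ha : 0 < a) {o o' : X} (haxis : ∀ n : ℕ, dist o (x ^ n • o) = n * a)
    (haxis' : ∀ n : ℕ, dist o' (x ^ n • o') = n * a) :
    bus x a o o' + bus x a o' o ≤ 0 := by
  by_contra hcon
  push Not at hcon
  set c := bus x a o o' + bus x a o' o with hc
  set D := dist o o' with hD
  obtain ⟨n, hn⟩ := exists_nat_gt (D ^ 2 / (a * c) + 1)
  have hD0 : 0 ≤ D := dist_nonneg
  have hnpos : (0 : ℝ) < n := by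
    have : 0 ≤ D ^ 2 / (a * c) := by positivity
    linarith
  have hna : 0 < (n : ℝ) * a := mul_pos hnpos ha
  -- the quadrilateral `o, x ^ n • o, x ^ n • o', o'`
  have hq := hquad o (x ^ n • o) (x ^ n • o') o'
  rw [haxis n, hiso, dist_comm (x ^ n • o') o', haxis' n, dist_comm o' o] at hq
  set U := dist o (x ^ n • o') with hU
  set V := dist (x ^ n • o) o' with hV
  have hU0 : 0 ≤ U := dist_nonneg
  have hV0 : 0 ≤ V := dist_nonneg
  have h1 : bus x a o o' ≤ V - n * a := by
    have := bus_le haxis o' n
    unfold bseq at this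
    rw [dist_comm] at this
    exact this
  have h2 : bus x a o' o ≤ U - n * a := by
    have := bus_le haxis' o n
    unfold bseq at this
    exact this
  have h3 : c ≤ U + V - 2 * (n * a) := by rw [hc]; linarith
  -- `U + V ≤ 2 n a + D ^ 2 / (n a)`
  have h4 : U + V ≤ 2 * (n * a) + D ^ 2 / (n * a) := by
    by_contra h5
    push Not at h5
    have hT0 : 0 ≤ 2 * (n * a) + D ^ 2 / (n * a) := by positivity
    have h6 : (2 * (n * a) + D ^ 2 / (n * a)) ^ 2 < (U + V) ^ 2 := by
      apply pow_lt_pow_left₀ h5 hT0
      norm_num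
    have h7 : (2 * (n * a) + D ^ 2 / (n * a)) ^ 2 =
        4 * (n * a) ^ 2 + 4 * D ^ 2 + (D ^ 2 / (n * a)) ^ 2 := by
      field_simp
      ring
    have h8 : (U + V) ^ 2 ≤ 2 * (U ^ 2 + V ^ 2) := by nlinarith [sq_nonneg (U - V)]
    have h9 : 0 ≤ (D ^ 2 / (n * a)) ^ 2 := sq_nonneg _
    nlinarith
  have h10 : D ^ 2 / (n * a) < c := by
    rw [div_lt_iff₀ hna]
    have h11 : D ^ 2 / (a * c) < n := by linarith
    rw [div_lt_iff₀ (mul_pos ha hcon)] at h11
    nlinarith
  linarith

/-- The Busemann functions of two points with an axis of the same isometry differ by a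
constant. -/
theorem bus_sub_bus (hiso : ∀ (g : G) (p r : X), dist (g • p) (g • r) = dist p r)
    (hquad : ∀ p q r s : X,
      dist p r ^ 2 + dist q s ^ 2 ≤ dist p q ^ 2 + dist q r ^ 2 + dist r s ^ 2 + dist s p ^ 2)
    {x : G} {a : ℝ} (ha : 0 < a) {o o' : X} (haxis : ∀ n : ℕ, dist o (x ^ n • o) = n * a)
    (haxis' : ∀ n : ℕ, dist o' (x ^ n • o') = n * a) (z : X) :
    bus x a o z = bus x a o' z + bus x a o o' := by
  have h1 := bus_le_add hiso haxis (o' := o') z
  have h2 := bus_le_add hiso haxis' (o' := o) z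
  have h3 := bus_add_bus_le hiso hquad ha haxis haxis'
  linarith

/-- A translate of an axis point by an element commuting with `x` is again an axis point. -/
theorem haxis_smul (hiso : ∀ (g : G) (p r : X), dist (g • p) (g • r) = dist p r) {x : G} {a : ℝ}
    {o : X} (haxis : ∀ n : ℕ, dist o (x ^ n • o) = n * a) (g : G) (hg : Commute g x) :
    ∀ n : ℕ, dist (g • o) (x ^ n • g • o) = n * a := by
  intro n
  have h1 : x ^ n • g • o = g • x ^ n • o := by
    rw [← mul_smul, ← mul_smul, (hg.pow_right n).eq]
  rw [h1, hiso, haxis n]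

theorem bseq_smul (hiso : ∀ (g : G) (p r : X), dist (g • p) (g • r) = dist p r) {x : G} (a : ℝ)
    (o z : X) (g : G) (hg : Commute g x) (n : ℕ) :
    bseq x a o (g • z) n = bseq x a (g⁻¹ • o) z n := by
  unfold bseq
  have h1 : x ^ n • g⁻¹ • o = g⁻¹ • x ^ n • o := by
    rw [← mul_smul, ← mul_smul, (hg.inv_left.pow_right n).eq]
  rw [h1, ← hiso g⁻¹ (g • z) (x ^ n • o), inv_smul_smul]

theorem bus_smul (hiso : ∀ (g : G) (p r : X), dist (g • p) (g • r) = dist p r) {x : G} (a : ℝ)
    (o z : X) (g : G) (hg : Commute g x) :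
    bus x a o (g • z) = bus x a (g⁻¹ • o) z := by
  unfold bus
  congr 1
  funext n
  exact bseq_smul hiso a o z g hg n

/-- The Busemann function is equivariant, up to an additive character, under the centralizer of
`x`. -/
theorem bus_smul_eq (hiso : ∀ (g : G) (p r : X), dist (g • p) (g • r) = dist p r)
    (hquad : ∀ p q r s : X,
      dist p r ^ 2 + dist q s ^ 2 ≤ dist p q ^ 2 + dist q r ^ 2 + dist r s ^ 2 + dist s p ^ 2)
    {x : G} {a : ℝ} (ha : 0 < a) {o : X} (haxis : ∀ n : ℕ, dist o (x ^ n • o) = n * a)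
    (g : G) (hg : Commute g x) (z : X) :
    bus x a o (g • z) = bus x a o z + bus x a o (g • o) := by
  have haxis' := haxis_smul hiso haxis g⁻¹ hg.inv_left
  have h1 := bus_sub_bus hiso hquad ha haxis haxis' z
  have h2 := bus_sub_bus hiso hquad ha haxis haxis' o
  rw [bus_self haxis] at h2
  have h3 := bus_smul hiso a o z g hg
  have h4 := bus_smul hiso a o o g hg
  linarith

end Vale.Agent.H49.Axis

namespace Vale.Agent.H49

open scoped BigOperators in
/-- **Isometries with an axis.**  Let `G` act by isometries on a (pseudo)metric space satisfying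
the four-point inequality of nonpositive curvature, and let `x ∈ G` have a point `o` with
`dist o (x ^ n • o) = n * dist o (x • o) > 0` for all `n ≥ 1`.  Then the class sum over the
conjugacy class of `x` of the diagonal of every idempotent matrix over `ℓ¹(G)` vanishes. -/
theorem tsum_eq_zero_of_axis {G : Type*} [Group G] (q : ℕ) (e : Fin q → Fin q → G → ℂ)
    (hsum : ∀ i j, Summable fun g => ‖e i j g‖)
    (hidem : ∀ i j g, ∑ k, ∑' h, e i k h * e k j (h⁻¹ * g) = e i j g)
    {X : Type*} [PseudoMetricSpace X] [MulAction G X]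
    (hiso : ∀ (g : G) (p r : X), dist (g • p) (g • r) = dist p r)
    (hquad : ∀ p r s t : X,
      dist p s ^ 2 + dist r t ^ 2 ≤ dist p r ^ 2 + dist r s ^ 2 + dist s t ^ 2 + dist t p ^ 2)
    (x : G) (o : X) (hpos : 0 < dist o (x • o))
    (haxis : ∀ n : ℕ, dist o (x ^ n • o) = n * dist o (x • o)) :
    ∑' y : conjugatesOf x, ∑ i, e i i y = 0 := by
  have hℓ : ∀ g h : G, dist ((g * h) • o) o ≤ dist (g • o) o + dist (h • o) o := by
    intro g h
    rw [mul_smul]
    have h1 := dist_triangle (g • h • o) (g • o) o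
    rw [hiso] at h1
    linarith
  have hcomm : ∀ g ∈ Subgroup.centralizer ({x} : Set G), Commute g x := by
    intro g hg
    rw [Subgroup.mem_centralizer_iff] at hg
    exact (hg x (Set.mem_singleton x)).symm
  have hx : x ∈ Subgroup.centralizer ({x} : Set G) := by
    rw [Subgroup.mem_centralizer_iff]
    intro h hh
    rw [Set.mem_singleton_iff.mp hh]
  have hfin : ((Subgroup.centralizer ({x} : Set G)).subgroupOf
      (Subgroup.centralizer {x})).FiniteIndex := by
    rw [Subgroup.subgroupOf_self]
    infer_instance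
  have hφ : ∀ g ∈ Subgroup.centralizer ({x} : Set G), ∀ h ∈ Subgroup.centralizer ({x} : Set G),
      Axis.bus x (dist o (x • o)) o ((g * h) • o) =
        Axis.bus x (dist o (x • o)) o (g • o) + Axis.bus x (dist o (x • o)) o (h • o) := by
    intro g hg h _
    rw [mul_smul, Axis.bus_smul_eq hiso hquad hpos haxis g (hcomm g hg) (h • o)]
    ring
  have hφℓ : ∀ η ∈ Subgroup.centralizer ({x} : Set G),
      |Axis.bus x (dist o (x • o)) o (η • o)| ≤ dist (η • o) o := by
    intro η _
    have h1 := Axis.abs_bus_sub_le_dist haxis (η • o) o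
    rw [Axis.bus_self haxis, sub_zero] at h1
    exact h1
  have hφx : Axis.bus x (dist o (x • o)) o (x • o) ≠ 0 := by
    have h1 := Axis.bus_le haxis (x • o) 1
    unfold Axis.bseq at h1
    rw [pow_one, dist_self] at h1
    have h2 : (0 : ℝ) - ((1 : ℕ) : ℝ) * dist o (x • o) < 0 := by
      push_cast
      linarith
    exact ne_of_lt (lt_of_le_of_lt h1 h2)
  have h := K1.mtr_eq_zero_of_length x (fun g => dist (g • o) o) hℓ
    (Subgroup.centralizer {x}) hx hfin (fun g => Axis.bus x (dist o (x • o)) o (g • o)) hφ hφℓ hφx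
    (L1.ofEntries e hsum) (L1.ofEntries_idem e hsum hidem)
  rw [L1.mtr_ofEntries] at h
  exact h

end Vale.Agent.H49
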