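import Vale.Agent.H49.Axis

/-!
# Proper cocompact actions on spaces with midpoints and the (CN) inequality

Let `X` be a (pseudo)metric space with midpoints in which the inequality (CN) of Bruhat and Tits
holds (these are the `CAT(0)` spaces), and let a group `G` act on `X` by isometries.

* `dist_pow_eq_of_min`: a point `o` at which the displacement `z ↦ dist z (x • z)` of `x` is
  minimal satisfies `dist o (x ^ n • o) = n * dist o (x • o)`: it lies on an axis of `x` (when
  the minimum is positive).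
* `exists_min_displacement`: if the action is metrically proper and cocompact, the displacement
  function of every `x` attains its minimum.
* `finite_finOrder_classes`: then `G` has only finitely many conjugacy classes of finite-order
  elements, and
* `exists_axis_of_not_isOfFinOrder`: every element of infinite order has an axis.
-/

namespace Vale.Agent.H49.Cat0

variable {G : Type*} [Group G] {X : Type*} [PseudoMetricSpace X] [MulAction G X]

/-- The four-point inequality follows from (CN) when midpoints exist. -/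
theorem quad_of_midpoint_CN
    (hmid : ∀ r t : X, ∃ m : X, dist r m = dist r t / 2 ∧ dist m t = dist r t / 2)
    (hCN : ∀ p r t m : X, dist r m = dist r t / 2 → dist m t = dist r t / 2 →
      dist p m ^ 2 ≤ (dist p r ^ 2 + dist p t ^ 2) / 2 - dist r t ^ 2 / 4)
    (p r s t : X) :
    dist p s ^ 2 + dist r t ^ 2 ≤ dist p r ^ 2 + dist r s ^ 2 + dist s t ^ 2 + dist t p ^ 2 := by
  obtain ⟨m, hm1, hm2⟩ := hmid r t
  have h1 := hCN p r t m hm1 hm2
  have h2 := hCN s r t m hm1 hm2
  have h3 : dist p s ≤ dist p m + dist s m := by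
    have := dist_triangle p m s
    rwa [dist_comm m s] at this
  have h4 : dist p s ^ 2 ≤ 2 * dist p m ^ 2 + 2 * dist s m ^ 2 := by
    have h5 : dist p s ^ 2 ≤ (dist p m + dist s m) ^ 2 :=
      pow_le_pow_left₀ dist_nonneg h3 2
    nlinarith [sq_nonneg (dist p m - dist s m)]
  rw [dist_comm r s, dist_comm t p]
  linarith

/-- A point of minimal displacement has `dist o (x ^ 2 • o) = 2 * dist o (x • o)`. -/
theorem dist_sq_smul_of_min (hiso : ∀ (g : G) (p r : X), dist (g • p) (g • r) = dist p r)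
    (hmid : ∀ r t : X, ∃ m : X, dist r m = dist r t / 2 ∧ dist m t = dist r t / 2)
    (hCN : ∀ p r t m : X, dist r m = dist r t / 2 → dist m t = dist r t / 2 →
      dist p m ^ 2 ≤ (dist p r ^ 2 + dist p t ^ 2) / 2 - dist r t ^ 2 / 4)
    (x : G) (o : X) (hmin : ∀ z : X, dist o (x • o) ≤ dist z (x • z)) :
    dist o (x • x • o) = 2 * dist o (x • o) := by
  have ha0 : 0 ≤ dist o (x • o) := dist_nonneg
  obtain ⟨m, hm1, hm2⟩ := hmid o (x • o)
  have hxa : dist (x • o) (x • x • o) = dist o (x • o) := by rw [hiso]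
  have hm1' : dist (x • o) (x • m) = dist (x • o) (x • x • o) / 2 := by
    rw [hiso, hiso, hm1]
  have hm2' : dist (x • m) (x • x • o) = dist (x • o) (x • x • o) / 2 := by
    rw [hiso, hiso, hm2]
  have h1 := hCN m (x • o) (x • x • o) (x • m) hm1' hm2'
  have h2 := hCN (x • x • o) o (x • o) m hm1 hm2
  have h3 := hmin m
  rw [hxa, hm2] at h1
  rw [dist_comm (x • x • o) m, dist_comm (x • x • o) o, dist_comm (x • x • o) (x • o), hxa] at h2
  have hD0 : 0 ≤ dist o (x • x • o) := dist_nonneg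
  have h4 : dist o (x • o) ^ 2 ≤ dist m (x • m) ^ 2 := pow_le_pow_left₀ ha0 h3 2
  have h5 : (2 * dist o (x • o)) ^ 2 ≤ dist o (x • x • o) ^ 2 := by nlinarith
  have h6 : 2 * dist o (x • o) ≤ dist o (x • x • o) := by
    by_contra hcon
    push Not at hcon
    have : dist o (x • x • o) ^ 2 < (2 * dist o (x • o)) ^ 2 :=
      pow_lt_pow_left₀ hcon hD0 (by norm_num)
    linarith
  have h7 : dist o (x • x • o) ≤ dist o (x • o) + dist o (x • o) := by
    have := dist_triangle o (x • o) (x • x • o)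
    rw [hxa] at this
    exact this
  linarith

/-- A point of minimal displacement lies on an axis: `dist o (x ^ n • o) = n * dist o (x • o)`. -/
theorem dist_pow_eq_of_min (hiso : ∀ (g : G) (p r : X), dist (g • p) (g • r) = dist p r)
    (hmid : ∀ r t : X, ∃ m : X, dist r m = dist r t / 2 ∧ dist m t = dist r t / 2)
    (hCN : ∀ p r t m : X, dist r m = dist r t / 2 → dist m t = dist r t / 2 →
      dist p m ^ 2 ≤ (dist p r ^ 2 + dist p t ^ 2) / 2 - dist r t ^ 2 / 4)
    (x : G) (o : X) (hmin : ∀ z : X, dist o (x • o) ≤ dist z (x • z)) :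
    ∀ n : ℕ, dist o (x ^ n • o) = n * dist o (x • o) := by
  have ha0 : 0 ≤ dist o (x • o) := dist_nonneg
  have h2 : dist o (x ^ 2 • o) = 2 * dist o (x • o) := by
    rw [pow_two, mul_smul]
    exact dist_sq_smul_of_min hiso hmid hCN x o hmin
  have hstep : ∀ m k : ℕ, dist (x ^ m • o) (x ^ (m + k) • o) = dist o (x ^ k • o) :=
    fun m k => Axis.dist_pow_smul hiso x m k o o
  have key : ∀ n : ℕ, dist o (x ^ n • o) = n * dist o (x • o) ∧
      dist o (x ^ (n + 1) • o) = (n + 1 : ℕ) * dist o (x • o) := by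
    intro n
    induction n with
    | zero =>
      constructor
      · simp
      · simp
    | succ n ih =>
      obtain ⟨ih1, ih2⟩ := ih
      refine ⟨ih2, ?_⟩
      have e1 : dist (x ^ n • o) (x ^ (n + 1) • o) = dist o (x • o) := by
        rw [hstep n 1, pow_one]
      have e2 : dist (x ^ n • o) (x ^ (n + 2) • o) = 2 * dist o (x • o) := by
        rw [hstep n 2, h2]
      have e3 : dist (x ^ (n + 1) • o) (x ^ (n + 2) • o) = dist o (x • o) := by
        have := hstep (n + 1) 1
        rw [pow_one] at this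
        exact this
      have hcn := hCN o (x ^ n • o) (x ^ (n + 2) • o) (x ^ (n + 1) • o)
        (by rw [e1, e2]; ring) (by rw [e3, e2]; ring)
      rw [ih1, ih2, e2] at hcn
      have hD0 : 0 ≤ dist o (x ^ (n + 2) • o) := dist_nonneg
      have hup : dist o (x ^ (n + 2) • o) ≤ (n + 1 : ℕ) * dist o (x • o) + dist o (x • o) := by
        have := dist_triangle o (x ^ (n + 1) • o) (x ^ (n + 2) • o)
        rw [ih2, e3] at this
        exact this
      have hlow : ((n + 2 : ℕ) * dist o (x • o)) ^ 2 ≤ dist o (x ^ (n + 2) • o) ^ 2 := by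
        push_cast at hcn ⊢
        nlinarith
      have hlow' : (n + 2 : ℕ) * dist o (x • o) ≤ dist o (x ^ (n + 2) • o) := by
        by_contra hcon
        push Not at hcon
        have : dist o (x ^ (n + 2) • o) ^ 2 < ((n + 2 : ℕ) * dist o (x • o)) ^ 2 :=
          pow_lt_pow_left₀ hcon hD0 (by norm_num)
        linarith
      have hfinal : dist o (x ^ (n + 2) • o) = (n + 2 : ℕ) * dist o (x • o) := by
        push_cast at hup hlow' ⊢
        linarith
      exact hfinal
  intro n
  exact (key n).1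

/-- The displacement function of an isometry is continuous. -/
theorem continuous_displacement (hiso : ∀ (g : G) (p r : X), dist (g • p) (g • r) = dist p r)
    (y : G) : Continuous fun k : X => dist k (y • k) := by
  have h1 : Isometry (fun k : X => y • k) := by
    rw [isometry_iff_dist_eq]
    intro p r
    exact hiso y p r
  exact continuous_id.dist h1.continuous

/-- Displacement of a conjugate at the translated point. -/
theorem displacement_conj (hiso : ∀ (g : G) (p r : X), dist (g • p) (g • r) = dist p r)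
    (x g : G) (z : X) : dist (g • z) ((g * x * g⁻¹) • g • z) = dist z (x • z) := by
  rw [mul_smul (g * x) g⁻¹, inv_smul_smul, mul_smul, hiso]

theorem dist_smul_base_le (hiso : ∀ (g : G) (p r : X), dist (g • p) (g • r) = dist p r)
    (y : G) (k k₁ : X) : dist (y • k₁) k₁ ≤ 2 * dist k k₁ + dist k (y • k) := by
  have h1 := dist_triangle (y • k₁) (y • k) k₁
  have h2 := dist_triangle (y • k) k k₁
  rw [hiso] at h1
  rw [dist_comm (y • k) k] at h2
  rw [dist_comm k₁ k] at h1
  linarith

/-- For a metrically proper and cocompact isometric action, the displacement function of every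
element attains its minimum. -/
theorem exists_min_displacement [Nonempty X]
    (hiso : ∀ (g : G) (p r : X), dist (g • p) (g • r) = dist p r)
    (hproper : ∀ (z : X) (R : ℝ), {g : G | dist (g • z) z ≤ R}.Finite)
    (K : Set X) (hK : IsCompact K) (hcov : ∀ z : X, ∃ g : G, g • z ∈ K) (x : G) :
    ∃ o : X, ∀ z : X, dist o (x • o) ≤ dist z (x • z) := by
  classical
  obtain ⟨z₁⟩ := ‹Nonempty X›
  obtain ⟨g₁, hg₁⟩ := hcov z₁
  have hKne : K.Nonempty := ⟨g₁ • z₁, hg₁⟩
  obtain ⟨D, hD⟩ := hK.isBounded.subset_closedBall (g₁ • z₁)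
  have hD' : ∀ k ∈ K, dist k (g₁ • z₁) ≤ D := fun k hk => Metric.mem_closedBall.mp (hD hk)
  have hD0 : 0 ≤ D := le_trans dist_nonneg (hD' (g₁ • z₁) hg₁)
  have hminK : ∀ y : G, ∃ k ∈ K, ∀ k' ∈ K, dist k (y • k) ≤ dist k' (y • k') := by
    intro y
    obtain ⟨k, hk, hmin⟩ :=
      hK.exists_isMinOn hKne (continuous_displacement hiso y).continuousOn
    exact ⟨k, hk, fun k' hk' => hmin hk'⟩
  choose κ hκK hκmin using hminK
  have hTfin : ({y : G | dist (y • g₁ • z₁) (g₁ • z₁) ≤ 2 * D + dist z₁ (x • z₁)} ∩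
      {y : G | ∃ g : G, y = g * x * g⁻¹}).Finite :=
    (hproper (g₁ • z₁) (2 * D + dist z₁ (x • z₁))).inter_of_left _
  have hdisp₁ : dist (g₁ • z₁) ((g₁ * x * g₁⁻¹) • g₁ • z₁) = dist z₁ (x • z₁) :=
    displacement_conj hiso x g₁ z₁
  have hy₁T : g₁ * x * g₁⁻¹ ∈ ({y : G | dist (y • g₁ • z₁) (g₁ • z₁) ≤ 2 * D + dist z₁ (x • z₁)} ∩
      {y : G | ∃ g : G, y = g * x * g⁻¹}) := by
    refine ⟨?_, g₁, rfl⟩
    have h1 := dist_smul_base_le hiso (g₁ * x * g₁⁻¹) (g₁ • z₁) (g₁ • z₁)
    rw [dist_self, hdisp₁] at h1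
    show dist ((g₁ * x * g₁⁻¹) • g₁ • z₁) (g₁ • z₁) ≤ 2 * D + dist z₁ (x • z₁)
    linarith
  obtain ⟨ys, hysT, hysmin⟩ := Set.exists_min_image _ (fun y => dist (κ y) (y • κ y)) hTfin
    ⟨g₁ * x * g₁⁻¹, hy₁T⟩
  obtain ⟨gs, hgs⟩ := hysT.2
  refine ⟨gs⁻¹ • κ ys, ?_⟩
  have ho : dist (gs⁻¹ • κ ys) (x • gs⁻¹ • κ ys) = dist (κ ys) (ys • κ ys) := by
    rw [← hiso gs (gs⁻¹ • κ ys) (x • gs⁻¹ • κ ys), smul_inv_smul, hgs, mul_smul, mul_smul]
  intro z
  rw [ho]
  obtain ⟨g, hg⟩ := hcov z
  have hdisp : dist (g • z) ((g * x * g⁻¹) • g • z) = dist z (x • z) :=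
    displacement_conj hiso x g z
  by_cases hcase : dist z (x • z) ≤ dist z₁ (x • z₁)
  · have hyT : g * x * g⁻¹ ∈ ({y : G | dist (y • g₁ • z₁) (g₁ • z₁) ≤ 2 * D + dist z₁ (x • z₁)} ∩
        {y : G | ∃ g : G, y = g * x * g⁻¹}) := by
      refine ⟨?_, g, rfl⟩
      have h1 := dist_smul_base_le hiso (g * x * g⁻¹) (g • z) (g₁ • z₁)
      rw [hdisp] at h1
      have h2 := hD' (g • z) hg
      show dist ((g * x * g⁻¹) • g₁ • z₁) (g₁ • z₁) ≤ 2 * D + dist z₁ (x • z₁)
      linarith
    calc dist (κ ys) (ys • κ ys)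
        ≤ dist (κ (g * x * g⁻¹)) ((g * x * g⁻¹) • κ (g * x * g⁻¹)) := hysmin _ hyT
      _ ≤ dist (g • z) ((g * x * g⁻¹) • g • z) := hκmin _ _ hg
      _ = dist z (x • z) := hdisp
  · push Not at hcase
    calc dist (κ ys) (ys • κ ys)
        ≤ dist (κ (g₁ * x * g₁⁻¹)) ((g₁ * x * g₁⁻¹) • κ (g₁ * x * g₁⁻¹)) := hysmin _ hy₁T
      _ ≤ dist (g₁ • z₁) ((g₁ * x * g₁⁻¹) • g₁ • z₁) := hκmin _ _ hg₁
      _ = dist z₁ (x • z₁) := hdisp₁
      _ ≤ dist z (x • z) := hcase.le

/-- A point with zero displacement under `x` has zero displacement under all powers of `x`. -/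
theorem dist_pow_smul_eq_zero (hiso : ∀ (g : G) (p r : X), dist (g • p) (g • r) = dist p r)
    (x : G) (o : X) (h0 : dist o (x • o) = 0) : ∀ n : ℕ, dist (x ^ n • o) o = 0 := by
  intro n
  induction n with
  | zero => simp
  | succ n ih =>
    have h1 := dist_triangle (x ^ (n + 1) • o) (x ^ n • o) o
    have h2 : dist (x ^ (n + 1) • o) (x ^ n • o) = dist o (x • o) := by
      rw [pow_succ, mul_smul, hiso, dist_comm]
    have h3 : 0 ≤ dist (x ^ (n + 1) • o) o := dist_nonneg
    linarith

/-- Every element of infinite order has an axis. -/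
theorem exists_axis_of_not_isOfFinOrder [Nonempty X]
    (hiso : ∀ (g : G) (p r : X), dist (g • p) (g • r) = dist p r)
    (hmid : ∀ r t : X, ∃ m : X, dist r m = dist r t / 2 ∧ dist m t = dist r t / 2)
    (hCN : ∀ p r t m : X, dist r m = dist r t / 2 → dist m t = dist r t / 2 →
      dist p m ^ 2 ≤ (dist p r ^ 2 + dist p t ^ 2) / 2 - dist r t ^ 2 / 4)
    (hproper : ∀ (z : X) (R : ℝ), {g : G | dist (g • z) z ≤ R}.Finite)
    (K : Set X) (hK : IsCompact K) (hcov : ∀ z : X, ∃ g : G, g • z ∈ K)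
    (x : G) (hx : ¬ IsOfFinOrder x) :
    ∃ o : X, 0 < dist o (x • o) ∧ ∀ n : ℕ, dist o (x ^ n • o) = n * dist o (x • o) := by
  obtain ⟨o, ho⟩ := exists_min_displacement hiso hproper K hK hcov x
  refine ⟨o, ?_, dist_pow_eq_of_min hiso hmid hCN x o ho⟩
  by_contra hcon
  have h0 : dist o (x • o) = 0 := le_antisymm (not_lt.mp hcon) dist_nonneg
  have hpow := dist_pow_smul_eq_zero hiso x o h0
  have hfin := hproper o 0
  have hinj : Function.Injective (fun n : ℕ => x ^ n) :=
    injective_pow_iff_not_isOfFinOrder.mpr hx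
  have hsub : Set.range (fun n : ℕ => x ^ n) ⊆ {g : G | dist (g • o) o ≤ 0} := by
    rintro _ ⟨n, rfl⟩
    exact (hpow n).le
  exact (Set.infinite_range_of_injective hinj) (hfin.subset hsub)

/-- There are only finitely many conjugacy classes of finite-order elements. -/
theorem finite_finOrder_classes [Nonempty X]
    (hiso : ∀ (g : G) (p r : X), dist (g • p) (g • r) = dist p r)
    (hmid : ∀ r t : X, ∃ m : X, dist r m = dist r t / 2 ∧ dist m t = dist r t / 2)
    (hCN : ∀ p r t m : X, dist r m = dist r t / 2 → dist m t = dist r t / 2 →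
      dist p m ^ 2 ≤ (dist p r ^ 2 + dist p t ^ 2) / 2 - dist r t ^ 2 / 4)
    (hproper : ∀ (z : X) (R : ℝ), {g : G | dist (g • z) z ≤ R}.Finite)
    (K : Set X) (hK : IsCompact K) (hcov : ∀ z : X, ∃ g : G, g • z ∈ K) :
    {C : ConjClasses G | ∀ g ∈ C.carrier, IsOfFinOrder g}.Finite := by
  obtain ⟨z₁⟩ := ‹Nonempty X›
  obtain ⟨g₁, hg₁⟩ := hcov z₁
  obtain ⟨D, hD⟩ := hK.isBounded.subset_closedBall (g₁ • z₁)
  have hD' : ∀ k ∈ K, dist k (g₁ • z₁) ≤ D := fun k hk => Metric.mem_closedBall.mp (hD hk)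
  apply ((hproper (g₁ • z₁) (2 * D)).image ConjClasses.mk).subset
  intro C hC
  obtain ⟨x, rfl⟩ := ConjClasses.mk_surjective C
  have hx : IsOfFinOrder x := hC x ConjClasses.mem_carrier_mk
  obtain ⟨o, ho⟩ := exists_min_displacement hiso hproper K hK hcov x
  have haxis := dist_pow_eq_of_min hiso hmid hCN x o ho
  have h0 : dist o (x • o) = 0 := by
    obtain ⟨N, hN, hxN⟩ := hx.exists_pow_eq_one
    have h1 := haxis N
    rw [hxN, one_smul, dist_self] at h1
    have hN' : (0 : ℝ) < N := by exact_mod_cast hN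
    rcases mul_eq_zero.mp h1.symm with h | h
    · linarith
    · exact h
  obtain ⟨g, hg⟩ := hcov o
  refine ⟨g * x * g⁻¹, ?_, ?_⟩
  · have h1 := dist_smul_base_le hiso (g * x * g⁻¹) (g • o) (g₁ • z₁)
    rw [displacement_conj hiso x g o, h0] at h1
    have h2 := hD' (g • o) hg
    show dist ((g * x * g⁻¹) • g₁ • z₁) (g₁ • z₁) ≤ 2 * D
    linarith
  · rw [ConjClasses.mk_eq_mk_iff_isConj]
    exact (isConj_iff.mpr ⟨g, rfl⟩).symm

end Vale.Agent.H49.Cat0

namespace Vale.Agent.H49

open scoped BigOperators in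
/-- **The `ℓ¹`-Bass conjecture for groups acting properly and cocompactly on `CAT(0)` spaces.**
Let `G` act by isometries, metrically properly and cocompactly, on a nonempty (pseudo)metric space
with midpoints satisfying the inequality (CN).  Then for every idempotent matrix over `ℓ¹(G)`
there is a finite set `F` of conjugacy classes of finite-order elements off which all
Hattori-Stallings coefficients vanish. -/
theorem exists_finset_of_proper_cocompact {G : Type*} [Group G] (q : ℕ)
    (e : Fin q → Fin q → G → ℂ) (hsum : ∀ i j, Summable fun g => ‖e i j g‖)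
    (hidem : ∀ i j g, ∑ k, ∑' h, e i k h * e k j (h⁻¹ * g) = e i j g)
    {X : Type*} [PseudoMetricSpace X] [Nonempty X] [MulAction G X]
    (hiso : ∀ (g : G) (p r : X), dist (g • p) (g • r) = dist p r)
    (hmid : ∀ r t : X, ∃ m : X, dist r m = dist r t / 2 ∧ dist m t = dist r t / 2)
    (hCN : ∀ p r t m : X, dist r m = dist r t / 2 → dist m t = dist r t / 2 →
      dist p m ^ 2 ≤ (dist p r ^ 2 + dist p t ^ 2) / 2 - dist r t ^ 2 / 4)
    (hproper : ∀ (z : X) (R : ℝ), {g : G | dist (g • z) z ≤ R}.Finite)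
    (hcocompact : ∃ K : Set X, IsCompact K ∧ ∀ z : X, ∃ g : G, g • z ∈ K) :
    ∃ F : Finset (ConjClasses G), (∀ C ∈ F, ∀ g ∈ C.carrier, IsOfFinOrder g) ∧
      ∀ C : ConjClasses G, C ∉ F → ∑' y : C.carrier, ∑ i, e i i y = 0 := by
  classical
  obtain ⟨K, hK, hcov⟩ := hcocompact
  have hfin := Cat0.finite_finOrder_classes hiso hmid hCN hproper K hK hcov
  refine ⟨hfin.toFinset, fun C hC => (Set.Finite.mem_toFinset hfin).mp hC, ?_⟩
  intro C hC
  obtain ⟨x, rfl⟩ := ConjClasses.mk_surjective C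
  have hC' : ¬ ∀ g ∈ (ConjClasses.mk x).carrier, IsOfFinOrder g :=
    fun h => hC ((Set.Finite.mem_toFinset hfin).mpr h)
  have hx : ¬ IsOfFinOrder x := by
    intro hx
    apply hC'
    intro g hg
    rw [ConjClasses.mem_carrier_iff_mk_eq, ConjClasses.mk_eq_mk_iff_isConj] at hg
    exact hg.symm.isOfFinOrder hx
  obtain ⟨o, hpos, haxis⟩ :=
    Cat0.exists_axis_of_not_isOfFinOrder hiso hmid hCN hproper K hK hcov x hx
  have hset : (ConjClasses.mk x).carrier = conjugatesOf x := rfl
  rw [hset]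
  exact tsum_eq_zero_of_axis q e hsum hidem hiso (Cat0.quad_of_midpoint_CN hmid hCN) x o hpos haxis

end Vale.Agent.H49
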