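import Mathlib

/-!
# Extending embeddings of countable fields into `ℂ`

Let `E / F` be an extension of fields with `E` countable.  Every ring homomorphism `F → ℂ`
extends to a ring homomorphism `E → ℂ`: map a transcendence basis of `E / F` to algebraically
independent complex numbers (there are infinitely many, because `ℂ` is uncountable), and extend
to the algebraic extension `E` of the field they generate since `ℂ` is algebraically closed.
-/

namespace Vale.Agent.H49.RankOne

universe u

open Cardinal

theorem exists_ringHom_extension {F E : Type u} [Field F] [Field E] [Algebra F E] [Countable E]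
    (φ : F →+* ℂ) : ∃ θ : E →+* ℂ, ∀ a : F, θ (algebraMap F E a) = φ a := by
  classical
  let _ : Algebra F ℂ := φ.toAlgebra
  obtain ⟨s, hs⟩ := exists_isTranscendenceBasis F E
  obtain ⟨T, hT⟩ := exists_isTranscendenceBasis F ℂ
  have hFc : Countable F := (FaithfulSMul.algebraMap_injective F E).countable
  have hinfT : Infinite T := by
    by_contra hfin
    rw [not_infinite_iff_finite] at hfin
    have h1 := IsAlgClosed.cardinal_le_max_transcendence_basis (Subtype.val : T → ℂ) hT
    have h2 : Cardinal.lift.{u} #ℂ ≤ ℵ₀ := by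
      refine h1.trans ?_
      refine max_le (max_le ?_ ?_) le_rfl
      · rw [Cardinal.lift_le_aleph0]
        exact Cardinal.mk_le_aleph0
      · rw [Cardinal.lift_le_aleph0]
        exact Cardinal.mk_le_aleph0
    rw [Cardinal.lift_le_aleph0, Cardinal.mk_complex] at h2
    exact absurd h2 (not_le.mpr Cardinal.aleph0_lt_continuum)
  obtain ⟨f, hf⟩ := exists_injective_nat s
  let j : s → T := fun a => Infinite.natEmbedding T (f a)
  have hj : Function.Injective j := (Infinite.natEmbedding T).injective.comp hf
  let y : s → ℂ := fun i => (j i : ℂ)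
  have hy : AlgebraicIndependent F y := hT.1.comp j hj
  let g₁ : FractionRing (MvPolynomial s F) →ₐ[F] ℂ :=
    IsFractionRing.liftAlgHom (g := MvPolynomial.aeval y)
      (algebraicIndependent_iff_injective_aeval.mp hy)
  let g₀ : IntermediateField.adjoin F (Set.range (Subtype.val : s → E)) →ₐ[F] ℂ :=
    g₁.comp (hs.1.aevalEquivField.symm : _ →ₐ[F] FractionRing (MvPolynomial s F))
  let _ : Algebra (IntermediateField.adjoin F (Set.range (Subtype.val : s → E))) ℂ :=
    g₀.toRingHom.toAlgebra
  have halg : Algebra.IsAlgebraic (IntermediateField.adjoin F (Set.range (Subtype.val : s → E)))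
      E := hs.isAlgebraic_field
  let θ' : E →ₐ[IntermediateField.adjoin F (Set.range (Subtype.val : s → E))] ℂ :=
    IsAlgClosed.lift
  refine ⟨θ'.toRingHom, fun a => ?_⟩
  have h1 : algebraMap F E a =
      algebraMap (IntermediateField.adjoin F (Set.range (Subtype.val : s → E))) E
        (algebraMap F (IntermediateField.adjoin F (Set.range (Subtype.val : s → E))) a) := rfl
  show θ' (algebraMap F E a) = φ a
  rw [h1, θ'.commutes]
  show g₀ (algebraMap F (IntermediateField.adjoin F (Set.range (Subtype.val : s → E))) a) = φ a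
  rw [g₀.commutes]
  rfl

/-- A countable field of characteristic zero containing a nonzero algebraic integer `μ` that is
not a root of unity has a ring homomorphism `θ` to `ℂ` with `‖θ μ‖ ≠ 1` (Kronecker). -/
theorem exists_ringHom_norm_ne_one {E : Type u} [Field E] [CharZero E] [Countable E] {μ : E}
    (hμ0 : μ ≠ 0) (hint : IsIntegral ℤ μ) (hnot : ∀ m : ℕ, 0 < m → μ ^ m ≠ 1) :
    ∃ θ : E →+* ℂ, ‖θ μ‖ ≠ 1 := by
  classical
  let F : IntermediateField ℚ E := IntermediateField.adjoin ℚ {μ}
  have hfd : FiniteDimensional ℚ F := IntermediateField.adjoin.finiteDimensional hint.tower_top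
  let _ : NumberField F := { to_charZero := inferInstance, to_finiteDimensional := hfd }
  let y : F := ⟨μ, IntermediateField.mem_adjoin_simple_self ℚ μ⟩
  have hy0 : y ≠ 0 := fun h => hμ0 (congrArg Subtype.val h)
  have hyint : IsIntegral ℤ y := IntermediateField.coe_isIntegral_iff.mp hint
  obtain ⟨φ, hφ⟩ : ∃ φ : F →+* ℂ, ¬ ‖φ y‖ ≤ 1 := by
    by_contra hcon
    push Not at hcon
    obtain ⟨m, hm, hpow⟩ := NumberField.Embeddings.pow_eq_one_of_norm_le_one F ℂ hy0 hyint hcon
    exact hnot m hm (congrArg Subtype.val hpow)
  obtain ⟨θ, hθ⟩ := exists_ringHom_extension (F := F) (E := E) φ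
  refine ⟨θ, ?_⟩
  have h1 : θ μ = φ y := hθ y
  rw [h1]
  intro h
  exact hφ h.le

end Vale.Agent.H49.RankOne
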