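import Mathlib

/-!
# A dimension inequality behind Foulkes' conjecture (support for P181)

`Nat.multichoose n k` is the number of multisets of size `k` on `n` letters.  We prove, for
`1 ≤ a ≤ b` and every `d`,
`multichoose (multichoose d b) a ≤ multichoose (multichoose d a) b`,
by a double induction resting on one elementary inequality between consecutive values of
`multichoose d`.
-/

namespace Vale.Agent.H49.Foulkes

open Nat

/-- The basic recurrence in the second argument. -/
lemma succ_mul_multichoose (n k : ℕ) :
    (k + 1) * multichoose n (k + 1) = (n + k) * multichoose n k := by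
  rcases n with _ | n
  · rcases k with _ | k
    · simp
    · simp [multichoose_zero_succ]
  · rw [multichoose_eq, multichoose_eq]
    have h := Nat.add_one_mul_choose_eq (n + k) k
    have e1 : n + 1 + (k + 1) - 1 = n + k + 1 := by omega
    have e2 : n + 1 + k - 1 = n + k := by omega
    rw [e1, e2]
    have e3 : n + 1 + k = n + k + 1 := by omega
    rw [e3]
    linarith [h, mul_comm ((n + k + 1).choose (k + 1)) (k + 1)]

lemma two_mul_multichoose_three (k : ℕ) : 2 * multichoose 3 k = (k + 1) * (k + 2) := by
  induction k with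
  | zero => simp
  | succ k ih =>
    rw [multichoose_succ_succ, multichoose_two]
    nlinarith [ih]

lemma multichoose_mono_left (k : ℕ) {m n : ℕ} (h : m ≤ n) :
    multichoose m k ≤ multichoose n k := by
  induction n generalizing k with
  | zero =>
    have : m = 0 := by omega
    subst this
    exact le_rfl
  | succ n ih =>
    rcases Nat.lt_or_ge m (n + 1) with h' | h'
    · have hm : m ≤ n := by omega
      rcases k with _ | k
      · simp
      · rw [multichoose_succ_succ]
        exact le_trans (ih (k + 1) hm) (Nat.le_add_right _ _)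
    · have : m = n + 1 := by omega
      subst this
      exact le_rfl

lemma sq_le_multichoose_four (k : ℕ) : (k + 1) ^ 2 ≤ multichoose 4 k := by
  induction k with
  | zero => simp
  | succ k ih =>
    rw [multichoose_succ_succ]
    have h3 := two_mul_multichoose_three (k + 1)
    nlinarith [ih, h3]

lemma multichoose_pos_of_pos {n : ℕ} (hn : 0 < n) (k : ℕ) : 0 < multichoose n k := by
  have h1 : multichoose 1 k ≤ multichoose n k := multichoose_mono_left k hn
  rw [multichoose_one] at h1
  exact h1

/-- The real-variable core: the comparison of the two cross products follows from the recurrence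
and the sign of one bracket. -/
lemma cross_real (d a b : ℝ) (Xa Xa1 Xb Xb1 : ℝ) (ha : 0 ≤ a) (hb : 0 ≤ b)
    (h1 : (a + 1) * Xa1 = (d + a) * Xa) (h2 : (b + 1) * Xb1 = (d + b) * Xb)
    (hB : 0 ≤ (d - 1) * ((b - a) * Xa * Xb + a * (b + 1) * Xa - (a + 1) * b * Xb)) :
    (Xb1 + a) * (Xa + b) ≤ (Xa1 + b) * (Xb + a) := by
  have key : (a + 1) * (b + 1) * ((Xa1 + b) * (Xb + a) - (Xb1 + a) * (Xa + b))
      = (d - 1) * ((b - a) * Xa * Xb + a * (b + 1) * Xa - (a + 1) * b * Xb) := by
    linear_combination (b + 1) * (Xb + a) * h1 - (a + 1) * (Xa + b) * h2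
  have hpos : 0 < (a + 1) * (b + 1) := by positivity
  have hnn : 0 ≤ (a + 1) * (b + 1) * ((Xa1 + b) * (Xb + a) - (Xb1 + a) * (Xa + b)) := by
    rw [key]; exact hB
  have := nonneg_of_mul_nonneg_right hnn hpos
  linarith

/-- The cross-product inequality for consecutive values of `multichoose d`. -/
lemma cross (d a b : ℕ) (ha : 1 ≤ a) (hab : a < b) :
    (multichoose d (b + 1) + a) * (multichoose d a + b)
      ≤ (multichoose d (a + 1) + b) * (multichoose d b + a) := by
  have h1 := succ_mul_multichoose d a
  have h2 := succ_mul_multichoose d b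
  have h1r : ((a : ℝ) + 1) * (multichoose d (a + 1) : ℝ) = ((d : ℝ) + a) * (multichoose d a : ℝ) := by
    exact_mod_cast h1
  have h2r : ((b : ℝ) + 1) * (multichoose d (b + 1) : ℝ) = ((d : ℝ) + b) * (multichoose d b : ℝ) := by
    exact_mod_cast h2
  have har : (0 : ℝ) ≤ a := by positivity
  have hbr : (0 : ℝ) ≤ b := by positivity
  have ha1 : (1 : ℝ) ≤ a := by exact_mod_cast ha
  have hab' : (a : ℝ) + 1 ≤ b := by exact_mod_cast hab
  have hXa0 : (0 : ℝ) ≤ (multichoose d a : ℝ) := by positivity
  have hXb0 : (0 : ℝ) ≤ (multichoose d b : ℝ) := by positivity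
  suffices hB : 0 ≤ ((d : ℝ) - 1) * (((b : ℝ) - a) * (multichoose d a : ℝ) * (multichoose d b : ℝ)
      + a * (b + 1) * (multichoose d a : ℝ) - (a + 1) * b * (multichoose d b : ℝ)) by
    have := cross_real d a b _ _ _ _ har hbr h1r h2r hB
    exact_mod_cast this
  rcases Nat.lt_or_ge d 4 with hd | hd
  · interval_cases d
    · -- d = 0 : all values vanish
      have e1 : multichoose 0 a = 0 := by
        obtain ⟨a', rfl⟩ : ∃ a', a = a' + 1 := ⟨a - 1, by omega⟩
        exact multichoose_zero_succ a'
      have e2 : multichoose 0 b = 0 := by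
        obtain ⟨b', rfl⟩ : ∃ b', b = b' + 1 := ⟨b - 1, by omega⟩
        exact multichoose_zero_succ b'
      rw [e1, e2]; simp
    · simp
    · rw [multichoose_two, multichoose_two]
      push_cast
      nlinarith
    · have ea := two_mul_multichoose_three a
      have eb := two_mul_multichoose_three b
      have ear : 2 * (multichoose 3 a : ℝ) = ((a : ℝ) + 1) * (a + 2) := by exact_mod_cast ea
      have ebr : 2 * (multichoose 3 b : ℝ) = ((b : ℝ) + 1) * (b + 2) := by exact_mod_cast eb
      have hXa : (multichoose 3 a : ℝ) = ((a : ℝ) + 1) * (a + 2) / 2 := by linarith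
      have hXb : (multichoose 3 b : ℝ) = ((b : ℝ) + 1) * (b + 2) / 2 := by linarith
      rw [hXa, hXb]
      push_cast
      obtain ⟨j, hj⟩ : ∃ j : ℝ, 0 ≤ j ∧ (b : ℝ) = a + 1 + j := ⟨b - a - 1, by linarith, by ring⟩
      obtain ⟨hj0, hbj⟩ := hj
      rw [hbj]
      have : ((3 : ℝ) - 1) * ((a + 1 + j - a) * ((a + 1) * (a + 2) / 2) * ((a + 1 + j + 1) * (a + 1 + j + 2) / 2)
          + a * (a + 1 + j + 1) * ((a + 1) * (a + 2) / 2) - (a + 1) * (a + 1 + j) * ((a + 1 + j + 1) * (a + 1 + j + 2) / 2))
          = a * (a + 1) * (a + 2 + j) * (j ^ 2 + (a + 2) * j + a + 1) / 2 := by ring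
      rw [this]
      positivity
  · -- d ≥ 4
    have hsq : (a + 1) ^ 2 ≤ multichoose d a :=
      le_trans (sq_le_multichoose_four a) (multichoose_mono_left a hd)
    have hsqr : ((a : ℝ) + 1) ^ 2 ≤ (multichoose d a : ℝ) := by exact_mod_cast hsq
    have hd1 : (0 : ℝ) ≤ (d : ℝ) - 1 := by
      have : (4 : ℝ) ≤ d := by exact_mod_cast hd
      linarith
    apply mul_nonneg hd1
    have hcoef : ((a : ℝ) + 1) * b ≤ ((b : ℝ) - a) * (multichoose d a : ℝ) := by
      have h3 : ((b : ℝ) - a) * ((a : ℝ) + 1) ^ 2 ≤ ((b : ℝ) - a) * (multichoose d a : ℝ) :=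
        mul_le_mul_of_nonneg_left hsqr (by linarith)
      have h6 : (0 : ℝ) ≤ ((a : ℝ) + 1) * (a * ((b : ℝ) - a - 1)) :=
        mul_nonneg (by linarith) (mul_nonneg har (by linarith))
      have h7 : ((b : ℝ) - a) * ((a : ℝ) + 1) ^ 2 - ((a : ℝ) + 1) * b
          = ((a : ℝ) + 1) * (a * ((b : ℝ) - a - 1)) := by ring
      linarith
    have h4 : ((a : ℝ) + 1) * b * (multichoose d b : ℝ)
        ≤ ((b : ℝ) - a) * (multichoose d a : ℝ) * (multichoose d b : ℝ) :=
      mul_le_mul_of_nonneg_right hcoef hXb0
    have h5 : (0 : ℝ) ≤ a * (b + 1) * (multichoose d a : ℝ) := by positivity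
    linarith

/-- Step inequality: with `x k = multichoose d k`, one has
`M (x (b+1)) a * (b+1) ≤ M (x b) a * (x a + b)` for `1 ≤ a ≤ b`. -/
lemma step (d : ℕ) (b : ℕ) : ∀ a : ℕ, 1 ≤ a → a ≤ b →
    (b + 1) * multichoose (multichoose d (b + 1)) a
      ≤ (multichoose d a + b) * multichoose (multichoose d b) a := by
  intro a ha
  induction a, ha using Nat.le_induction with
  | base =>
    intro _
    rw [multichoose_one_right, multichoose_one_right, multichoose_one_right]
    have := succ_mul_multichoose d b
    linarith
  | succ a ha ih =>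
    intro hab
    have hab' : a < b := by omega
    have ih' := ih (by omega)
    have hc := cross d a b ha hab'
    have r1 := succ_mul_multichoose (multichoose d (b + 1)) a
    have r2 := succ_mul_multichoose (multichoose d b) a
    -- multiply the goal by (a+1)
    have hgoal : (a + 1) * ((b + 1) * multichoose (multichoose d (b + 1)) (a + 1))
        ≤ (a + 1) * ((multichoose d (a + 1) + b) * multichoose (multichoose d b) (a + 1)) := by
      calc (a + 1) * ((b + 1) * multichoose (multichoose d (b + 1)) (a + 1))
          = (b + 1) * ((a + 1) * multichoose (multichoose d (b + 1)) (a + 1)) := by ring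
        _ = (b + 1) * ((multichoose d (b + 1) + a) * multichoose (multichoose d (b + 1)) a) := by
            rw [r1]
        _ = (multichoose d (b + 1) + a) * ((b + 1) * multichoose (multichoose d (b + 1)) a) := by
            ring
        _ ≤ (multichoose d (b + 1) + a) * ((multichoose d a + b) * multichoose (multichoose d b) a) :=
            Nat.mul_le_mul_left _ ih'
        _ = ((multichoose d (b + 1) + a) * (multichoose d a + b)) * multichoose (multichoose d b) a := by
            ring
        _ ≤ ((multichoose d (a + 1) + b) * (multichoose d b + a)) * multichoose (multichoose d b) a :=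
            Nat.mul_le_mul_right _ hc
        _ = (multichoose d (a + 1) + b) * ((multichoose d b + a) * multichoose (multichoose d b) a) := by
            ring
        _ = (multichoose d (a + 1) + b) * ((a + 1) * multichoose (multichoose d b) (a + 1)) := by
            rw [r2]
        _ = (a + 1) * ((multichoose d (a + 1) + b) * multichoose (multichoose d b) (a + 1)) := by
            ring
    exact Nat.le_of_mul_le_mul_left hgoal (by omega)

/-- **The dimension inequality.**  For `1 ≤ a ≤ b` and every `d`. -/
theorem multichoose_multichoose_le (d a b : ℕ) (ha : 1 ≤ a) (hab : a ≤ b) :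
    multichoose (multichoose d b) a ≤ multichoose (multichoose d a) b := by
  induction b, hab using Nat.le_induction with
  | base => exact le_rfl
  | succ b hab ih =>
    have hs := step d b a ha hab
    have r := succ_mul_multichoose (multichoose d a) b
    have h : (b + 1) * multichoose (multichoose d (b + 1)) a
        ≤ (b + 1) * multichoose (multichoose d a) (b + 1) := by
      calc (b + 1) * multichoose (multichoose d (b + 1)) a
          ≤ (multichoose d a + b) * multichoose (multichoose d b) a := hs
        _ ≤ (multichoose d a + b) * multichoose (multichoose d a) b := Nat.mul_le_mul_left _ ih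
        _ = (b + 1) * multichoose (multichoose d a) (b + 1) := r.symm
    exact Nat.le_of_mul_le_mul_left h (by omega)

/-- Strict form of `cross_real`. -/
lemma cross_real_strict (d a b : ℝ) (Xa Xa1 Xb Xb1 : ℝ) (ha : 0 ≤ a) (hb : 0 ≤ b)
    (h1 : (a + 1) * Xa1 = (d + a) * Xa) (h2 : (b + 1) * Xb1 = (d + b) * Xb)
    (hB : 0 < (d - 1) * ((b - a) * Xa * Xb + a * (b + 1) * Xa - (a + 1) * b * Xb)) :
    (Xb1 + a) * (Xa + b) < (Xa1 + b) * (Xb + a) := by
  have key : (a + 1) * (b + 1) * ((Xa1 + b) * (Xb + a) - (Xb1 + a) * (Xa + b))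
      = (d - 1) * ((b - a) * Xa * Xb + a * (b + 1) * Xa - (a + 1) * b * Xb) := by
    linear_combination (b + 1) * (Xb + a) * h1 - (a + 1) * (Xa + b) * h2
  have hpos : 0 < (a + 1) * (b + 1) := by positivity
  have hnn : 0 < (a + 1) * (b + 1) * ((Xa1 + b) * (Xb + a) - (Xb1 + a) * (Xa + b)) := by
    rw [key]; exact hB
  have := pos_of_mul_pos_right hnn hpos.le
  linarith

/-- The cross-product inequality is strict as soon as `3 ≤ d`. -/
lemma cross_strict (d a b : ℕ) (hd3 : 3 ≤ d) (ha : 1 ≤ a) (hab : a < b) :
    (multichoose d (b + 1) + a) * (multichoose d a + b)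
      < (multichoose d (a + 1) + b) * (multichoose d b + a) := by
  have h1 := succ_mul_multichoose d a
  have h2 := succ_mul_multichoose d b
  have h1r : ((a : ℝ) + 1) * (multichoose d (a + 1) : ℝ) = ((d : ℝ) + a) * (multichoose d a : ℝ) := by
    exact_mod_cast h1
  have h2r : ((b : ℝ) + 1) * (multichoose d (b + 1) : ℝ) = ((d : ℝ) + b) * (multichoose d b : ℝ) := by
    exact_mod_cast h2
  have har : (0 : ℝ) ≤ a := by positivity
  have hbr : (0 : ℝ) ≤ b := by positivity
  have ha1 : (1 : ℝ) ≤ a := by exact_mod_cast ha
  have hapos : (0 : ℝ) < a := by linarith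
  have hab' : (a : ℝ) + 1 ≤ b := by exact_mod_cast hab
  have hXb0 : (0 : ℝ) ≤ (multichoose d b : ℝ) := by positivity
  have hXapos : (0 : ℝ) < (multichoose d a : ℝ) := by
    exact_mod_cast multichoose_pos_of_pos (by omega : 0 < d) a
  suffices hB : 0 < ((d : ℝ) - 1) * (((b : ℝ) - a) * (multichoose d a : ℝ) * (multichoose d b : ℝ)
      + a * (b + 1) * (multichoose d a : ℝ) - (a + 1) * b * (multichoose d b : ℝ)) by
    have := cross_real_strict d a b _ _ _ _ har hbr h1r h2r hB
    exact_mod_cast this
  rcases Nat.lt_or_ge d 4 with hd | hd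
  · have hd' : d = 3 := by omega
    subst hd'
    have ea := two_mul_multichoose_three a
    have eb := two_mul_multichoose_three b
    have ear : 2 * (multichoose 3 a : ℝ) = ((a : ℝ) + 1) * (a + 2) := by exact_mod_cast ea
    have ebr : 2 * (multichoose 3 b : ℝ) = ((b : ℝ) + 1) * (b + 2) := by exact_mod_cast eb
    have hXa : (multichoose 3 a : ℝ) = ((a : ℝ) + 1) * (a + 2) / 2 := by linarith
    have hXb : (multichoose 3 b : ℝ) = ((b : ℝ) + 1) * (b + 2) / 2 := by linarith
    rw [hXa, hXb]
    push_cast
    obtain ⟨j, hj⟩ : ∃ j : ℝ, 0 ≤ j ∧ (b : ℝ) = a + 1 + j := ⟨b - a - 1, by linarith, by ring⟩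
    obtain ⟨hj0, hbj⟩ := hj
    rw [hbj]
    have : ((3 : ℝ) - 1) * ((a + 1 + j - a) * ((a + 1) * (a + 2) / 2) * ((a + 1 + j + 1) * (a + 1 + j + 2) / 2)
        + a * (a + 1 + j + 1) * ((a + 1) * (a + 2) / 2) - (a + 1) * (a + 1 + j) * ((a + 1 + j + 1) * (a + 1 + j + 2) / 2))
        = a * (a + 1) * (a + 2 + j) * (j ^ 2 + (a + 2) * j + a + 1) / 2 := by ring
    rw [this]
    positivity
  · have hsq : (a + 1) ^ 2 ≤ multichoose d a :=
      le_trans (sq_le_multichoose_four a) (multichoose_mono_left a hd)
    have hsqr : ((a : ℝ) + 1) ^ 2 ≤ (multichoose d a : ℝ) := by exact_mod_cast hsq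
    have hd1 : (0 : ℝ) < (d : ℝ) - 1 := by
      have : (4 : ℝ) ≤ d := by exact_mod_cast hd
      linarith
    apply mul_pos hd1
    have hcoef : ((a : ℝ) + 1) * b ≤ ((b : ℝ) - a) * (multichoose d a : ℝ) := by
      have h3 : ((b : ℝ) - a) * ((a : ℝ) + 1) ^ 2 ≤ ((b : ℝ) - a) * (multichoose d a : ℝ) :=
        mul_le_mul_of_nonneg_left hsqr (by linarith)
      have h6 : (0 : ℝ) ≤ ((a : ℝ) + 1) * (a * ((b : ℝ) - a - 1)) :=
        mul_nonneg (by linarith) (mul_nonneg har (by linarith))
      have h7 : ((b : ℝ) - a) * ((a : ℝ) + 1) ^ 2 - ((a : ℝ) + 1) * b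
          = ((a : ℝ) + 1) * (a * ((b : ℝ) - a - 1)) := by ring
      linarith
    have h4 : ((a : ℝ) + 1) * b * (multichoose d b : ℝ)
        ≤ ((b : ℝ) - a) * (multichoose d a : ℝ) * (multichoose d b : ℝ) :=
      mul_le_mul_of_nonneg_right hcoef hXb0
    have h5 : (0 : ℝ) < a * (b + 1) * (multichoose d a : ℝ) := by positivity
    linarith

/-- Strict step inequality for `2 ≤ a` and `3 ≤ d`. -/
lemma step_strict (d : ℕ) (hd3 : 3 ≤ d) (b : ℕ) (a : ℕ) (ha : 2 ≤ a) (hab : a ≤ b) :
    (b + 1) * multichoose (multichoose d (b + 1)) a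
      < (multichoose d a + b) * multichoose (multichoose d b) a := by
  obtain ⟨a, rfl⟩ : ∃ a', a = a' + 1 := ⟨a - 1, by omega⟩
  have ha1 : 1 ≤ a := by omega
  have hab' : a < b := by omega
  have ih' := step d b a ha1 (by omega)
  have hc := cross_strict d a b hd3 ha1 hab'
  have r1 := succ_mul_multichoose (multichoose d (b + 1)) a
  have r2 := succ_mul_multichoose (multichoose d b) a
  have hpos : 0 < multichoose (multichoose d b) a :=
    multichoose_pos_of_pos (multichoose_pos_of_pos (by omega) b) a
  have hgoal : (a + 1) * ((b + 1) * multichoose (multichoose d (b + 1)) (a + 1))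
      < (a + 1) * ((multichoose d (a + 1) + b) * multichoose (multichoose d b) (a + 1)) := by
    calc (a + 1) * ((b + 1) * multichoose (multichoose d (b + 1)) (a + 1))
        = (b + 1) * ((a + 1) * multichoose (multichoose d (b + 1)) (a + 1)) := by ring
      _ = (b + 1) * ((multichoose d (b + 1) + a) * multichoose (multichoose d (b + 1)) a) := by
          rw [r1]
      _ = (multichoose d (b + 1) + a) * ((b + 1) * multichoose (multichoose d (b + 1)) a) := by
          ring
      _ ≤ (multichoose d (b + 1) + a) * ((multichoose d a + b) * multichoose (multichoose d b) a) :=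
          Nat.mul_le_mul_left _ ih'
      _ = ((multichoose d (b + 1) + a) * (multichoose d a + b)) * multichoose (multichoose d b) a := by
          ring
      _ < ((multichoose d (a + 1) + b) * (multichoose d b + a)) * multichoose (multichoose d b) a :=
          Nat.mul_lt_mul_of_pos_right hc hpos
      _ = (multichoose d (a + 1) + b) * ((multichoose d b + a) * multichoose (multichoose d b) a) := by
          ring
      _ = (multichoose d (a + 1) + b) * ((a + 1) * multichoose (multichoose d b) (a + 1)) := by
          rw [r2]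
      _ = (a + 1) * ((multichoose d (a + 1) + b) * multichoose (multichoose d b) (a + 1)) := by
          ring
  exact Nat.lt_of_mul_lt_mul_left hgoal

/-- **Strict dimension inequality** for `2 ≤ a < b` and `3 ≤ d`. -/
theorem multichoose_multichoose_lt (d a b : ℕ) (hd3 : 3 ≤ d) (ha : 2 ≤ a) (hab : a < b) :
    multichoose (multichoose d b) a < multichoose (multichoose d a) b := by
  have hab' : a + 1 ≤ b := hab
  induction b, hab' using Nat.le_induction with
  | base =>
    have hs := step_strict d hd3 a a ha le_rfl
    have r := succ_mul_multichoose (multichoose d a) a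
    have h : (a + 1) * multichoose (multichoose d (a + 1)) a
        < (a + 1) * multichoose (multichoose d a) (a + 1) := by
      calc (a + 1) * multichoose (multichoose d (a + 1)) a
          < (multichoose d a + a) * multichoose (multichoose d a) a := hs
        _ = (a + 1) * multichoose (multichoose d a) (a + 1) := r.symm
    exact Nat.lt_of_mul_lt_mul_left h
  | succ b hb ih =>
    have ih' := ih (by omega)
    have hs := step d b a (by omega) (by omega)
    have r := succ_mul_multichoose (multichoose d a) b
    have hpos : 0 < multichoose d a + b := by omega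
    have h : (b + 1) * multichoose (multichoose d (b + 1)) a
        < (b + 1) * multichoose (multichoose d a) (b + 1) := by
      calc (b + 1) * multichoose (multichoose d (b + 1)) a
          ≤ (multichoose d a + b) * multichoose (multichoose d b) a := hs
        _ < (multichoose d a + b) * multichoose (multichoose d a) b :=
            Nat.mul_lt_mul_of_pos_left ih' hpos
        _ = (b + 1) * multichoose (multichoose d a) (b + 1) := r.symm
    exact Nat.lt_of_mul_lt_mul_left h

/-- Equality in the three degenerate cases. -/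
theorem multichoose_multichoose_eq (d a b : ℕ) (ha : 1 ≤ a) (hab : a ≤ b)
    (h : a = 1 ∨ a = b ∨ d ≤ 2) :
    multichoose (multichoose d b) a = multichoose (multichoose d a) b := by
  rcases h with rfl | rfl | hd
  · rw [multichoose_one_right, multichoose_one_right]
  · rfl
  · interval_cases d
    · have e1 : multichoose 0 a = 0 := by
        obtain ⟨a', rfl⟩ : ∃ a', a = a' + 1 := ⟨a - 1, by omega⟩
        exact multichoose_zero_succ a'
      have e2 : multichoose 0 b = 0 := by
        obtain ⟨b', rfl⟩ : ∃ b', b = b' + 1 := ⟨b - 1, by omega⟩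
        exact multichoose_zero_succ b'
      simp [e1, e2]
    · simp [multichoose_one]
    · rw [multichoose_two, multichoose_two, multichoose_eq, multichoose_eq]
      have e1 : b + 1 + a - 1 = a + b := by omega
      have e2 : a + 1 + b - 1 = a + b := by omega
      rw [e1, e2]
      exact Nat.choose_symm_add

end Vale.Agent.H49.Foulkes
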