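import Vale.Agent.H49.QuasiUnip
import Vale.Agent.H49.Axis
import Vale.Agent.H49.CharPEigen

/-!
# The `ℓ¹`-Bass conjecture for a class of groups

Let `G` have a finite-dimensional representation `ρ` over a field `K` and an isometric action on
a space `X` with the four-point inequality of nonpositive curvature.  The class-sum trace of an
idempotent matrix over `ℓ¹(G)` vanishes at the class of `x` if one of the following holds:

* `K` has positive characteristic and `ρ x` has infinite order;
* no positive power of `ρ x` is unipotent;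
* `x` has an axis in `X`.

If every element of infinite order satisfies one of the three conditions, the trace is supported
on the classes of finite-order elements; if moreover there are only finitely many such classes,
this is the conclusion of the `ℓ¹`-Bass conjecture.
-/

namespace Vale.Agent.H49

open scoped BigOperators in
/-- The three certificates for the vanishing of the trace at the class of `x`. -/
theorem tsum_eq_zero_of_certificate {G : Type*} [Group G] (q : ℕ)
    (e : Fin q → Fin q → G → ℂ) (hsum : ∀ i j, Summable fun g => ‖e i j g‖)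
    (hidem : ∀ i j g, ∑ k, ∑' h, e i k h * e k j (h⁻¹ * g) = e i j g)
    {K : Type*} [Field K] (n : ℕ) (ρ : G →* Matrix (Fin n) (Fin n) K)
    {X : Type*} [PseudoMetricSpace X] [MulAction G X]
    (hiso : ∀ (g : G) (p r : X), dist (g • p) (g • r) = dist p r)
    (hquad : ∀ p r s t : X,
      dist p s ^ 2 + dist r t ^ 2 ≤ dist p r ^ 2 + dist r s ^ 2 + dist s t ^ 2 + dist t p ^ 2)
    (x : G)
    (hx : ((∃ p : ℕ, p.Prime ∧ CharP K p) ∧ ¬ IsOfFinOrder (ρ x)) ∨
      (∀ m : ℕ, 0 < m → ¬ IsNilpotent (ρ x ^ m - 1)) ∨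
      (∃ o : X, 0 < dist o (x • o) ∧ ∀ k : ℕ, dist o (x ^ k • o) = k * dist o (x • o))) :
    ∑' y : conjugatesOf x, ∑ i, e i i y = 0 := by
  rcases hx with ⟨⟨p, hp, hchar⟩, hx'⟩ | hx | ⟨o, hpos, haxis⟩
  · have : Fact p.Prime := ⟨hp⟩
    have := hchar
    obtain ⟨μ, w, v, hw, hμ, hv⟩ := RankOne.exists_eigen_absVal p (ρ x) hx'
    have h := K1.mtr_eq_zero_of_eigenvalue v
      (((algebraMap K (AlgebraicClosure K)).mapMatrix.toMonoidHom).comp ρ) x μ w hw hμ hv
      (L1.ofEntries e hsum) (L1.ofEntries_idem e hsum hidem)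
    rw [L1.mtr_ofEntries] at h
    exact h
  · obtain ⟨μ, hroot, hμ⟩ := exists_root_not_rootOfUnity (ρ x) hx
    exact tsum_eq_zero_of_eigenvalue_not_rootOfUnity q e hsum hidem n ρ x μ hroot hμ
  · exact tsum_eq_zero_of_axis q e hsum hidem hiso hquad x o hpos haxis

open scoped BigOperators in
/-- The conclusion of the `ℓ¹`-Bass conjecture for groups with finitely many conjugacy classes of
finite-order elements in which every element of infinite order carries one of the three
certificates. -/
theorem exists_finset_finOrder_classes {G : Type*} [Group G] (q : ℕ)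
    (e : Fin q → Fin q → G → ℂ) (hsum : ∀ i j, Summable fun g => ‖e i j g‖)
    (hidem : ∀ i j g, ∑ k, ∑' h, e i k h * e k j (h⁻¹ * g) = e i j g)
    {K : Type*} [Field K] (n : ℕ) (ρ : G →* Matrix (Fin n) (Fin n) K)
    {X : Type*} [PseudoMetricSpace X] [MulAction G X]
    (hiso : ∀ (g : G) (p r : X), dist (g • p) (g • r) = dist p r)
    (hquad : ∀ p r s t : X,
      dist p s ^ 2 + dist r t ^ 2 ≤ dist p r ^ 2 + dist r s ^ 2 + dist s t ^ 2 + dist t p ^ 2)
    (hG : ∀ x : G, ¬ IsOfFinOrder x →
      ((∃ p : ℕ, p.Prime ∧ CharP K p) ∧ ¬ IsOfFinOrder (ρ x)) ∨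
      (∀ m : ℕ, 0 < m → ¬ IsNilpotent (ρ x ^ m - 1)) ∨
      (∃ o : X, 0 < dist o (x • o) ∧ ∀ k : ℕ, dist o (x ^ k • o) = k * dist o (x • o)))
    (hfin : {C : ConjClasses G | ∀ g ∈ C.carrier, IsOfFinOrder g}.Finite) :
    ∃ F : Finset (ConjClasses G), (∀ C ∈ F, ∀ g ∈ C.carrier, IsOfFinOrder g) ∧
      ∀ C : ConjClasses G, C ∉ F → ∑' y : C.carrier, ∑ i, e i i y = 0 := by
  classical
  refine ⟨hfin.toFinset, fun C hC => (Set.Finite.mem_toFinset hfin).mp hC, ?_⟩
  intro C hC
  obtain ⟨x, rfl⟩ := ConjClasses.mk_surjective C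
  have hC' : ¬ ∀ g ∈ (ConjClasses.mk x).carrier, IsOfFinOrder g :=
    fun h => hC ((Set.Finite.mem_toFinset hfin).mpr h)
  have hx : ¬ IsOfFinOrder x := by
    intro hx
    apply hC'
    intro g hg
    rw [ConjClasses.mem_carrier_iff_mk_eq, ConjClasses.mk_eq_mk_iff_isConj] at hg
    exact hg.symm.isOfFinOrder hx
  have hset : (ConjClasses.mk x).carrier = conjugatesOf x := rfl
  rw [hset]
  exact tsum_eq_zero_of_certificate q e hsum hidem n ρ hiso hquad x (hG x hx)

end Vale.Agent.H49
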