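import Mathlib

/-!
# Traces of nearby idempotents agree

If `e` and `f` are idempotents of a ring carrying a submultiplicative size function `N`, and `τ`
is an additive trace bounded by a multiple of `N`, then `N (f - e) < 1` forces `τ f = τ e`.
The proof uses the identity `τ (d * (d * d) ^ k) = τ d` for `d = f - e` and needs no inverses.
-/

namespace Vale.Agent.H49

section

variable {R : Type*} [Ring R]

theorem idem_cube (e f : R) (he : e * e = e) (hf : f * f = f) :
    (f - e) * ((f - e) * (f - e)) = (f - e) + e * f * e - f * e * f := by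
  have he' : ∀ x, e * (e * x) = e * x := fun x => by rw [← mul_assoc, he]
  have hf' : ∀ x, f * (f * x) = f * x := fun x => by rw [← mul_assoc, hf]
  simp only [mul_sub, sub_mul, mul_assoc, he, hf, he', hf']
  abel

theorem idem_sq_comm_left (e f : R) (he : e * e = e) (hf : f * f = f) :
    ((f - e) * (f - e)) * e = e * ((f - e) * (f - e)) := by
  have he' : ∀ x, e * (e * x) = e * x := fun x => by rw [← mul_assoc, he]
  simp only [mul_sub, sub_mul, mul_assoc, he, hf, he']
  abel

theorem idem_sq_comm_right (e f : R) (he : e * e = e) (hf : f * f = f) :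
    ((f - e) * (f - e)) * f = f * ((f - e) * (f - e)) := by
  have hf' : ∀ x, f * (f * x) = f * x := fun x => by rw [← mul_assoc, hf]
  simp only [mul_sub, sub_mul, mul_assoc, he, hf, hf']
  abel

theorem trace_idem_step (τ : R →+ ℂ) (hτ : ∀ x y, τ (x * y) = τ (y * x))
    (e f : R) (he : e * e = e) (hf : f * f = f) (z : R) (hze : z * e = e * z)
    (hzf : z * f = f * z) :
    τ ((f - e) * ((f - e) * (f - e)) * z) = τ ((f - e) * z) := by
  rw [idem_cube e f he hf]
  have h1 : ((f - e) + e * f * e - f * e * f) * z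
      = (f - e) * z + e * f * e * z - f * e * f * z := by
    simp only [add_mul, sub_mul]
  rw [h1, map_sub, map_add]
  have t1 : τ (e * f * e * z) = τ (f * e * z) := by
    calc τ (e * f * e * z) = τ (e * (f * e * z)) := by simp only [mul_assoc]
      _ = τ (f * e * z * e) := hτ _ _
      _ = τ (f * e * (z * e)) := by simp only [mul_assoc]
      _ = τ (f * e * (e * z)) := by rw [hze]
      _ = τ (f * (e * e) * z) := by simp only [mul_assoc]
      _ = τ (f * e * z) := by rw [he]
  have t2 : τ (f * e * f * z) = τ (e * f * z) := by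
    calc τ (f * e * f * z) = τ (f * (e * f * z)) := by simp only [mul_assoc]
      _ = τ (e * f * z * f) := hτ _ _
      _ = τ (e * f * (z * f)) := by simp only [mul_assoc]
      _ = τ (e * f * (f * z)) := by rw [hzf]
      _ = τ (e * (f * f) * z) := by simp only [mul_assoc]
      _ = τ (e * f * z) := by rw [hf]
  have t3 : τ (f * e * z) = τ (e * f * z) := by
    calc τ (f * e * z) = τ (f * (e * z)) := by simp only [mul_assoc]
      _ = τ (e * z * f) := hτ _ _
      _ = τ (e * (z * f)) := by simp only [mul_assoc]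
      _ = τ (e * (f * z)) := by rw [hzf]
      _ = τ (e * f * z) := by simp only [mul_assoc]
  rw [t1, t2, t3]
  ring

/-- For idempotents `e`, `f` and an additive trace `τ`, `τ ((f-e) * ((f-e)^2)^k) = τ (f-e)`. -/
theorem trace_idem_diff_pow (τ : R →+ ℂ) (hτ : ∀ x y, τ (x * y) = τ (y * x))
    (e f : R) (he : e * e = e) (hf : f * f = f) (k : ℕ) :
    τ ((f - e) * ((f - e) * (f - e)) ^ k) = τ (f - e) := by
  induction k with
  | zero => simp
  | succ k ih =>
    rw [← ih]
    have hce : Commute ((f - e) * (f - e)) e := idem_sq_comm_left e f he hf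
    have hcf : Commute ((f - e) * (f - e)) f := idem_sq_comm_right e f he hf
    have hze : ((f - e) * (f - e)) ^ k * e = e * ((f - e) * (f - e)) ^ k := (hce.pow_left k)
    have hzf : ((f - e) * (f - e)) ^ k * f = f * ((f - e) * (f - e)) ^ k := (hcf.pow_left k)
    rw [pow_succ', ← mul_assoc]
    exact trace_idem_step τ hτ e f he hf _ hze hzf

theorem size_mul_pow_le (N : R → ℝ) (hN0 : ∀ x, 0 ≤ N x)
    (hNmul : ∀ x y, N (x * y) ≤ N x * N y) (d c : R) (k : ℕ) :
    N (d * c ^ k) ≤ N d * N c ^ k := by
  induction k with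
  | zero => simp
  | succ k ih =>
    have h1 : d * c ^ (k + 1) = d * c ^ k * c := by rw [pow_succ, mul_assoc]
    have h2 : N d * N c ^ (k + 1) = N d * N c ^ k * N c := by rw [pow_succ, mul_assoc]
    rw [h1, h2]
    exact (hNmul _ _).trans (mul_le_mul_of_nonneg_right ih (hN0 c))

/-- Nearby idempotents have the same trace. -/
theorem trace_eq_of_idem_close (N : R → ℝ) (hN0 : ∀ x, 0 ≤ N x)
    (hNmul : ∀ x y, N (x * y) ≤ N x * N y)
    (τ : R →+ ℂ) (hτ : ∀ x y, τ (x * y) = τ (y * x))
    (M : ℝ) (hM : ∀ x, ‖τ x‖ ≤ M * N x)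
    (e f : R) (he : e * e = e) (hf : f * f = f) (hd : N (f - e) < 1) : τ f = τ e := by
  have hNc : N ((f - e) * (f - e)) < 1 := by
    have h1 : N ((f - e) * (f - e)) ≤ N (f - e) * N (f - e) := hNmul _ _
    have h2 : N (f - e) * N (f - e) < 1 := by
      have := hN0 (f - e)
      nlinarith
    linarith
  have hM0 : 0 ≤ |M| := abs_nonneg M
  have hle : ∀ k : ℕ, ‖τ (f - e)‖ ≤ |M| * N (f - e) * N ((f - e) * (f - e)) ^ k := by
    intro k
    have h1 : τ (f - e) = τ ((f - e) * ((f - e) * (f - e)) ^ k) :=
      (trace_idem_diff_pow τ hτ e f he hf k).symm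
    rw [h1]
    calc ‖τ ((f - e) * ((f - e) * (f - e)) ^ k)‖
        ≤ M * N ((f - e) * ((f - e) * (f - e)) ^ k) := hM _
      _ ≤ |M| * N ((f - e) * ((f - e) * (f - e)) ^ k) :=
          mul_le_mul_of_nonneg_right (le_abs_self M) (hN0 _)
      _ ≤ |M| * (N (f - e) * N ((f - e) * (f - e)) ^ k) :=
          mul_le_mul_of_nonneg_left (size_mul_pow_le N hN0 hNmul _ _ k) hM0
      _ = |M| * N (f - e) * N ((f - e) * (f - e)) ^ k := by ring
  have hlim : Filter.Tendsto (fun k : ℕ => |M| * N (f - e) * N ((f - e) * (f - e)) ^ k)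
      Filter.atTop (nhds 0) := by
    have := (tendsto_pow_atTop_nhds_zero_of_lt_one (hN0 _) hNc).const_mul (|M| * N (f - e))
    simpa using this
  have hzero : ‖τ (f - e)‖ ≤ 0 := ge_of_tendsto' hlim hle
  have hτd : τ (f - e) = 0 := by simpa using le_antisymm hzero (norm_nonneg _)
  have : τ f - τ e = 0 := by rw [← map_sub]; exact hτd
  exact sub_eq_zero.mp this

end

end Vale.Agent.H49
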