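import Vale.Agent.H49.Kernel

/-!
# Traces on matrices over a ring with a size function, and the diagonal trace on `K1 G`
-/

namespace Vale.Agent.H49

open scoped BigOperators

section generic

variable {R : Type*} [Ring R] {n : Type*} [Fintype n] [DecidableEq n]

/-- The size of a matrix: the sum of the sizes of its entries. -/
def gsize (N : R → ℝ) (A : Matrix n n R) : ℝ := ∑ i, ∑ j, N (A i j)

theorem gsize_nonneg (N : R → ℝ) (hN0 : ∀ x, 0 ≤ N x) (A : Matrix n n R) : 0 ≤ gsize N A :=
  Finset.sum_nonneg fun _ _ => Finset.sum_nonneg fun _ _ => hN0 _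

theorem size_sum_le (N : R → ℝ) (hNz : N 0 = 0) (hNadd : ∀ x y, N (x + y) ≤ N x + N y)
    {ι : Type*} (s : Finset ι) (f : ι → R) : N (∑ i ∈ s, f i) ≤ ∑ i ∈ s, N (f i) := by
  classical
  induction s using Finset.induction_on with
  | empty => simp [hNz]
  | insert i s hi ih =>
    rw [Finset.sum_insert hi, Finset.sum_insert hi]
    exact (hNadd _ _).trans (by linarith)

theorem gsize_mul_le (N : R → ℝ) (hN0 : ∀ x, 0 ≤ N x) (hNz : N 0 = 0)
    (hNadd : ∀ x y, N (x + y) ≤ N x + N y) (hNmul : ∀ x y, N (x * y) ≤ N x * N y)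
    (A B : Matrix n n R) : gsize N (A * B) ≤ gsize N A * gsize N B := by
  unfold gsize
  have h1 : ∀ i j, N ((A * B) i j) ≤ (∑ k, N (A i k)) * (∑ l, N (B l j)) := by
    intro i j
    have : (A * B) i j = ∑ k, A i k * B k j := rfl
    rw [this]
    refine (size_sum_le N hNz hNadd _ _).trans ?_
    rw [Finset.sum_mul]
    refine Finset.sum_le_sum (fun k _ => ?_)
    refine (hNmul _ _).trans ?_
    refine mul_le_mul_of_nonneg_left ?_ (hN0 _)
    exact Finset.single_le_sum (f := fun l => N (B l j)) (fun l _ => hN0 _)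
      (Finset.mem_univ k)
  calc ∑ i, ∑ j, N ((A * B) i j)
      ≤ ∑ i, ∑ j, (∑ k, N (A i k)) * (∑ l, N (B l j)) :=
        Finset.sum_le_sum fun i _ => Finset.sum_le_sum fun j _ => h1 i j
    _ = (∑ i, ∑ k, N (A i k)) * (∑ j, ∑ l, N (B l j)) := by
        rw [Finset.sum_mul_sum]
    _ = (∑ i, ∑ j, N (A i j)) * ∑ i, ∑ j, N (B i j) := by
        rw [Finset.sum_comm (f := fun j l => N (B l j))]

/-- The trace on matrices induced by an additive functional on the ring. -/
def gtr (τ : R →+ ℂ) : Matrix n n R →+ ℂ where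
  toFun A := ∑ i, τ (A i i)
  map_zero' := by simp
  map_add' A B := by simp [Finset.sum_add_distrib]

theorem gtr_apply (τ : R →+ ℂ) (A : Matrix n n R) : gtr τ A = ∑ i, τ (A i i) := rfl

theorem gtr_comm (τ : R →+ ℂ) (hτ : ∀ x y, τ (x * y) = τ (y * x)) (A B : Matrix n n R) :
    gtr τ (A * B) = gtr τ (B * A) := by
  simp only [gtr_apply, Matrix.mul_apply, map_sum]
  rw [Finset.sum_comm]
  exact Finset.sum_congr rfl (fun k _ => Finset.sum_congr rfl (fun i _ => hτ _ _))

theorem norm_gtr_le (N : R → ℝ) (hN0 : ∀ x, 0 ≤ N x) (τ : R →+ ℂ) (hM : ∀ x, ‖τ x‖ ≤ N x)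
    (A : Matrix n n R) : ‖gtr τ A‖ ≤ 1 * gsize N A := by
  rw [one_mul, gtr_apply]
  refine (norm_sum_le _ _).trans ?_
  unfold gsize
  refine Finset.sum_le_sum (fun i _ => ?_)
  refine (hM _).trans ?_
  exact Finset.single_le_sum (f := fun j => N (A i j)) (fun j _ => hN0 _) (Finset.mem_univ i)

/-- Nearby idempotent matrices have the same trace. -/
theorem gtr_eq_of_close (N : R → ℝ) (hN0 : ∀ x, 0 ≤ N x) (hNz : N 0 = 0)
    (hNadd : ∀ x y, N (x + y) ≤ N x + N y) (hNmul : ∀ x y, N (x * y) ≤ N x * N y)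
    (τ : R →+ ℂ) (hτ : ∀ x y, τ (x * y) = τ (y * x)) (hM : ∀ x, ‖τ x‖ ≤ N x)
    (e f : Matrix n n R) (he : e * e = e) (hf : f * f = f) (hd : gsize N (f - e) < 1) :
    gtr τ f = gtr τ e :=
  trace_eq_of_idem_close (R := Matrix n n R) (gsize N) (gsize_nonneg N hN0)
    (gsize_mul_le N hN0 hNz hNadd hNmul) (gtr τ) (gtr_comm τ hτ) 1 (norm_gtr_le N hN0 τ hM)
    e f he hf hd

end generic

namespace K1

variable {G : Type*} [Group G]

theorem cj_mul_self (g z : G) : cj (g * z) z = cj g z := by
  unfold cj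
  group

/-- The diagonal functional: the sum of `m z z` over `z ∈ C`. -/
noncomputable def trK (C : Set G) (m : K1 G) : ℂ := ∑' z, C.indicator (fun z => m z z) z

theorem summable_diag (m : K1 G) : Summable fun z => m z z :=
  Summable.of_norm_bounded (summable_bd m) (fun z => norm_le_bd m z z)

theorem trK_add (C : Set G) (m n : K1 G) : trK C (m + n) = trK C m + trK C n := by
  unfold trK
  rw [← ((summable_diag m).indicator C).tsum_add ((summable_diag n).indicator C)]
  refine tsum_congr (fun g => ?_)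
  by_cases hg : g ∈ C
  · simp [Set.indicator_of_mem hg]
  · simp [Set.indicator_of_notMem hg]

theorem trK_zero (C : Set G) : trK C (0 : K1 G) = 0 := by
  simp [trK]

theorem norm_trK_le (C : Set G) (m : K1 G) : ‖trK C m‖ ≤ nrm m := by
  unfold trK nrm
  have hle : ∀ z, ‖C.indicator (fun z => m z z) z‖ ≤ bd m z := fun z =>
    (norm_indicator_le_norm_self (fun z => m z z) z).trans (norm_le_bd m z z)
  have hs : Summable fun z => ‖C.indicator (fun z => m z z) z‖ :=
    Summable.of_nonneg_of_le (fun _ => norm_nonneg _) hle (summable_bd m)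
  exact (norm_tsum_le_tsum_norm hs).trans (hs.tsum_le_tsum hle (summable_bd m))

theorem trK_mul_eq (C : Set G) (hC : ∀ g z : G, z ∈ C → cj g z ∈ C) (m n : K1 G) :
    trK C (m * n) = ∑' h, ∑' w, C.indicator (fun w => m h w * n (w * h⁻¹) (cj h w)) w := by
  unfold trK
  have h1 : ∀ z, C.indicator (fun z => (m * n) z z) z
      = ∑' h, C.indicator (fun z => m h (cj h⁻¹ z) * n (h⁻¹ * z) z) z := by
    intro z
    by_cases hz : z ∈ C
    · simp only [Set.indicator_of_mem hz, mul_apply]
      refine tsum_congr (fun h => ?_)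
      rw [cj_mul_self]
    · simp [Set.indicator_of_notMem hz]
  simp_rw [h1]
  have hsum : Summable (Function.uncurry fun h z =>
      C.indicator (fun z => m h (cj h⁻¹ z) * n (h⁻¹ * z) z) z) := by
    refine Summable.of_norm_bounded (L1.summable_conv_prod (bdL m) (bdL n)) (fun p => ?_)
    refine (norm_indicator_le_norm_self
      (fun z => m p.1 (cj p.1⁻¹ z) * n (p.1⁻¹ * z) z) p.2).trans ?_
    rw [norm_mul, norm_bdL, norm_bdL]
    exact mul_le_mul (norm_le_bd m _ _) (norm_le_bd n _ _) (norm_nonneg _) (bd_nonneg m _)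
  rw [hsum.tsum_comm]
  refine tsum_congr (fun h => ?_)
  rw [← (cjEquiv h).tsum_eq]
  refine tsum_congr (fun w => ?_)
  show C.indicator (fun z => m h (cj h⁻¹ z) * n (h⁻¹ * z) z) (cj h w) = _
  by_cases hw : w ∈ C
  · rw [Set.indicator_of_mem (hC h w hw), Set.indicator_of_mem hw, cj_inv_cj]
    have : h⁻¹ * cj h w = w * h⁻¹ := by
      unfold cj
      group
    rw [this]
  · have hw' : cj h w ∉ C := by
      intro hh
      apply hw
      have := hC h⁻¹ _ hh
      rwa [cj_inv_cj] at this
    rw [Set.indicator_of_notMem hw', Set.indicator_of_notMem hw]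

/-- The bijection `h ↦ z * h⁻¹`. -/
def mulInvEquiv (z : G) : G ≃ G where
  toFun h := z * h⁻¹
  invFun j := j⁻¹ * z
  left_inv h := by simp
  right_inv j := by simp

/-- The bijection `(h, z) ↦ (h, z * h⁻¹)` of `G × G`. -/
def shearR (G : Type*) [Group G] : G × G ≃ G × G where
  toFun p := (p.1, p.2 * p.1⁻¹)
  invFun p := (p.1, p.2 * p.1)
  left_inv p := by simp
  right_inv p := by simp

theorem trK_mul_eq' (C : Set G) (m n : K1 G) :
    trK C (n * m) = ∑' h, ∑' w, C.indicator (fun w => m h w * n (w * h⁻¹) (cj h w)) w := by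
  unfold trK
  have h1 : ∀ z, C.indicator (fun z => (n * m) z z) z
      = ∑' h, C.indicator (fun z => m h z * n (z * h⁻¹) (cj h z)) z := by
    intro z
    by_cases hz : z ∈ C
    · simp only [Set.indicator_of_mem hz, mul_apply]
      rw [← (mulInvEquiv z).tsum_eq]
      refine tsum_congr (fun h => ?_)
      show n (z * h⁻¹) (cj ((z * h⁻¹)⁻¹ * z) z) * m ((z * h⁻¹)⁻¹ * z) z = _
      have : (z * h⁻¹)⁻¹ * z = h := by group
      rw [this, mul_comm]
    · simp [Set.indicator_of_notMem hz]
  simp_rw [h1]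
  have hsum : Summable (Function.uncurry fun h z =>
      C.indicator (fun z => m h z * n (z * h⁻¹) (cj h z)) z) := by
    have h0 := Summable.mul_of_nonneg (bdL m).summable (bdL n).summable (fun _ => norm_nonneg _)
      (fun _ => norm_nonneg _)
    have h2 : Summable fun p : G × G => ‖bdL m p.1‖ * ‖bdL n (p.2 * p.1⁻¹)‖ :=
      ((shearR G).summable_iff (f := fun x : G × G => ‖bdL m x.1‖ * ‖bdL n x.2‖)).mpr h0
    refine Summable.of_norm_bounded h2 (fun p => ?_)
    refine (norm_indicator_le_norm_self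
      (fun z => m p.1 z * n (z * p.1⁻¹) (cj p.1 z)) p.2).trans ?_
    rw [norm_mul, norm_bdL, norm_bdL]
    exact mul_le_mul (norm_le_bd m _ _) (norm_le_bd n _ _) (norm_nonneg _) (bd_nonneg m _)
  rw [hsum.tsum_comm]

theorem trK_comm (C : Set G) (hC : ∀ g z : G, z ∈ C → cj g z ∈ C) (m n : K1 G) :
    trK C (m * n) = trK C (n * m) := by
  rw [trK_mul_eq C hC, trK_mul_eq']

/-- The diagonal functional as an additive map. -/
noncomputable def trKhom (C : Set G) : K1 G →+ ℂ where
  toFun := trK C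
  map_zero' := trK_zero C
  map_add' := trK_add C

theorem trKhom_apply (C : Set G) (m : K1 G) : trKhom C m = trK C m := rfl

section matrix

variable {n : Type*} [Fintype n] [DecidableEq n]

/-- Nearby idempotent matrices over `K1 G` have the same diagonal traces. -/
theorem ktr_eq_of_close (C : Set G) (hC : ∀ g z : G, z ∈ C → cj g z ∈ C)
    (e f : Matrix n n (K1 G)) (he : e * e = e) (hf : f * f = f) (hd : gsize (fun m : K1 G => nrm m) (f - e) < 1) :
    gtr (trKhom C) f = gtr (trKhom C) e :=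
  gtr_eq_of_close (R := K1 G) (fun m => nrm m) (fun m => nrm_nonneg m) nrm_zero
    (fun m n => nrm_add_le m n) (fun m n => nrm_mul_le m n) (trKhom C)
    (fun m n => trK_comm C hC m n) (fun m => norm_trK_le C m) e f he hf hd

end matrix

end K1

end Vale.Agent.H49
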