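import Vale.Agent.H49.L1Trace

/-!
# The convolution ring of dominated kernels

`K1 G` is the set of functions `m : G → G → ℂ` for which `g ↦ sup_z ‖m g z‖` is summable, with
pointwise addition and the twisted convolution
`(m * n) g z = ∑' h, m h ((h⁻¹ g) z (h⁻¹ g)⁻¹) * n (h⁻¹ g) z`.
It is the `ℓ¹` crossed product of the bounded functions on `G` by the conjugation action.
-/

namespace Vale.Agent.H49

open scoped BigOperators

/-- Conjugation `g z g⁻¹`. -/
def cj {G : Type*} [Group G] (g z : G) : G := g * z * g⁻¹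

section cj

variable {G : Type*} [Group G]

theorem cj_mul (g h z : G) : cj (g * h) z = cj g (cj h z) := by
  unfold cj
  group

@[simp] theorem cj_one (z : G) : cj 1 z = z := by
  simp [cj]

theorem cj_inv_cj (g z : G) : cj g⁻¹ (cj g z) = z := by
  rw [← cj_mul]
  simp

theorem cj_cj_inv (g z : G) : cj g (cj g⁻¹ z) = z := by
  rw [← cj_mul]
  simp

/-- Conjugation by `g` as a bijection. -/
def cjEquiv (g : G) : G ≃ G where
  toFun z := cj g z
  invFun z := cj g⁻¹ z
  left_inv z := cj_inv_cj g z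
  right_inv z := cj_cj_inv g z

end cj

/-- The type of kernels `G → G → ℂ` dominated by a summable function of the first variable. -/
structure K1 (G : Type*) where
  /-- the underlying function -/
  toFun : G → G → ℂ
  /-- domination by a summable function -/
  dom : ∃ a : G → ℝ, Summable a ∧ ∀ g z, ‖toFun g z‖ ≤ a g

namespace K1

variable {G : Type*}

instance : CoeFun (K1 G) (fun _ => G → G → ℂ) := ⟨fun m => m.toFun⟩

theorem coe_injective : Function.Injective (fun (m : K1 G) => (m : G → G → ℂ)) := by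
  intro a b h
  cases a; cases b
  simp only at h
  subst h
  rfl

@[ext] theorem ext {m n : K1 G} (h : ∀ g z, m g z = n g z) : m = n :=
  coe_injective (funext fun g => funext (h g))

instance : Zero (K1 G) := ⟨⟨fun _ _ => 0, ⟨fun _ => 0, summable_zero, by simp⟩⟩⟩

instance : Add (K1 G) := ⟨fun m n => ⟨fun g z => m g z + n g z, by
  obtain ⟨a, ha, hma⟩ := m.dom
  obtain ⟨b, hb, hnb⟩ := n.dom
  exact ⟨fun g => a g + b g, ha.add hb,
    fun g z => (norm_add_le _ _).trans (add_le_add (hma g z) (hnb g z))⟩⟩⟩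

instance : Neg (K1 G) := ⟨fun m => ⟨fun g z => -m g z, by
  obtain ⟨a, ha, hma⟩ := m.dom
  exact ⟨a, ha, fun g z => by rw [norm_neg]; exact hma g z⟩⟩⟩

instance : Sub (K1 G) := ⟨fun m n => ⟨fun g z => m g z - n g z, by
  obtain ⟨a, ha, hma⟩ := m.dom
  obtain ⟨b, hb, hnb⟩ := n.dom
  exact ⟨fun g => a g + b g, ha.add hb,
    fun g z => (norm_sub_le _ _).trans (add_le_add (hma g z) (hnb g z))⟩⟩⟩

instance : SMul ℕ (K1 G) := ⟨fun k m => ⟨fun g z => k • m g z, by
  obtain ⟨a, ha, hma⟩ := m.dom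
  refine ⟨fun g => (k : ℝ) * a g, ha.mul_left _, fun g z => ?_⟩
  rw [nsmul_eq_mul, norm_mul, Complex.norm_natCast]
  exact mul_le_mul_of_nonneg_left (hma g z) (Nat.cast_nonneg k)⟩⟩

instance : SMul ℤ (K1 G) := ⟨fun k m => ⟨fun g z => k • m g z, by
  obtain ⟨a, ha, hma⟩ := m.dom
  refine ⟨fun g => ‖(k : ℂ)‖ * a g, ha.mul_left _, fun g z => ?_⟩
  rw [zsmul_eq_mul, norm_mul]
  exact mul_le_mul_of_nonneg_left (hma g z) (norm_nonneg _)⟩⟩

@[simp] theorem add_apply (m n : K1 G) (g z : G) : (m + n) g z = m g z + n g z := rfl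
@[simp] theorem zero_apply (g z : G) : (0 : K1 G) g z = 0 := rfl
@[simp] theorem neg_apply (m : K1 G) (g z : G) : (-m) g z = -m g z := rfl
@[simp] theorem sub_apply (m n : K1 G) (g z : G) : (m - n) g z = m g z - n g z := rfl

noncomputable instance : AddCommGroup (K1 G) :=
  Function.Injective.addCommGroup (fun (m : K1 G) => (m : G → G → ℂ)) coe_injective
    rfl (fun _ _ => rfl) (fun _ => rfl) (fun _ _ => rfl) (fun _ _ => rfl) (fun _ _ => rfl)

/-- The bound `sup_z ‖m g z‖`. -/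
noncomputable def bd (m : K1 G) (g : G) : ℝ := ⨆ z, ‖m g z‖

theorem bddAbove (m : K1 G) (g : G) : BddAbove (Set.range fun z => ‖m g z‖) := by
  obtain ⟨a, _, hma⟩ := m.dom
  refine ⟨a g, ?_⟩
  rintro _ ⟨z, rfl⟩
  exact hma g z

theorem norm_le_bd (m : K1 G) (g z : G) : ‖m g z‖ ≤ bd m g :=
  le_ciSup (m.bddAbove g) z

theorem bd_nonneg (m : K1 G) (g : G) : 0 ≤ bd m g :=
  Real.iSup_nonneg fun _ => norm_nonneg _

theorem bd_le (m : K1 G) (g : G) {c : ℝ} (hc : 0 ≤ c) (h : ∀ z, ‖m g z‖ ≤ c) : bd m g ≤ c :=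
  Real.iSup_le h hc

theorem summable_bd (m : K1 G) : Summable (bd m) := by
  obtain ⟨a, ha, hma⟩ := m.dom
  refine Summable.of_nonneg_of_le (bd_nonneg m) (fun g => ?_) ha.abs
  exact bd_le m g (abs_nonneg _) (fun z => (hma g z).trans (le_abs_self _))

/-- The dominating element of `L1 G`. -/
noncomputable def bdL (m : K1 G) : L1 G :=
  L1.mk' (fun g => (bd m g : ℂ)) (by
    have h : (fun g => ‖(bd m g : ℂ)‖) = bd m := by
      funext g
      rw [Complex.norm_real, Real.norm_eq_abs, abs_of_nonneg (bd_nonneg m g)]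
    rw [h]
    exact summable_bd m)

theorem norm_bdL (m : K1 G) (g : G) : ‖bdL m g‖ = bd m g := by
  show ‖(bd m g : ℂ)‖ = bd m g
  rw [Complex.norm_real, Real.norm_eq_abs, abs_of_nonneg (bd_nonneg m g)]

/-- The size `∑ g, sup_z ‖m g z‖`. -/
noncomputable def nrm (m : K1 G) : ℝ := ∑' g, bd m g

theorem nrm_nonneg (m : K1 G) : 0 ≤ nrm m := tsum_nonneg (bd_nonneg m)

theorem nrm_bdL (m : K1 G) : L1.nrm (bdL m) = nrm m := by
  unfold L1.nrm nrm
  exact tsum_congr (norm_bdL m)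

theorem bd_add_le (m n : K1 G) (g : G) : bd (m + n) g ≤ bd m g + bd n g :=
  bd_le _ g (add_nonneg (bd_nonneg m g) (bd_nonneg n g))
    (fun z => (norm_add_le _ _).trans (add_le_add (norm_le_bd m g z) (norm_le_bd n g z)))

theorem nrm_add_le (m n : K1 G) : nrm (m + n) ≤ nrm m + nrm n := by
  unfold nrm
  rw [← (summable_bd m).tsum_add (summable_bd n)]
  exact (summable_bd (m + n)).tsum_le_tsum (bd_add_le m n) ((summable_bd m).add (summable_bd n))

theorem bd_zero (g : G) : bd (0 : K1 G) g = 0 :=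
  le_antisymm (bd_le _ g le_rfl (fun z => by simp)) (bd_nonneg _ g)

theorem nrm_zero : nrm (0 : K1 G) = 0 := by
  unfold nrm
  simp [bd_zero]

section conv

variable [Group G]

theorem norm_term_le (m n : K1 G) (g z h : G) :
    ‖m h (cj (h⁻¹ * g) z) * n (h⁻¹ * g) z‖ ≤ ‖bdL m h‖ * ‖bdL n (h⁻¹ * g)‖ := by
  rw [norm_mul, norm_bdL, norm_bdL]
  exact mul_le_mul (norm_le_bd m _ _) (norm_le_bd n _ _) (norm_nonneg _) (bd_nonneg m h)

theorem summable_conv_norm (m n : K1 G) (g z : G) :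
    Summable fun h => ‖m h (cj (h⁻¹ * g) z) * n (h⁻¹ * g) z‖ :=
  Summable.of_nonneg_of_le (fun _ => norm_nonneg _) (fun h => norm_term_le m n g z h)
    (L1.summable_conv_norm (bdL m) (bdL n) g)

theorem summable_conv (m n : K1 G) (g z : G) :
    Summable fun h => m h (cj (h⁻¹ * g) z) * n (h⁻¹ * g) z :=
  (summable_conv_norm m n g z).of_norm

theorem norm_conv_le (m n : K1 G) (g z : G) :
    ‖∑' h, m h (cj (h⁻¹ * g) z) * n (h⁻¹ * g) z‖ ≤ ∑' h, ‖bdL m h‖ * ‖bdL n (h⁻¹ * g)‖ :=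
  (norm_tsum_le_tsum_norm (summable_conv_norm m n g z)).trans
    ((summable_conv_norm m n g z).tsum_le_tsum (fun h => norm_term_le m n g z h)
      (L1.summable_conv_norm (bdL m) (bdL n) g))

/-- Twisted convolution. -/
noncomputable def conv (m n : K1 G) : K1 G :=
  ⟨fun g z => ∑' h, m h (cj (h⁻¹ * g) z) * n (h⁻¹ * g) z,
    ⟨fun g => ∑' h, ‖bdL m h‖ * ‖bdL n (h⁻¹ * g)‖, L1.summable_conv_outer (bdL m) (bdL n),
      fun g z => norm_conv_le m n g z⟩⟩

theorem conv_apply (m n : K1 G) (g z : G) :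
    conv m n g z = ∑' h, m h (cj (h⁻¹ * g) z) * n (h⁻¹ * g) z := rfl

theorem tsum_conv_norm (a b : L1 G) :
    ∑' g, ∑' h, ‖a h‖ * ‖b (h⁻¹ * g)‖ = L1.nrm a * L1.nrm b := by
  have e0 : ∑' g, ∑' h, ‖a h‖ * ‖b (h⁻¹ * g)‖
      = ∑' p : G × G, ‖a p.2‖ * ‖b (p.2⁻¹ * p.1)‖ :=
    ((L1.summable_conv_prod_symm a b).tsum_prod).symm
  have e1 : ∑' p : G × G, ‖a p.2‖ * ‖b (p.2⁻¹ * p.1)‖
      = ∑' p : G × G, ‖a p.1‖ * ‖b (p.1⁻¹ * p.2)‖ :=
    (Equiv.prodComm G G).tsum_eq (fun p : G × G => ‖a p.1‖ * ‖b (p.1⁻¹ * p.2)‖)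
  have e2 : ∑' p : G × G, ‖a p.1‖ * ‖b (p.1⁻¹ * p.2)‖ = ∑' p : G × G, ‖a p.1‖ * ‖b p.2‖ :=
    (L1.shear G).tsum_eq (fun x : G × G => ‖a x.1‖ * ‖b x.2‖)
  rw [e0, e1, e2]
  unfold L1.nrm
  exact (tsum_mul_tsum_of_summable_norm (f := fun g => ‖a g‖) (g := fun g => ‖b g‖)
    (by simpa using a.summable) (by simpa using b.summable)).symm

theorem nrm_conv_le (m n : K1 G) : nrm (conv m n) ≤ nrm m * nrm n := by
  have h1 : nrm (conv m n) ≤ ∑' g, ∑' h, ‖bdL m h‖ * ‖bdL n (h⁻¹ * g)‖ := by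
    unfold nrm
    refine (summable_bd (conv m n)).tsum_le_tsum (fun g => ?_)
      (L1.summable_conv_outer (bdL m) (bdL n))
    exact bd_le _ g (tsum_nonneg fun h => mul_nonneg (norm_nonneg _) (norm_nonneg _))
      (fun z => norm_conv_le m n g z)
  rw [tsum_conv_norm, nrm_bdL, nrm_bdL] at h1
  exact h1

theorem conv_add (m n p : K1 G) : conv m (n + p) = conv m n + conv m p := by
  ext g z
  simp only [conv_apply, add_apply, mul_add]
  exact (summable_conv m n g z).tsum_add (summable_conv m p g z)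

theorem add_conv (m n p : K1 G) : conv (m + n) p = conv m p + conv n p := by
  ext g z
  simp only [conv_apply, add_apply, add_mul]
  exact (summable_conv m p g z).tsum_add (summable_conv n p g z)

theorem zero_conv (m : K1 G) : conv 0 m = 0 := by
  ext g z
  simp [conv_apply]

theorem conv_zero (m : K1 G) : conv m 0 = 0 := by
  ext g z
  simp [conv_apply]

open Classical in
/-- The unit of `K1 G`. -/
noncomputable def one : K1 G :=
  ⟨fun g _ => if g = 1 then 1 else 0, ⟨fun g => if g = 1 then 1 else 0,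
    (hasSum_ite_eq (1 : G) (1 : ℝ)).summable, fun g z => by by_cases hg : g = 1 <;> simp [hg]⟩⟩

open Classical in
theorem one_apply (g z : G) : (one : K1 G) g z = if g = 1 then 1 else 0 := rfl

theorem one_conv (m : K1 G) : conv one m = m := by
  ext g z
  rw [conv_apply, tsum_eq_single 1]
  · simp [one_apply]
  · intro h hh
    simp [one_apply, hh]

theorem conv_one (m : K1 G) : conv m one = m := by
  ext g z
  rw [conv_apply, tsum_eq_single g]
  · simp [one_apply]
  · intro h hh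
    have : h⁻¹ * g ≠ 1 := by
      intro h1
      apply hh
      have := eq_of_inv_mul_eq_one h1
      exact this
    simp [one_apply, this]

theorem summable_assoc (m n p : K1 G) (g z : G) :
    Summable (Function.uncurry fun k h =>
      m k (cj (k⁻¹ * g) z) * n (k⁻¹ * h) (cj (h⁻¹ * g) z) * p (h⁻¹ * g) z) := by
  refine Summable.of_norm_bounded
    (g := fun q : G × G => ‖bdL m q.1‖ * ‖bdL n (q.1⁻¹ * q.2)‖ * nrm p)
    ((L1.summable_conv_prod (bdL m) (bdL n)).mul_right _) (fun q => ?_)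
  simp only [Function.uncurry, norm_mul, norm_bdL]
  have h1 : ‖m q.1 (cj (q.1⁻¹ * g) z)‖ ≤ bd m q.1 := norm_le_bd m _ _
  have h2 : ‖n (q.1⁻¹ * q.2) (cj (q.2⁻¹ * g) z)‖ ≤ bd n (q.1⁻¹ * q.2) := norm_le_bd n _ _
  have h3 : ‖p (q.2⁻¹ * g) z‖ ≤ nrm p :=
    (norm_le_bd p _ _).trans ((summable_bd p).le_tsum _ (fun _ _ => bd_nonneg p _))
  exact mul_le_mul (mul_le_mul h1 h2 (norm_nonneg _) (bd_nonneg m _)) h3 (norm_nonneg _)
    (mul_nonneg (bd_nonneg m _) (bd_nonneg n _))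

theorem conv_assoc (m n p : K1 G) : conv (conv m n) p = conv m (conv n p) := by
  ext g z
  simp only [conv_apply]
  have hL : ∀ h, (∑' k, m k (cj (k⁻¹ * h) (cj (h⁻¹ * g) z)) * n (k⁻¹ * h) (cj (h⁻¹ * g) z))
        * p (h⁻¹ * g) z
      = ∑' k, m k (cj (k⁻¹ * g) z) * n (k⁻¹ * h) (cj (h⁻¹ * g) z) * p (h⁻¹ * g) z := by
    intro h
    rw [← tsum_mul_right]
    refine tsum_congr (fun k => ?_)
    rw [← cj_mul]
    have : k⁻¹ * h * (h⁻¹ * g) = k⁻¹ * g := by group
    rw [this]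
  have hR : ∀ k, m k (cj (k⁻¹ * g) z)
        * ∑' j, n j (cj (j⁻¹ * (k⁻¹ * g)) z) * p (j⁻¹ * (k⁻¹ * g)) z
      = ∑' h, m k (cj (k⁻¹ * g) z) * n (k⁻¹ * h) (cj (h⁻¹ * g) z) * p (h⁻¹ * g) z := by
    intro k
    rw [← tsum_mul_left]
    rw [← (Equiv.mulLeft k⁻¹).tsum_eq]
    refine tsum_congr (fun h => ?_)
    have : (k⁻¹ * h)⁻¹ * (k⁻¹ * g) = h⁻¹ * g := by group
    simp only [Equiv.coe_mulLeft, this, mul_assoc]
  simp_rw [hL, hR]
  exact (summable_assoc m n p g z).tsum_comm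

noncomputable instance : Ring (K1 G) :=
  { (inferInstance : AddCommGroup (K1 G)) with
    mul := conv
    one := one
    mul_assoc := conv_assoc
    one_mul := one_conv
    mul_one := conv_one
    left_distrib := conv_add
    right_distrib := add_conv
    zero_mul := zero_conv
    mul_zero := conv_zero }

theorem mul_apply (m n : K1 G) (g z : G) :
    (m * n) g z = ∑' h, m h (cj (h⁻¹ * g) z) * n (h⁻¹ * g) z := rfl

theorem nrm_mul_le (m n : K1 G) : nrm (m * n) ≤ nrm m * nrm n := nrm_conv_le m n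

open Classical in
theorem one_apply' (g z : G) : (1 : K1 G) g z = if g = 1 then 1 else 0 := rfl

end conv

end K1

end Vale.Agent.H49
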