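import Mathlib

/-!
# The convolution ring of absolutely summable functions on a group

`L1 G` is the set of functions `a : G → ℂ` with `∑ ‖a g‖ < ∞`, with pointwise addition and
convolution `(a * b) g = ∑' h, a h * b (h⁻¹ * g)`.
-/

namespace Vale.Agent.H49

open scoped BigOperators

/-- The type of absolutely summable complex functions on `G`. -/
structure L1 (G : Type*) where
  /-- the underlying function -/
  toFun : G → ℂ
  /-- absolute summability -/
  summable_norm : Summable fun g => ‖toFun g‖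

namespace L1

variable {G : Type*}

instance : CoeFun (L1 G) (fun _ => G → ℂ) := ⟨fun a => a.toFun⟩

theorem summable (a : L1 G) : Summable fun g => ‖a g‖ := a.summable_norm

theorem summable' (a : L1 G) : Summable fun g => a g := a.summable.of_norm

theorem coe_injective : Function.Injective (fun (a : L1 G) => (a : G → ℂ)) := by
  intro a b h
  cases a; cases b
  simp only at h
  subst h
  rfl

@[ext] theorem ext {a b : L1 G} (h : ∀ g, a g = b g) : a = b := coe_injective (funext h)

instance : Zero (L1 G) := ⟨⟨0, by simp [summable_zero]⟩⟩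

instance : Add (L1 G) := ⟨fun a b => ⟨fun g => a g + b g,
  Summable.of_nonneg_of_le (fun _ => norm_nonneg _) (fun g => norm_add_le (a g) (b g))
    (a.summable.add b.summable)⟩⟩

instance : Neg (L1 G) := ⟨fun a => ⟨fun g => -a g, by simpa using a.summable⟩⟩

instance : Sub (L1 G) := ⟨fun a b => ⟨fun g => a g - b g,
  Summable.of_nonneg_of_le (fun _ => norm_nonneg _) (fun g => norm_sub_le (a g) (b g))
    (a.summable.add b.summable)⟩⟩

instance : SMul ℕ (L1 G) := ⟨fun n a => ⟨fun g => n • a g, by
  simpa [norm_mul] using a.summable.mul_left (‖(n : ℂ)‖)⟩⟩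

instance : SMul ℤ (L1 G) := ⟨fun n a => ⟨fun g => n • a g, by
  simpa [norm_mul] using a.summable.mul_left (‖(n : ℂ)‖)⟩⟩

@[simp] theorem add_apply (a b : L1 G) (g : G) : (a + b) g = a g + b g := rfl
@[simp] theorem zero_apply (g : G) : (0 : L1 G) g = 0 := rfl
@[simp] theorem neg_apply (a : L1 G) (g : G) : (-a) g = -a g := rfl
@[simp] theorem sub_apply (a b : L1 G) (g : G) : (a - b) g = a g - b g := rfl

noncomputable instance : AddCommGroup (L1 G) :=
  Function.Injective.addCommGroup (fun (a : L1 G) => (a : G → ℂ)) coe_injective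
    rfl (fun _ _ => rfl) (fun _ => rfl) (fun _ _ => rfl) (fun _ _ => rfl) (fun _ _ => rfl)

/-- Build an element of `L1 G`. -/
def mk' (f : G → ℂ) (hf : Summable fun g => ‖f g‖) : L1 G := ⟨f, hf⟩

@[simp] theorem mk'_apply (f : G → ℂ) (hf : Summable fun g => ‖f g‖) (g : G) :
    mk' f hf g = f g := rfl

/-- The `ℓ¹` norm. -/
noncomputable def nrm (a : L1 G) : ℝ := ∑' g, ‖a g‖

theorem nrm_nonneg (a : L1 G) : 0 ≤ nrm a := tsum_nonneg fun _ => norm_nonneg _

theorem nrm_add_le (a b : L1 G) : nrm (a + b) ≤ nrm a + nrm b := by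
  unfold nrm
  rw [← a.summable.tsum_add b.summable]
  exact (a + b).summable.tsum_le_tsum (fun g => norm_add_le (a g) (b g)) (a.summable.add b.summable)

theorem nrm_zero : nrm (0 : L1 G) = 0 := by
  simp [nrm]

theorem nrm_sum_le {ι : Type*} (s : Finset ι) (f : ι → L1 G) :
    nrm (∑ i ∈ s, f i) ≤ ∑ i ∈ s, nrm (f i) := by
  classical
  induction s using Finset.induction_on with
  | empty => simp [nrm_zero]
  | insert i s hi ih =>
    rw [Finset.sum_insert hi, Finset.sum_insert hi]
    exact (nrm_add_le _ _).trans (by linarith)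

theorem norm_apply_le (a : L1 G) (g : G) : ‖a g‖ ≤ nrm a :=
  a.summable.le_tsum g (fun _ _ => norm_nonneg _)

section conv

variable [Group G]

/-- The reindexing `(h, g) ↦ (h, h⁻¹ * g)` of `G × G`. -/
def shear (G : Type*) [Group G] : G × G ≃ G × G where
  toFun p := (p.1, p.1⁻¹ * p.2)
  invFun p := (p.1, p.1 * p.2)
  left_inv p := by simp
  right_inv p := by simp

theorem summable_conv_prod (a b : L1 G) :
    Summable fun p : G × G => ‖a p.1‖ * ‖b (p.1⁻¹ * p.2)‖ := by
  have h := Summable.mul_of_nonneg a.summable b.summable (fun _ => norm_nonneg _)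
    (fun _ => norm_nonneg _)
  exact ((shear G).summable_iff (f := fun x : G × G => ‖a x.1‖ * ‖b x.2‖)).mpr h

theorem summable_conv_prod_symm (a b : L1 G) :
    Summable fun p : G × G => ‖a p.2‖ * ‖b (p.2⁻¹ * p.1)‖ :=
  (summable_conv_prod a b).prod_symm

theorem summable_conv_norm (a b : L1 G) (g : G) :
    Summable fun h => ‖a h‖ * ‖b (h⁻¹ * g)‖ := by
  have h := (summable_conv_prod a b).comp_injective
    (i := fun h : G => (h, g)) (fun x y hxy => by simpa using congrArg Prod.fst hxy)
  exact h

theorem summable_conv (a b : L1 G) (g : G) :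
    Summable fun h => a h * b (h⁻¹ * g) := by
  refine Summable.of_norm ?_
  simpa [norm_mul] using summable_conv_norm a b g

theorem summable_conv_outer (a b : L1 G) :
    Summable fun g => ∑' h, ‖a h‖ * ‖b (h⁻¹ * g)‖ :=
  (summable_conv_prod_symm a b).prod

theorem norm_conv_le (a b : L1 G) (g : G) :
    ‖∑' h, a h * b (h⁻¹ * g)‖ ≤ ∑' h, ‖a h‖ * ‖b (h⁻¹ * g)‖ := by
  refine (norm_tsum_le_tsum_norm ?_).trans (le_of_eq ?_)
  · simpa [norm_mul] using summable_conv_norm a b g
  · simp

theorem conv_mem (a b : L1 G) : Summable fun g => ‖∑' h, a h * b (h⁻¹ * g)‖ :=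
  Summable.of_nonneg_of_le (fun _ => norm_nonneg _) (fun g => norm_conv_le a b g)
    (summable_conv_outer a b)

/-- Convolution. -/
noncomputable def conv (a b : L1 G) : L1 G := mk' (fun g => ∑' h, a h * b (h⁻¹ * g)) (conv_mem a b)

theorem conv_apply (a b : L1 G) (g : G) : conv a b g = ∑' h, a h * b (h⁻¹ * g) := rfl

theorem nrm_conv_le (a b : L1 G) : nrm (conv a b) ≤ nrm a * nrm b := by
  have h1 : nrm (conv a b) ≤ ∑' g, ∑' h, ‖a h‖ * ‖b (h⁻¹ * g)‖ := by
    unfold nrm
    exact (conv a b).summable.tsum_le_tsum (fun g => norm_conv_le a b g) (summable_conv_outer a b)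
  have h2 : ∑' g, ∑' h, ‖a h‖ * ‖b (h⁻¹ * g)‖ = nrm a * nrm b := by
    have e0 : ∑' g, ∑' h, ‖a h‖ * ‖b (h⁻¹ * g)‖
        = ∑' p : G × G, ‖a p.2‖ * ‖b (p.2⁻¹ * p.1)‖ :=
      ((summable_conv_prod_symm a b).tsum_prod).symm
    have e1 : ∑' p : G × G, ‖a p.2‖ * ‖b (p.2⁻¹ * p.1)‖
        = ∑' p : G × G, ‖a p.1‖ * ‖b (p.1⁻¹ * p.2)‖ :=
      (Equiv.prodComm G G).tsum_eq (fun p : G × G => ‖a p.1‖ * ‖b (p.1⁻¹ * p.2)‖)
    have e2 : ∑' p : G × G, ‖a p.1‖ * ‖b (p.1⁻¹ * p.2)‖ = ∑' p : G × G, ‖a p.1‖ * ‖b p.2‖ :=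
      (shear G).tsum_eq (fun x : G × G => ‖a x.1‖ * ‖b x.2‖)
    rw [e0, e1, e2]
    unfold nrm
    exact (tsum_mul_tsum_of_summable_norm (f := fun g => ‖a g‖) (g := fun g => ‖b g‖)
      (by simpa using a.summable) (by simpa using b.summable)).symm
  linarith

theorem conv_add (a b c : L1 G) : conv a (b + c) = conv a b + conv a c := by
  ext g
  simp only [conv_apply, add_apply, mul_add]
  exact (summable_conv a b g).tsum_add (summable_conv a c g)

theorem add_conv (a b c : L1 G) : conv (a + b) c = conv a c + conv b c := by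
  ext g
  simp only [conv_apply, add_apply, add_mul]
  exact (summable_conv a c g).tsum_add (summable_conv b c g)

theorem zero_conv (a : L1 G) : conv 0 a = 0 := by
  ext g
  simp [conv_apply]

theorem conv_zero (a : L1 G) : conv a 0 = 0 := by
  ext g
  simp [conv_apply]

open Classical in
/-- The unit of `L1 G`: the indicator of the identity element. -/
noncomputable def one : L1 G := mk' (fun g => if g = 1 then 1 else 0) (by
  have h : (fun g : G => ‖(if g = 1 then (1 : ℂ) else 0)‖) = fun g => if g = 1 then (1 : ℝ) else 0 := by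
    funext g
    split_ifs <;> simp
  rw [h]
  exact (hasSum_ite_eq (1 : G) (1 : ℝ)).summable)

open Classical in
theorem one_apply (g : G) : (one : L1 G) g = if g = 1 then 1 else 0 := rfl

theorem one_conv (a : L1 G) : conv one a = a := by
  ext g
  rw [conv_apply, tsum_eq_single 1]
  · simp [one_apply]
  · intro h hh
    simp [one_apply, hh]

theorem conv_one (a : L1 G) : conv a one = a := by
  ext g
  rw [conv_apply, tsum_eq_single g]
  · simp [one_apply]
  · intro h hh
    have : h⁻¹ * g ≠ 1 := by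
      intro h1
      apply hh
      have := eq_of_inv_mul_eq_one h1
      exact this
    simp [one_apply, this]

theorem summable_assoc (a b c : L1 G) (g : G) :
    Summable (Function.uncurry fun k h => a k * b (k⁻¹ * h) * c (h⁻¹ * g)) := by
  refine Summable.of_norm_bounded (g := fun p : G × G => ‖a p.1‖ * ‖b (p.1⁻¹ * p.2)‖ * nrm c)
    ((summable_conv_prod a b).mul_right _) (fun p => ?_)
  simp only [Function.uncurry, norm_mul]
  exact mul_le_mul_of_nonneg_left (norm_apply_le c _) (mul_nonneg (norm_nonneg _) (norm_nonneg _))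

theorem conv_assoc (a b c : L1 G) : conv (conv a b) c = conv a (conv b c) := by
  ext g
  simp only [conv_apply]
  have hL : ∀ h, (∑' k, a k * b (k⁻¹ * h)) * c (h⁻¹ * g)
      = ∑' k, a k * b (k⁻¹ * h) * c (h⁻¹ * g) := fun h => tsum_mul_right.symm
  have hR : ∀ k, a k * ∑' m, b m * c (m⁻¹ * (k⁻¹ * g))
      = ∑' h, a k * b (k⁻¹ * h) * c (h⁻¹ * g) := by
    intro k
    rw [← tsum_mul_left]
    rw [← (Equiv.mulLeft k⁻¹).tsum_eq]
    refine tsum_congr (fun h => ?_)
    simp [mul_assoc]
  simp_rw [hL, hR]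
  exact (summable_assoc a b c g).tsum_comm

noncomputable instance : Ring (L1 G) :=
  { (inferInstance : AddCommGroup (L1 G)) with
    mul := conv
    one := one
    mul_assoc := conv_assoc
    one_mul := one_conv
    mul_one := conv_one
    left_distrib := conv_add
    right_distrib := add_conv
    zero_mul := zero_conv
    mul_zero := conv_zero }

theorem mul_apply (a b : L1 G) (g : G) : (a * b) g = ∑' h, a h * b (h⁻¹ * g) := rfl

theorem nrm_mul_le (a b : L1 G) : nrm (a * b) ≤ nrm a * nrm b := nrm_conv_le a b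

open Classical in
theorem one_apply' (g : G) : (1 : L1 G) g = if g = 1 then 1 else 0 := rfl

end conv

end L1

end Vale.Agent.H49
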