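import Vale.Agent.H49.L1Ring
import Vale.Agent.H49.IdemTrace

/-!
# Class-sum traces on `L1 G` and on matrices over `L1 G`
-/

namespace Vale.Agent.H49

open scoped BigOperators

namespace L1

variable {G : Type*} [Group G]

theorem sum_apply {ι : Type*} (s : Finset ι) (f : ι → L1 G) (g : G) :
    (∑ i ∈ s, f i) g = ∑ i ∈ s, f i g := by
  classical
  induction s using Finset.induction_on with
  | empty => simp
  | insert i s hi ih => rw [Finset.sum_insert hi, Finset.sum_insert hi, add_apply, ih]

/-- The class-sum functional: the sum of `a` over the set `C`. -/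
noncomputable def tr1 (C : Set G) (a : L1 G) : ℂ := ∑' g, C.indicator (fun g => a g) g

theorem summable_indicator (C : Set G) (a : L1 G) : Summable (C.indicator fun g => a g) :=
  a.summable'.indicator C

theorem tr1_add (C : Set G) (a b : L1 G) : tr1 C (a + b) = tr1 C a + tr1 C b := by
  unfold tr1
  rw [← (summable_indicator C a).tsum_add (summable_indicator C b)]
  refine tsum_congr (fun g => ?_)
  by_cases hg : g ∈ C
  · simp [Set.indicator_of_mem hg]
  · simp [Set.indicator_of_notMem hg]

theorem tr1_zero (C : Set G) : tr1 C (0 : L1 G) = 0 := by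
  simp [tr1]

theorem norm_tr1_le (C : Set G) (a : L1 G) : ‖tr1 C a‖ ≤ nrm a := by
  unfold tr1 nrm
  have hs : Summable fun g => ‖C.indicator (fun g => a g) g‖ :=
    Summable.of_nonneg_of_le (fun _ => norm_nonneg _)
      (fun g => norm_indicator_le_norm_self (fun g => a g) g) a.summable
  exact (norm_tsum_le_tsum_norm hs).trans
    (hs.tsum_le_tsum (fun g => norm_indicator_le_norm_self (fun g => a g) g) a.summable)

theorem tr1_mul_eq (C : Set G) (a b : L1 G) :
    tr1 C (a * b) = ∑' h, ∑' k, C.indicator (fun _ => a h * b k) (h * k) := by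
  unfold tr1
  have h1 : ∀ g, C.indicator (fun g => (a * b) g) g
      = ∑' h, C.indicator (fun g => a h * b (h⁻¹ * g)) g := by
    intro g
    by_cases hg : g ∈ C
    · simp [Set.indicator_of_mem hg, mul_apply]
    · simp [Set.indicator_of_notMem hg]
  simp_rw [h1]
  have hsum : Summable (Function.uncurry fun h g => C.indicator (fun g => a h * b (h⁻¹ * g)) g) := by
    refine Summable.of_norm_bounded (summable_conv_prod a b) (fun p => ?_)
    refine (norm_indicator_le_norm_self (fun g => a p.1 * b (p.1⁻¹ * g)) p.2).trans (le_of_eq ?_)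
    simp [norm_mul]
  rw [hsum.tsum_comm]
  refine tsum_congr (fun h => ?_)
  rw [← (Equiv.mulLeft h).tsum_eq]
  refine tsum_congr (fun k => ?_)
  by_cases hm : h * k ∈ C
  · simp [Set.indicator_of_mem hm]
  · simp [Set.indicator_of_notMem hm]

theorem tr1_comm (C : Set G) (hC : ∀ g h : G, g * h ∈ C → h * g ∈ C) (a b : L1 G) :
    tr1 C (a * b) = tr1 C (b * a) := by
  rw [tr1_mul_eq, tr1_mul_eq]
  have hsum : Summable (Function.uncurry fun k h => C.indicator (fun _ => b k * a h) (k * h)) := by
    have h0 := Summable.mul_of_nonneg b.summable a.summable (fun _ => norm_nonneg _)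
      (fun _ => norm_nonneg _)
    refine Summable.of_norm_bounded h0 (fun p => ?_)
    refine (norm_indicator_le_norm_self (fun _ : G => b p.1 * a p.2) (p.1 * p.2)).trans
      (le_of_eq ?_)
    simp [norm_mul]
  rw [← hsum.tsum_comm]
  refine tsum_congr (fun h => tsum_congr (fun k => ?_))
  by_cases hm : h * k ∈ C
  · have hm' : k * h ∈ C := hC _ _ hm
    simp [Set.indicator_of_mem hm, Set.indicator_of_mem hm', mul_comm]
  · have hm' : k * h ∉ C := fun hh => hm (hC _ _ hh)
    simp [Set.indicator_of_notMem hm, Set.indicator_of_notMem hm']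

section matrix

variable {n : Type*} [Fintype n] [DecidableEq n]

/-- The size of a matrix over `L1 G`: the sum of the `ℓ¹` norms of its entries. -/
noncomputable def msize (A : Matrix n n (L1 G)) : ℝ := ∑ i, ∑ j, nrm (A i j)

theorem msize_nonneg (A : Matrix n n (L1 G)) : 0 ≤ msize A :=
  Finset.sum_nonneg fun _ _ => Finset.sum_nonneg fun _ _ => nrm_nonneg _

theorem msize_mul_le (A B : Matrix n n (L1 G)) : msize (A * B) ≤ msize A * msize B := by
  unfold msize
  have h1 : ∀ i j, nrm ((A * B) i j) ≤ (∑ k, nrm (A i k)) * (∑ l, nrm (B l j)) := by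
    intro i j
    have : (A * B) i j = ∑ k, A i k * B k j := rfl
    rw [this]
    refine (nrm_sum_le _ _).trans ?_
    rw [Finset.sum_mul]
    refine Finset.sum_le_sum (fun k _ => ?_)
    refine (nrm_mul_le _ _).trans ?_
    refine mul_le_mul_of_nonneg_left ?_ (nrm_nonneg _)
    exact Finset.single_le_sum (f := fun l => nrm (B l j)) (fun l _ => nrm_nonneg _)
      (Finset.mem_univ k)
  calc ∑ i, ∑ j, nrm ((A * B) i j)
      ≤ ∑ i, ∑ j, (∑ k, nrm (A i k)) * (∑ l, nrm (B l j)) :=
        Finset.sum_le_sum fun i _ => Finset.sum_le_sum fun j _ => h1 i j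
    _ = (∑ i, ∑ k, nrm (A i k)) * (∑ j, ∑ l, nrm (B l j)) := by
        rw [Finset.sum_mul_sum]
    _ = (∑ i, ∑ j, nrm (A i j)) * ∑ i, ∑ j, nrm (B i j) := by
        rw [Finset.sum_comm (f := fun j l => nrm (B l j))]

/-- The class-sum trace on matrices over `L1 G`. -/
noncomputable def mtr (C : Set G) : Matrix n n (L1 G) →+ ℂ where
  toFun A := ∑ i, tr1 C (A i i)
  map_zero' := by simp [tr1_zero]
  map_add' A B := by simp [tr1_add, Finset.sum_add_distrib]

theorem mtr_apply (C : Set G) (A : Matrix n n (L1 G)) : mtr C A = ∑ i, tr1 C (A i i) := rfl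

theorem tr1_sum {ι : Type*} (C : Set G) (s : Finset ι) (f : ι → L1 G) :
    tr1 C (∑ i ∈ s, f i) = ∑ i ∈ s, tr1 C (f i) := by
  classical
  induction s using Finset.induction_on with
  | empty => simp [tr1_zero]
  | insert i s hi ih => rw [Finset.sum_insert hi, Finset.sum_insert hi, tr1_add, ih]

theorem mtr_comm (C : Set G) (hC : ∀ g h : G, g * h ∈ C → h * g ∈ C)
    (A B : Matrix n n (L1 G)) : mtr C (A * B) = mtr C (B * A) := by
  simp only [mtr_apply, Matrix.mul_apply, tr1_sum]
  rw [Finset.sum_comm]
  refine Finset.sum_congr rfl (fun k _ => Finset.sum_congr rfl (fun i _ => ?_))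
  exact tr1_comm C hC _ _

theorem norm_mtr_le (C : Set G) (A : Matrix n n (L1 G)) : ‖mtr C A‖ ≤ 1 * msize A := by
  rw [one_mul, mtr_apply]
  refine (norm_sum_le _ _).trans ?_
  unfold msize
  refine Finset.sum_le_sum (fun i _ => ?_)
  refine (norm_tr1_le C _).trans ?_
  exact Finset.single_le_sum (f := fun j => nrm (A i j)) (fun j _ => nrm_nonneg _)
    (Finset.mem_univ i)

/-- Nearby idempotent matrices over `L1 G` have the same class-sum traces. -/
theorem mtr_eq_of_close (C : Set G) (hC : ∀ g h : G, g * h ∈ C → h * g ∈ C)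
    (e f : Matrix n n (L1 G)) (he : e * e = e) (hf : f * f = f) (hd : msize (f - e) < 1) :
    mtr C f = mtr C e := by
  have h := trace_eq_of_idem_close (R := Matrix n n (L1 G)) msize msize_nonneg msize_mul_le
    (mtr C) (mtr_comm C hC) 1 (norm_mtr_le C) e f he hf hd
  exact h

end matrix

end L1

end Vale.Agent.H49
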