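import Vale.Agent.H49.Lip

/-!
# Vanishing of class-sum traces from a homomorphism dominated by a length function

Two reductions to the equivariant-function criterion: a McShane-type extension of a
homomorphism dominated by a subadditive function, and an average over the finitely many cosets
of a finite-index subgroup of the centralizer.
-/

namespace Vale.Agent.H49

open scoped BigOperators

namespace K1

variable {G : Type*} [Group G]

section mcshane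

variable (ℓ : G → ℝ) (H : Subgroup G) (φ : G → ℝ)

/-- The extension `k ↦ sup_{η ∈ H} (φ η - ℓ (k η⁻¹))`. -/
noncomputable def ext1 (k : G) : ℝ := ⨆ η : H, (φ η - ℓ (k * (η : G)⁻¹))

variable {ℓ H φ}

theorem phi_one (hφ : ∀ a ∈ H, ∀ b ∈ H, φ (a * b) = φ a + φ b) : φ 1 = 0 := by
  have h := hφ 1 H.one_mem 1 H.one_mem
  rw [mul_one] at h
  linarith

theorem phi_inv (hφ : ∀ a ∈ H, ∀ b ∈ H, φ (a * b) = φ a + φ b) (η : G) (hη : η ∈ H) :
    φ η⁻¹ = -φ η := by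
  have h := hφ η hη η⁻¹ (H.inv_mem hη)
  rw [mul_inv_cancel, phi_one hφ] at h
  linarith

theorem ext1_term_le (hℓ : ∀ g h, ℓ (g * h) ≤ ℓ g + ℓ h)
    (hφ : ∀ a ∈ H, ∀ b ∈ H, φ (a * b) = φ a + φ b) (hφℓ : ∀ η ∈ H, |φ η| ≤ ℓ η)
    (k : G) (η : H) : φ η - ℓ (k * (η : G)⁻¹) ≤ ℓ k⁻¹ := by
  have h1 : ℓ (η : G)⁻¹ ≤ ℓ k⁻¹ + ℓ (k * (η : G)⁻¹) := by
    have := hℓ k⁻¹ (k * (η : G)⁻¹)
    rwa [inv_mul_cancel_left] at this
  have h2 : φ η ≤ ℓ (η : G)⁻¹ := by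
    have h3 := hφℓ (η : G)⁻¹ (H.inv_mem η.2)
    rw [phi_inv hφ η η.2, abs_neg] at h3
    exact (le_abs_self _).trans h3
  linarith

theorem ext1_bdd (hℓ : ∀ g h, ℓ (g * h) ≤ ℓ g + ℓ h)
    (hφ : ∀ a ∈ H, ∀ b ∈ H, φ (a * b) = φ a + φ b) (hφℓ : ∀ η ∈ H, |φ η| ≤ ℓ η) (k : G) :
    BddAbove (Set.range fun η : H => φ η - ℓ (k * (η : G)⁻¹)) := by
  refine ⟨ℓ k⁻¹, ?_⟩
  rintro _ ⟨η, rfl⟩
  exact ext1_term_le hℓ hφ hφℓ k η

theorem ext1_mul (hℓ : ∀ g h, ℓ (g * h) ≤ ℓ g + ℓ h)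
    (hφ : ∀ a ∈ H, ∀ b ∈ H, φ (a * b) = φ a + φ b) (hφℓ : ∀ η ∈ H, |φ η| ≤ ℓ η)
    (k η' : G) (hη' : η' ∈ H) : ext1 ℓ H φ (k * η') = ext1 ℓ H φ k + φ η' := by
  unfold ext1
  rw [ciSup_add (ext1_bdd hℓ hφ hφℓ k)]
  rw [← (Equiv.mulRight (⟨η', hη'⟩ : H)).iSup_comp
    (g := fun η : H => φ η - ℓ (k * η' * (η : G)⁻¹))]
  refine iSup_congr (fun η => ?_)
  have h1 : φ ((η * ⟨η', hη'⟩ : H) : G) = φ η + φ η' := hφ η η.2 η' hη'
  have h2 : k * η' * (((η * ⟨η', hη'⟩ : H) : G))⁻¹ = k * (η : G)⁻¹ := by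
    show k * η' * ((η : G) * η')⁻¹ = k * (η : G)⁻¹
    group
  simp only [Equiv.coe_mulRight]
  rw [h1, h2]
  ring

theorem ext1_left_ge (hℓ : ∀ g h, ℓ (g * h) ≤ ℓ g + ℓ h)
    (hφ : ∀ a ∈ H, ∀ b ∈ H, φ (a * b) = φ a + φ b) (hφℓ : ∀ η ∈ H, |φ η| ≤ ℓ η)
    (g k : G) : ext1 ℓ H φ k ≤ ext1 ℓ H φ (g * k) + ℓ g := by
  refine ciSup_le (fun η => ?_)
  have h1 : φ η - ℓ (g * k * (η : G)⁻¹) ≤ ext1 ℓ H φ (g * k) :=
    le_ciSup (ext1_bdd hℓ hφ hφℓ (g * k)) η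
  have h2 : ℓ (g * k * (η : G)⁻¹) ≤ ℓ g + ℓ (k * (η : G)⁻¹) := by
    have := hℓ g (k * (η : G)⁻¹)
    rwa [← mul_assoc] at this
  linarith

theorem ext1_lip (hℓ : ∀ g h, ℓ (g * h) ≤ ℓ g + ℓ h)
    (hφ : ∀ a ∈ H, ∀ b ∈ H, φ (a * b) = φ a + φ b) (hφℓ : ∀ η ∈ H, |φ η| ≤ ℓ η)
    (g : G) : ∃ D : ℝ, ∀ k : G, |ext1 ℓ H φ (g * k) - ext1 ℓ H φ k| ≤ D := by
  refine ⟨max (ℓ g) (ℓ g⁻¹), fun k => ?_⟩
  have h1 := ext1_left_ge hℓ hφ hφℓ g k
  have h2 := ext1_left_ge hℓ hφ hφℓ g⁻¹ (g * k)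
  rw [inv_mul_cancel_left] at h2
  rw [abs_le]
  constructor
  · have := le_max_left (ℓ g) (ℓ g⁻¹)
    linarith
  · have := le_max_right (ℓ g) (ℓ g⁻¹)
    linarith

end mcshane

section average

/-- The centralizer of `x`. -/
abbrev Zc (x : G) : Subgroup G := Subgroup.centralizer {x}

/-- The cosets of `H ∩ Z(x)` in the centralizer `Z(x)`. -/
abbrev Qc (x : G) (H : Subgroup G) : Type _ := (Zc x) ⧸ (H.subgroupOf (Zc x))

variable (x : G) (H : Subgroup G) [Fintype (Qc x H)]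

/-- The sum over the cosets `ζ H` in the centralizer of `x` of `f (k ζ) - f ζ`. -/
noncomputable def avg (f : G → ℝ) (k : G) : ℝ :=
  ∑ q : Qc x H, (f (k * ((Quotient.out q : Zc x) : G)) - f ((Quotient.out q : Zc x) : G))

variable {x H}

omit [Fintype (Qc x H)] in
theorem out_smul (ζ : Zc x) (q : Qc x H) :
    ∃ η ∈ H, (ζ : G) * ((Quotient.out q : Zc x) : G)
      = ((Quotient.out (ζ • q) : Zc x) : G) * η := by
  have h1 : ((Quotient.out (ζ • q) : Zc x) : Qc x H) = ((ζ * Quotient.out q : Zc x) : Qc x H) := by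
    rw [QuotientGroup.out_eq']
    have h2 : ((ζ * Quotient.out q : Zc x) : Qc x H) = ζ • ((Quotient.out q : Zc x) : Qc x H) :=
      rfl
    rw [h2, QuotientGroup.out_eq']
  have h3 := QuotientGroup.eq.mp h1
  rw [Subgroup.mem_subgroupOf] at h3
  refine ⟨_, h3, ?_⟩
  push_cast
  group

theorem avg_mul (f φ : G → ℝ) (hE : ∀ k : G, ∀ η ∈ H, f (k * η) = f k + φ η)
    (k ζ : G) (hζ : ζ * x = x * ζ) : avg x H f (k * ζ) = avg x H f k + avg x H f ζ := by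
  have hζm : ζ ∈ Zc x := Subgroup.mem_centralizer_singleton_iff.mpr hζ
  unfold avg
  have hinv : ∀ q : Qc x H,
      f (k * (ζ * ((Quotient.out q : Zc x) : G))) - f (ζ * ((Quotient.out q : Zc x) : G))
      = f (k * ((Quotient.out ((⟨ζ, hζm⟩ : Zc x) • q) : Zc x) : G))
        - f ((Quotient.out ((⟨ζ, hζm⟩ : Zc x) • q) : Zc x) : G) := by
    intro q
    obtain ⟨η, hη, h1⟩ := out_smul (H := H) (⟨ζ, hζm⟩ : Zc x) q
    have h1' : ζ * ((Quotient.out q : Zc x) : G)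
        = ((Quotient.out ((⟨ζ, hζm⟩ : Zc x) • q) : Zc x) : G) * η := h1
    rw [h1', ← mul_assoc, hE _ η hη, hE _ η hη]
    ring
  have hre := (MulAction.bijective (⟨ζ, hζm⟩ : Zc x)).sum_comp
    (fun q : Qc x H => f (k * ((Quotient.out q : Zc x) : G)) - f ((Quotient.out q : Zc x) : G))
  have hsplit : ∑ q : Qc x H,
      (f (k * ζ * ((Quotient.out q : Zc x) : G)) - f ((Quotient.out q : Zc x) : G))
      = ∑ q : Qc x H,
        ((f (k * (ζ * ((Quotient.out q : Zc x) : G))) - f (ζ * ((Quotient.out q : Zc x) : G)))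
        + (f (ζ * ((Quotient.out q : Zc x) : G)) - f ((Quotient.out q : Zc x) : G))) := by
    refine Finset.sum_congr rfl (fun q _ => ?_)
    rw [mul_assoc]
    ring
  rw [hsplit, Finset.sum_add_distrib]
  congr 1
  rw [← hre]
  exact Finset.sum_congr rfl (fun q _ => hinv q)

theorem avg_self (f φ : G → ℝ) (hE : ∀ k : G, ∀ η ∈ H, f (k * η) = f k + φ η) (hxH : x ∈ H) :
    avg x H f x = (Fintype.card (Qc x H) : ℝ) * φ x := by
  unfold avg
  have h1 : ∀ q : Qc x H,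
      f (x * ((Quotient.out q : Zc x) : G)) - f ((Quotient.out q : Zc x) : G) = φ x := by
    intro q
    have hc : ((Quotient.out q : Zc x) : G) * x = x * ((Quotient.out q : Zc x) : G) :=
      Subgroup.mem_centralizer_singleton_iff.mp (Quotient.out q).2
    rw [← hc, hE _ x hxH]
    ring
  rw [Finset.sum_congr rfl (fun q _ => h1 q)]
  simp

theorem avg_lip (f : G → ℝ) (hL : ∀ g : G, ∃ D : ℝ, ∀ k : G, |f (g * k) - f k| ≤ D) (g : G) :
    ∃ D : ℝ, ∀ k : G, |avg x H f (g * k) - avg x H f k| ≤ D := by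
  obtain ⟨D, hD⟩ := hL g
  refine ⟨∑ _q : Qc x H, D, fun k => ?_⟩
  unfold avg
  rw [← Finset.sum_sub_distrib]
  refine (Finset.abs_sum_le_sum_abs _ _).trans (Finset.sum_le_sum (fun q _ => ?_))
  have h1 : f (g * k * ((Quotient.out q : Zc x) : G)) - f ((Quotient.out q : Zc x) : G)
      - (f (k * ((Quotient.out q : Zc x) : G)) - f ((Quotient.out q : Zc x) : G))
      = f (g * (k * ((Quotient.out q : Zc x) : G))) - f (k * ((Quotient.out q : Zc x) : G)) := by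
    rw [mul_assoc]
    ring
  rw [h1]
  exact hD _

end average

/-- **Length-function criterion.** Let `x ∈ G`, let `ℓ : G → ℝ` be subadditive, let `H` be a
subgroup containing `x` whose intersection with the centralizer of `x` has finite index in the
centralizer, and let `φ : G → ℝ` be additive on `H`, bounded by `ℓ` on `H`, with `φ x ≠ 0`.
Then the class-sum trace over the conjugacy class of `x` of every idempotent matrix over `L1 G`
vanishes. -/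
theorem mtr_eq_zero_of_length {n : Type*} [Fintype n] [DecidableEq n] (x : G) (ℓ : G → ℝ)
    (hℓ : ∀ g h, ℓ (g * h) ≤ ℓ g + ℓ h) (H : Subgroup G) (hxH : x ∈ H)
    (hfin : (H.subgroupOf (Subgroup.centralizer {x})).FiniteIndex)
    (φ : G → ℝ) (hφ : ∀ a ∈ H, ∀ b ∈ H, φ (a * b) = φ a + φ b)
    (hφℓ : ∀ η ∈ H, |φ η| ≤ ℓ η) (hφx : φ x ≠ 0)
    (e : Matrix n n (L1 G)) (he : e * e = e) : L1.mtr (conjugatesOf x) e = 0 := by
  have : Fintype (Qc x H) := Fintype.ofFinite _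
  have hE : ∀ k : G, ∀ η ∈ H, ext1 ℓ H φ (k * η) = ext1 ℓ H φ k + φ η :=
    fun k η hη => ext1_mul hℓ hφ hφℓ k η hη
  have hL : ∀ g : G, ∃ D : ℝ, ∀ k : G, |ext1 ℓ H φ (g * k) - ext1 ℓ H φ k| ≤ D :=
    fun g => ext1_lip hℓ hφ hφℓ g
  refine mtr_eq_zero_of_lipschitz x (avg x H (ext1 ℓ H φ))
    (fun k ζ hζ => avg_mul _ φ hE k ζ hζ) (avg_lip _ hL) ?_ e he
  rw [avg_self _ φ hE hxH]
  refine mul_ne_zero ?_ hφx
  have : Nonempty (Qc x H) := ⟨((1 : Zc x) : Qc x H)⟩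
  exact Nat.cast_ne_zero.mpr Fintype.card_ne_zero

end K1

end Vale.Agent.H49
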