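import Vale.Agent.H49.Local

/-!
# Vanishing of class-sum traces from an equivariant function with bounded left variation
-/

namespace Vale.Agent.H49

open scoped BigOperators

namespace K1

variable {G : Type*} [Group G]

theorem mem_conj_iff (x z : G) : z ∈ conjugatesOf x ↔ ∃ k, cj k x = z := isConj_iff

theorem cj_mem_conj (x : G) (g z : G) (hz : z ∈ conjugatesOf x) : cj g z ∈ conjugatesOf x := by
  obtain ⟨k, rfl⟩ := (mem_conj_iff x z).mp hz
  exact (mem_conj_iff x _).mpr ⟨g * k, cj_mul g k x⟩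

open Classical in
/-- The cocycle `u g z = f (g k) - f k`, where `k` is any element with `k x k⁻¹ = z`
(and `u g z = 0` when `z` is not conjugate to `x`). -/
noncomputable def ucoc (x : G) (f : G → ℝ) (g z : G) : ℝ :=
  if h : ∃ k, cj k x = z then f (g * Classical.choose h) - f (Classical.choose h) else 0

theorem ucoc_cj (x : G) (f : G → ℝ)
    (hcent : ∀ k ζ : G, ζ * x = x * ζ → f (k * ζ) = f k + f ζ) (g k : G) :
    ucoc x f g (cj k x) = f (g * k) - f k := by
  have h : ∃ k', cj k' x = cj k x := ⟨k, rfl⟩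
  unfold ucoc
  rw [dif_pos h]
  have hcx : cj (Classical.choose h) x = cj k x := Classical.choose_spec h
  generalize Classical.choose h = c at hcx
  have hζ : (c⁻¹ * k) * x = x * (c⁻¹ * k) := by
    unfold cj at hcx
    have h3 : k * x = c * x * c⁻¹ * k := by
      rw [hcx]
      group
    calc c⁻¹ * k * x = c⁻¹ * (k * x) := by group
      _ = c⁻¹ * (c * x * c⁻¹ * k) := by rw [h3]
      _ = x * (c⁻¹ * k) := by group
  have h1 := hcent (g * c) (c⁻¹ * k) hζ
  have h2 := hcent c (c⁻¹ * k) hζ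
  have e1 : g * c * (c⁻¹ * k) = g * k := by group
  have e2 : c * (c⁻¹ * k) = k := by group
  rw [e1] at h1
  rw [e2] at h2
  linarith

theorem ucoc_mul (x : G) (f : G → ℝ)
    (hcent : ∀ k ζ : G, ζ * x = x * ζ → f (k * ζ) = f k + f ζ) (g h z : G) :
    ucoc x f (g * h) z = ucoc x f g (cj h z) + ucoc x f h z := by
  by_cases hz : ∃ k, cj k x = z
  · obtain ⟨k, rfl⟩ := hz
    rw [← cj_mul, ucoc_cj x f hcent, ucoc_cj x f hcent, ucoc_cj x f hcent, mul_assoc]
    ring
  · have hz' : ¬ ∃ k, cj k x = cj h z := by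
      rintro ⟨k, hk⟩
      apply hz
      refine ⟨h⁻¹ * k, ?_⟩
      rw [cj_mul, hk, cj_inv_cj]
    unfold ucoc
    rw [dif_neg hz, dif_neg hz', dif_neg hz]
    simp

theorem ucoc_bdd (x : G) (f : G → ℝ)
    (hlip : ∀ g : G, ∃ D : ℝ, ∀ k : G, |f (g * k) - f k| ≤ D) (g : G) :
    ∃ D : ℝ, ∀ z, |ucoc x f g z| ≤ D := by
  obtain ⟨D, hD⟩ := hlip g
  have hD0 : 0 ≤ D := (abs_nonneg _).trans (hD 1)
  refine ⟨D, fun z => ?_⟩
  unfold ucoc
  split_ifs with h
  · exact hD _
  · simpa using hD0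

theorem ucoc_diag (x : G) (f : G → ℝ)
    (hcent : ∀ k ζ : G, ζ * x = x * ζ → f (k * ζ) = f k + f ζ) (z : G)
    (hz : z ∈ conjugatesOf x) : ucoc x f z z = f x := by
  obtain ⟨k, rfl⟩ := (mem_conj_iff x z).mp hz
  rw [ucoc_cj x f hcent]
  have h1 : cj k x * k = k * x := by
    unfold cj
    group
  rw [h1, hcent k x rfl]
  ring

/-- **Equivariant-function criterion.** Let `x ∈ G` and `f : G → ℝ` be such that
`f (k ζ) = f k + f ζ` for all `k` and all `ζ` commuting with `x`, such that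
`k ↦ f (g k) - f k` is bounded for each `g`, and such that `f x ≠ 0`.  Then the class-sum trace
over the conjugacy class of `x` of every idempotent matrix over `L1 G` vanishes. -/
theorem mtr_eq_zero_of_lipschitz {n : Type*} [Fintype n] [DecidableEq n] (x : G) (f : G → ℝ)
    (hcent : ∀ k ζ : G, ζ * x = x * ζ → f (k * ζ) = f k + f ζ)
    (hlip : ∀ g : G, ∃ D : ℝ, ∀ k : G, |f (g * k) - f k| ≤ D)
    (hx : f x ≠ 0) (e : Matrix n n (L1 G)) (he : e * e = e) :
    L1.mtr (conjugatesOf x) e = 0 :=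
  mtr_eq_zero_of_cocycle (conjugatesOf x) (fun g z hz => cj_mem_conj x g z hz) (ucoc x f)
    (ucoc_mul x f hcent) (ucoc_bdd x f hlip) (f x) hx (ucoc_diag x f hcent) e he

end K1

end Vale.Agent.H49
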