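import Vale.Agent.H49.KTrace

/-!
# Twisting `L1 G` into `K1 G` by a bounded cocycle, and vanishing of class-sum traces
-/

namespace Vale.Agent.H49

open scoped BigOperators

namespace K1

variable {G : Type*} [Group G]

/-- Multiplication of `a g` by a unimodular kernel `w g z`. -/
noncomputable def twFun (w : G → G → ℂ) (hw : ∀ g z, ‖w g z‖ = 1) (a : L1 G) : K1 G :=
  ⟨fun g z => a g * w g z, ⟨fun g => ‖a g‖, a.summable,
    fun g z => by rw [norm_mul, hw, mul_one]⟩⟩

theorem twFun_apply (w : G → G → ℂ) (hw : ∀ g z, ‖w g z‖ = 1) (a : L1 G) (g z : G) :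
    twFun w hw a g z = a g * w g z := rfl

theorem w_one (w : G → G → ℂ) (hw : ∀ g z, ‖w g z‖ = 1)
    (hmul : ∀ g h z, w (g * h) z = w g (cj h z) * w h z) (z : G) : w 1 z = 1 := by
  have h1 : w 1 z * w 1 z = w 1 z := by
    have := hmul 1 1 z
    rw [mul_one, cj_one] at this
    exact this.symm
  have h0 : w 1 z ≠ 0 := by
    intro h
    have := hw 1 z
    rw [h, norm_zero] at this
    exact zero_ne_one this
  exact mul_left_cancel₀ h0 (by rw [h1, mul_one])

/-- Twisting by a unimodular multiplicative cocycle is a ring homomorphism `L1 G → K1 G`. -/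
noncomputable def tw (w : G → G → ℂ) (hw : ∀ g z, ‖w g z‖ = 1)
    (hmul : ∀ g h z, w (g * h) z = w g (cj h z) * w h z) : L1 G →+* K1 G where
  toFun := twFun w hw
  map_one' := by
    classical
    ext g z
    rw [twFun_apply, L1.one_apply', one_apply']
    split_ifs with h
    · subst h
      rw [w_one w hw hmul, mul_one]
    · simp
  map_mul' a b := by
    ext g z
    rw [twFun_apply, L1.mul_apply, mul_apply, ← tsum_mul_right]
    refine tsum_congr (fun h => ?_)
    rw [twFun_apply, twFun_apply]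
    have : w g z = w h (cj (h⁻¹ * g) z) * w (h⁻¹ * g) z := by
      rw [← hmul]
      simp
    rw [this]
    ring
  map_zero' := by
    ext g z
    simp [twFun_apply]
  map_add' a b := by
    ext g z
    simp [twFun_apply, add_mul]

theorem tw_apply (w : G → G → ℂ) (hw : ∀ g z, ‖w g z‖ = 1)
    (hmul : ∀ g h z, w (g * h) z = w g (cj h z) * w h z) (a : L1 G) :
    tw w hw hmul a = twFun w hw a := rfl

theorem trK_twFun (C : Set G) (w : G → G → ℂ) (hw : ∀ g z, ‖w g z‖ = 1) (c : ℂ)
    (hc : ∀ z ∈ C, w z z = c) (a : L1 G) :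
    trK C (twFun w hw a) = c * L1.tr1 C a := by
  unfold trK L1.tr1
  rw [← tsum_mul_left]
  refine tsum_congr (fun g => ?_)
  by_cases hg : g ∈ C
  · simp [Set.indicator_of_mem hg, twFun_apply, hc g hg, mul_comm]
  · simp [Set.indicator_of_notMem hg]

theorem bd_twFun_sub_le (w : G → G → ℂ) (hw : ∀ g z, ‖w g z‖ = 1) (w' : G → G → ℂ)
    (hw' : ∀ g z, ‖w' g z‖ = 1) (a : L1 G) (g : G) (δ : ℝ) (hδ0 : 0 ≤ δ)
    (hδ : ∀ z, ‖w g z - w' g z‖ ≤ δ) :
    bd (twFun w hw a - twFun w' hw' a) g ≤ ‖a g‖ * δ := by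
  refine bd_le _ g (mul_nonneg (norm_nonneg _) hδ0) (fun z => ?_)
  rw [sub_apply, twFun_apply, twFun_apply, ← mul_sub, norm_mul]
  exact mul_le_mul_of_nonneg_left (hδ z) (norm_nonneg _)

/-- The unimodular kernel `exp (i t u(g, z))`. -/
noncomputable def wexp (u : G → G → ℝ) (t : ℝ) (g z : G) : ℂ :=
  Complex.exp (Complex.I * ((t * u g z : ℝ) : ℂ))

theorem norm_wexp (u : G → G → ℝ) (t : ℝ) (g z : G) : ‖wexp u t g z‖ = 1 :=
  Complex.norm_exp_I_mul_ofReal _

theorem wexp_mul (u : G → G → ℝ) (hu : ∀ g h z, u (g * h) z = u g (cj h z) + u h z) (t : ℝ)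
    (g h z : G) : wexp u t (g * h) z = wexp u t g (cj h z) * wexp u t h z := by
  unfold wexp
  rw [hu, ← Complex.exp_add]
  congr 1
  push_cast
  ring

theorem norm_wexp_sub_le (u : G → G → ℝ) (t s : ℝ) (g z : G) :
    ‖wexp u t g z - wexp u s g z‖ ≤ |t - s| * |u g z| := by
  have h1 : wexp u t g z - wexp u s g z
      = wexp u s g z * (Complex.exp (Complex.I * (((t - s) * u g z : ℝ) : ℂ)) - 1) := by
    unfold wexp
    rw [mul_sub, mul_one, ← Complex.exp_add]
    congr 2
    push_cast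
    ring
  rw [h1, norm_mul, norm_wexp, one_mul]
  refine (Real.norm_exp_I_mul_ofReal_sub_one_le).trans ?_
  rw [Real.norm_eq_abs, abs_mul]

theorem norm_wexp_sub_le_two (u : G → G → ℝ) (t s : ℝ) (g z : G) :
    ‖wexp u t g z - wexp u s g z‖ ≤ 2 := by
  calc ‖wexp u t g z - wexp u s g z‖ ≤ ‖wexp u t g z‖ + ‖wexp u s g z‖ := norm_sub_le _ _
    _ = 2 := by rw [norm_wexp, norm_wexp]; norm_num

theorem tendsto_nrm_twFun (u : G → G → ℝ) (hbd : ∀ g, ∃ D : ℝ, ∀ z, |u g z| ≤ D) (a : L1 G)
    (s : ℝ) :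
    Filter.Tendsto (fun t => nrm (twFun (wexp u t) (norm_wexp u t) a
      - twFun (wexp u s) (norm_wexp u s) a)) (nhds s) (nhds 0) := by
  unfold nrm
  have key := tendsto_tsum_of_dominated_convergence (𝓕 := nhds s)
    (f := fun t g => bd (twFun (wexp u t) (norm_wexp u t) a
      - twFun (wexp u s) (norm_wexp u s) a) g) (g := fun _ => (0 : ℝ))
    (bound := fun g => ‖a g‖ * 2) (a.summable.mul_right 2) ?_ ?_
  · simpa using key
  · intro g
    obtain ⟨D, hD⟩ := hbd g
    have hD0 : 0 ≤ D := (abs_nonneg _).trans (hD 1)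
    have hup : ∀ t, bd (twFun (wexp u t) (norm_wexp u t) a
        - twFun (wexp u s) (norm_wexp u s) a) g ≤ ‖a g‖ * (|t - s| * D) := by
      intro t
      refine bd_twFun_sub_le _ _ _ _ a g _ (mul_nonneg (abs_nonneg _) hD0) (fun z => ?_)
      exact (norm_wexp_sub_le u t s g z).trans
        (mul_le_mul_of_nonneg_left (hD z) (abs_nonneg _))
    have hlim : Filter.Tendsto (fun t : ℝ => ‖a g‖ * (|t - s| * D)) (nhds s) (nhds 0) := by
      have hc : Continuous fun t : ℝ => ‖a g‖ * (|t - s| * D) := by fun_prop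
      have := hc.tendsto s
      simpa using this
    exact squeeze_zero (fun t => bd_nonneg _ g) hup hlim
  · refine Filter.Eventually.of_forall (fun t g => ?_)
    rw [Real.norm_eq_abs, abs_of_nonneg (bd_nonneg _ g)]
    exact bd_twFun_sub_le _ _ _ _ a g 2 (by norm_num)
      (fun z => norm_wexp_sub_le_two u t s g z)

section matrix

variable {n : Type*} [Fintype n] [DecidableEq n]

/-- Entrywise twisting of matrices over `L1 G` by the cocycle `exp (i t u)`. -/
noncomputable def mtw (u : G → G → ℝ) (hu : ∀ g h z, u (g * h) z = u g (cj h z) + u h z)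
    (t : ℝ) : Matrix n n (L1 G) →+* Matrix n n (K1 G) :=
  (tw (wexp u t) (norm_wexp u t) (wexp_mul u hu t)).mapMatrix

theorem mtw_apply (u : G → G → ℝ) (hu : ∀ g h z, u (g * h) z = u g (cj h z) + u h z)
    (t : ℝ) (A : Matrix n n (L1 G)) (i j : n) :
    mtw u hu t A i j = twFun (wexp u t) (norm_wexp u t) (A i j) := rfl

theorem tendsto_gsize_mtw (u : G → G → ℝ)
    (hu : ∀ g h z, u (g * h) z = u g (cj h z) + u h z)
    (hbd : ∀ g, ∃ D : ℝ, ∀ z, |u g z| ≤ D) (A : Matrix n n (L1 G)) (s : ℝ) :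
    Filter.Tendsto (fun t => gsize (fun m : K1 G => nrm m) (mtw u hu t A - mtw u hu s A))
      (nhds s) (nhds 0) := by
  unfold gsize
  have h0 : (0 : ℝ) = ∑ _i : n, ∑ _j : n, (0 : ℝ) := by simp
  rw [h0]
  refine tendsto_finsetSum _ (fun i _ => tendsto_finsetSum _ (fun j _ => ?_))
  exact tendsto_nrm_twFun u hbd (A i j) s

/-- **Cocycle criterion.** Let `C` be a conjugation-invariant set and `u : G → G → ℝ` an
additive cocycle for the conjugation action (`u (g h) z = u g (h z h⁻¹) + u h z`) such that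
`u g` is bounded for each `g` and `u z z` is a nonzero constant for `z ∈ C`.  Then the class-sum
trace over `C` of every idempotent matrix over `L1 G` vanishes. -/
theorem mtr_eq_zero_of_cocycle (C : Set G) (hC : ∀ g z : G, z ∈ C → cj g z ∈ C)
    (u : G → G → ℝ) (hu : ∀ g h z, u (g * h) z = u g (cj h z) + u h z)
    (hbd : ∀ g, ∃ D : ℝ, ∀ z, |u g z| ≤ D) (r : ℝ) (hr : r ≠ 0) (hdiag : ∀ z ∈ C, u z z = r)
    (e : Matrix n n (L1 G)) (he : e * e = e) : L1.mtr C e = 0 := by
  have hidem : ∀ t, mtw u hu t e * mtw u hu t e = mtw u hu t e := fun t => by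
    rw [← map_mul, he]
  have hF : ∀ t, gtr (trKhom C) (mtw u hu t e)
      = Complex.exp (Complex.I * ((t * r : ℝ) : ℂ)) * L1.mtr C e := by
    intro t
    simp only [gtr_apply, L1.mtr_apply, Finset.mul_sum]
    refine Finset.sum_congr rfl (fun i _ => ?_)
    rw [mtw_apply, trKhom_apply]
    exact trK_twFun C _ _ _ (fun z hz => by rw [wexp, hdiag z hz]) (e i i)
  have hloc : IsLocallyConstant (fun t : ℝ => gtr (trKhom C) (mtw u hu t e)) := by
    rw [IsLocallyConstant.iff_eventually_eq]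
    intro s
    have h1 := tendsto_gsize_mtw u hu hbd e s
    have h2 : ∀ᶠ t in nhds s,
        gsize (fun m : K1 G => nrm m) (mtw u hu t e - mtw u hu s e) < 1 :=
      h1.eventually (gt_mem_nhds zero_lt_one)
    filter_upwards [h2] with t ht
    exact ktr_eq_of_close C hC _ _ (hidem s) (hidem t) ht
  have hconst := hloc.apply_eq_of_preconnectedSpace (Real.pi / r) 0
  rw [hF, hF] at hconst
  have h3 : Complex.I * ((Real.pi / r * r : ℝ) : ℂ) = Real.pi * Complex.I := by
    rw [div_mul_cancel₀ _ hr, mul_comm]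
  rw [h3, Complex.exp_pi_mul_I] at hconst
  simp only [zero_mul, Complex.ofReal_zero, mul_zero, Complex.exp_zero, one_mul, neg_mul]
    at hconst
  have h4 : (2 : ℂ) * L1.mtr C e = 0 := by linear_combination -hconst
  simpa using h4

end matrix

end K1

end Vale.Agent.H49
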