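import Vale.Agent.H49.TransVal

/-!
# An absolute value that is not `1` at a given non-integral algebraic element

Let `L` be a field of characteristic zero and `ν ∈ L` nonzero such that `ν⁻¹` is not integral
over `ℤ`.  Then `L` carries a real-valued absolute value `v` with `v ν ≠ 1`.

If `ν` is transcendental this is `exists_absVal_ne_one`.  Otherwise `ν` is not a unit of
`B = ℤ[ν]`; choose a maximal ideal `𝔭` of `B` containing `ν`, a transcendence basis `t` of `L`
over `ℤ` (it stays algebraically independent over `B`), and a valuation ring `W` of `L`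
dominating the localization of `B[t]` at the prime `𝔭 B[t]` (Chevalley).  The integer prime `p`
below `𝔭` is not a unit of `W`, the integer polynomials in `t` that are not divisible by `p` are
units of `W`, and `L` is algebraic over `ℤ[t]`; so `W` is archimedean relative to `p`.
-/

namespace Vale.Agent.H49.RankOne

open Polynomial

variable {L : Type*} [Field L]

/-- The pair argument: a nontrivial polynomial relation for `b` whose coefficients have
valuations in `γ ^ ℕ` forces a power of `v b` to be a power of `γ`. -/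
theorem arch_of_relation {Γ : Type*} [LinearOrderedCommGroupWithZero Γ] (v : Valuation L Γ)
    {γ : Γ} (hγ0 : γ ≠ 0) {b : L} (hb : b ≠ 0) (d : ℕ) (c : ℕ → L)
    (hsum : ∑ i ∈ Finset.range (d + 1), c i * b ^ i = 0)
    (hne : ∃ i ∈ Finset.range (d + 1), c i ≠ 0)
    (hc : ∀ i, c i ≠ 0 → ∃ m : ℕ, v (c i) = γ ^ m) :
    ∃ n : ℕ, 0 < n ∧ ∃ k : ℤ, v b ^ n = γ ^ k := by
  have hne' : ∃ i ∈ Finset.range (d + 1), c i * b ^ i ≠ 0 := by
    obtain ⟨i, hi, hci⟩ := hne
    exact ⟨i, hi, mul_ne_zero hci (pow_ne_zero _ hb)⟩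
  obtain ⟨i, hi, j, hj, hij, hveq, hvne⟩ := exists_pair_eq_of_sum_eq_zero v _ _ hsum hne'
  have hvb0 : v b ≠ 0 := (Valuation.ne_zero_iff _).mpr hb
  have hcoef : ∀ i : ℕ, v (c i * b ^ i) ≠ 0 → ∃ m : ℕ, v (c i) = γ ^ m := by
    intro i hi0
    have hc0 : c i ≠ 0 := by
      intro h0
      apply hi0
      rw [h0, zero_mul, map_zero]
    exact hc i hc0
  obtain ⟨mi, hmi⟩ := hcoef i hvne
  obtain ⟨mj, hmj⟩ := hcoef j (hveq ▸ hvne)
  rw [map_mul, map_mul, hmi, hmj, map_pow, map_pow] at hveq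
  rcases Nat.lt_or_gt_of_ne hij with hlt | hlt
  · refine ⟨j - i, Nat.sub_pos_of_lt hlt, (mi : ℤ) - mj, ?_⟩
    have hj' : j = (j - i) + i := (Nat.sub_add_cancel hlt.le).symm
    rw [hj', pow_add, ← mul_assoc] at hveq
    have h1 : γ ^ mi = γ ^ mj * v b ^ (j - i) :=
      mul_right_cancel₀ (pow_ne_zero _ hvb0) hveq
    rw [zpow_sub₀ hγ0, zpow_natCast, zpow_natCast, h1]
    field_simp
  · refine ⟨i - j, Nat.sub_pos_of_lt hlt, (mj : ℤ) - mi, ?_⟩
    have hi' : i = (i - j) + j := (Nat.sub_add_cancel hlt.le).symm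
    rw [hi', pow_add, ← mul_assoc] at hveq
    have h1 : γ ^ mi * v b ^ (i - j) = γ ^ mj :=
      mul_right_cancel₀ (pow_ne_zero _ hvb0) hveq
    rw [zpow_sub₀ hγ0, zpow_natCast, zpow_natCast, ← h1]
    field_simp

/-- If `ν⁻¹` is not integral over `ℤ`, then `ν` is not invertible in `ℤ[ν]`. -/
theorem mul_aeval_ne_one {ν : L} (hν0 : ν ≠ 0) (hint : ¬ IsIntegral ℤ ν⁻¹) (f : ℤ[X]) :
    ν * aeval ν f ≠ 1 := by
  intro h
  apply hint
  have hμ : aeval ν f = ν⁻¹ := by
    field_simp
    rw [mul_comm]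
    exact h
  let _ := invertibleOfNonzero hν0
  have h1 := eval₂_reverse_mul_pow (algebraMap ℤ L) ν f
  rw [invOf_eq_inv] at h1
  have h2 : eval₂ (algebraMap ℤ L) ν f = ν⁻¹ := hμ
  rw [h2] at h1
  have h3 : eval₂ (algebraMap ℤ L) ν⁻¹ f.reverse = ν⁻¹ ^ (f.natDegree + 1) := by
    have hpow : ν ^ f.natDegree ≠ 0 := pow_ne_zero _ hν0
    rw [(eq_mul_inv_iff_mul_eq₀ hpow).mpr h1, pow_succ, inv_pow, mul_comm]
  refine ⟨X ^ (f.natDegree + 1) - f.reverse, monic_X_pow_sub ?_, ?_⟩
  · calc f.reverse.degree ≤ (f.reverse.natDegree : WithBot ℕ) := degree_le_natDegree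
      _ ≤ (f.natDegree : WithBot ℕ) := by exact_mod_cast reverse_natDegree_le f
      _ < ((f.natDegree + 1 : ℕ) : WithBot ℕ) := by exact_mod_cast Nat.lt_succ_self _
  · rw [eval₂_sub, eval₂_pow, eval₂_X, h3, sub_self]

theorem absVal_ne_one_of_valuation_ne_one {Γ : Type*} [LinearOrderedCommGroupWithZero Γ]
    {v : Valuation L Γ} {π : L} (h : Arch v π) {b : L} (hb : b ≠ 0) (hvb : v b ≠ 1) :
    absVal h b ≠ 1 := by
  rw [absVal_apply_of_ne_zero h hb]
  obtain ⟨n, hn, k, hk⟩ := h.arch b hb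
  rw [ord_eq h hb hn hk]
  have hk0 : k ≠ 0 := by
    rintro rfl
    rw [zpow_zero] at hk
    rcases pow_eq_one_iff.mp hk with h1 | h1
    · exact hvb h1
    · exact hn.ne' h1
  intro hcon
  have h0 : Real.exp (-((k : ℝ) / (n : ℝ))) = Real.exp 0 := by rw [hcon, Real.exp_zero]
  have h1 := Real.exp_injective h0
  have hnR : (n : ℝ) ≠ 0 := by positivity
  have hkR : (k : ℝ) ≠ 0 := by exact_mod_cast hk0
  have : (k : ℝ) / (n : ℝ) = 0 := by linarith
  rcases div_eq_zero_iff.mp this with h2 | h2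
  · exact hkR h2
  · exact hnR h2

/-- The mixed-characteristic construction: for an algebraic `ν` whose inverse is not integral
over `ℤ` there is a valuation ring of `L`, archimedean relative to some element, in which `ν` is
not a unit. -/
theorem exists_arch_mixed [CharZero L] {ν : L} (hν0 : ν ≠ 0) (halg : IsAlgebraic ℤ ν)
    (hint : ¬ IsIntegral ℤ ν⁻¹) :
    ∃ (W : ValuationSubring L) (π : L), Arch W.valuation π ∧ W.valuation ν < 1 := by
  classical
  set B : Subalgebra ℤ L := Algebra.adjoin ℤ {ν} with hB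
  have hνB : ν ∈ B := Algebra.self_mem_adjoin_singleton ℤ ν
  have hBrange : ∀ c ∈ B, ∃ g : ℤ[X], aeval ν g = c := by
    intro c hc
    rw [hB, Algebra.adjoin_singleton_eq_range_aeval] at hc
    exact hc
  have hrangeB : ∀ g : ℤ[X], aeval ν g ∈ B := by
    intro g
    rw [hB, Algebra.adjoin_singleton_eq_range_aeval]
    exact ⟨g, rfl⟩
  set νB : B := ⟨ν, hνB⟩ with hνB'
  have hspan : Ideal.span {νB} ≠ ⊤ := by
    intro htop
    have h1 : (1 : B) ∈ Ideal.span {νB} := by rw [htop]; trivial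
    obtain ⟨a, ha⟩ := Ideal.mem_span_singleton'.mp h1
    obtain ⟨f, hf⟩ := hBrange a.1 a.2
    apply mul_aeval_ne_one hν0 hint f
    rw [hf]
    have h2 := congrArg (fun z : B => (z : L)) ha
    simp only [MulMemClass.coe_mul, OneMemClass.coe_one] at h2
    rw [mul_comm]
    exact h2
  obtain ⟨𝔭, h𝔭max, h𝔭le⟩ := Ideal.exists_le_maximal _ hspan
  have h𝔭prime : 𝔭.IsPrime := h𝔭max.isPrime
  have hν𝔭 : νB ∈ 𝔭 := h𝔭le (Ideal.subset_span rfl)
  -- a nonzero integer in `𝔭`
  obtain ⟨N, hN0, hN𝔭⟩ : ∃ N : ℤ, N ≠ 0 ∧ algebraMap ℤ B N ∈ 𝔭 := by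
    obtain ⟨f, hf0, hf⟩ := halg
    obtain ⟨g, hfg, hnd⟩ := exists_eq_pow_rootMultiplicity_mul_and_not_dvd f hf0 0
    simp only [map_zero, sub_zero] at hfg hnd
    have hg0 : g.coeff 0 ≠ 0 := fun h0 => hnd (X_dvd_iff.mpr h0)
    have hgν : aeval ν g = 0 := by
      have h1 : aeval ν f = ν ^ (f.rootMultiplicity 0) * aeval ν g := by
        conv_lhs => rw [hfg]
        simp
      rw [hf] at h1
      rcases mul_eq_zero.mp h1.symm with h2 | h2
      · exact absurd h2 (pow_ne_zero _ hν0)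
      · exact h2
    refine ⟨g.coeff 0, hg0, ?_⟩
    have h3 : algebraMap ℤ B (g.coeff 0) = -((⟨aeval ν g.divX, hrangeB _⟩ : B) * νB) := by
      apply Subtype.ext
      have h4 : aeval ν g = aeval ν g.divX * ν + algebraMap ℤ L (g.coeff 0) := by
        conv_lhs => rw [← divX_mul_X_add g]
        simp
      rw [hgν] at h4
      have h5 : algebraMap ℤ L (g.coeff 0) = -(aeval ν g.divX * ν) := by linear_combination -h4
      simpa using h5
    rw [h3]
    exact 𝔭.neg_mem (𝔭.mul_mem_left _ hν𝔭)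
  -- the integer prime below `𝔭`
  set J : Ideal ℤ := 𝔭.comap (algebraMap ℤ B) with hJ
  have hJprime : J.IsPrime := Ideal.comap_isPrime _ _
  have hJbot : J ≠ ⊥ := by
    intro h
    have h1 : N ∈ J := hN𝔭
    rw [h] at h1
    exact hN0 (by simpa using h1)
  set p : ℤ := Submodule.IsPrincipal.generator J with hp
  have hpprime : Prime p := Submodule.IsPrincipal.prime_generator_of_isPrime J hJbot
  have hpJ : ∀ c : ℤ, algebraMap ℤ B c ∈ 𝔭 ↔ p ∣ c := by
    intro c
    show c ∈ J ↔ _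
    exact Submodule.IsPrincipal.mem_iff_generator_dvd J
  -- a transcendence basis of `L` over `ℤ`
  obtain ⟨t, ht⟩ := exists_isTranscendenceBasis ℤ L
  have halgB : Algebra.IsAlgebraic ℤ B := by
    rw [← Subalgebra.isAlgebraic_iff, hB, Algebra.isAlgebraic_adjoin_singleton_iff]
    exact halg
  have hindB : AlgebraicIndependent B (Subtype.val : t → L) := ht.1.extendScalars B
  set Φ : MvPolynomial t B →+* L :=
    (MvPolynomial.aeval (R := B) (Subtype.val : t → L)).toRingHom with hΦ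
  have hΦinj : Function.Injective Φ := hindB
  set 𝔓' : Ideal (MvPolynomial t B) := 𝔭.map MvPolynomial.C with h𝔓'
  have h𝔓'prime : 𝔓'.IsPrime := by
    have e := MvPolynomial.quotientEquivQuotientMvPolynomial (σ := t) 𝔭
    have hd1 : IsDomain (B ⧸ 𝔭) := Ideal.Quotient.isDomain 𝔭
    have hd2 : IsDomain (MvPolynomial t B ⧸ 𝔓') := e.symm.toMulEquiv.isDomain _
    exact (Ideal.Quotient.isDomain_iff_prime 𝔓').mp hd2
  set R₀ : Subring L := Φ.range with hR₀
  set 𝔓 : Ideal R₀ := 𝔓'.map Φ.rangeRestrict with h𝔓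
  have hker : ∀ q : MvPolynomial t B, Φ.rangeRestrict q = 0 → q = 0 := by
    intro q hq
    have h0 : Φ q = 0 := by simpa using congrArg Subtype.val hq
    exact hΦinj (by rw [h0, map_zero])
  have h𝔓prime : 𝔓.IsPrime := by
    apply Ideal.map_isPrime_of_surjective Φ.rangeRestrict_surjective
    intro q hq
    rw [hker q hq]
    exact 𝔓'.zero_mem
  have hmem𝔓 : ∀ q : MvPolynomial t B, Φ.rangeRestrict q ∈ 𝔓 ↔ q ∈ 𝔓' := by
    intro q
    constructor
    · intro h
      obtain ⟨q', hq', hqq⟩ :=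
        (Ideal.mem_map_iff_of_surjective _ Φ.rangeRestrict_surjective).mp h
      have h1 : Φ q' = Φ q := congrArg Subtype.val hqq
      rw [← hΦinj h1]
      exact hq'
    · intro h
      exact Ideal.mem_map_of_mem _ h
  obtain ⟨W, hWle, hWloc⟩ := (LocalSubring.ofPrime R₀ 𝔓).exists_le_valuationSubring
  have hW1 : ∀ q : MvPolynomial t B, W.valuation (Φ q) ≤ 1 := by
    intro q
    rw [ValuationSubring.valuation_le_one_iff]
    exact hWle (LocalSubring.le_ofPrime R₀ 𝔓 ⟨q, rfl⟩)
  have hW3 : ∀ q : MvPolynomial t B, q ∉ 𝔓' → W.valuation (Φ q) = 1 := by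
    intro q hq
    have ha : Φ.rangeRestrict q ∈ 𝔓.primeCompl := fun h => hq ((hmem𝔓 q).mp h)
    have hu : IsUnit (algebraMap R₀ (LocalSubring.ofPrime R₀ 𝔓).toSubring (Φ.rangeRestrict q)) :=
      IsLocalization.map_units (M := 𝔓.primeCompl) _ ⟨_, ha⟩
    obtain ⟨b, hb⟩ := isUnit_iff_exists_inv.mp hu
    have hb' : Φ q * (b : L) = 1 := congrArg Subtype.val hb
    have hbW : W.valuation (b : L) ≤ 1 := by
      rw [ValuationSubring.valuation_le_one_iff]
      exact hWle b.2
    have hmul : W.valuation (Φ q) * W.valuation (b : L) = 1 := by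
      rw [← map_mul, hb', map_one]
    refine le_antisymm (hW1 q) ?_
    calc (1 : W.ValueGroup) = W.valuation (Φ q) * W.valuation (b : L) := hmul.symm
      _ ≤ W.valuation (Φ q) * 1 := mul_le_mul_right hbW _
      _ = W.valuation (Φ q) := mul_one _
  have hW2 : ∀ q : MvPolynomial t B, q ∈ 𝔓' → W.valuation (Φ q) < 1 := by
    intro q hq
    have ha : Φ.rangeRestrict q ∈ 𝔓 := (hmem𝔓 q).mpr hq
    have hmax : algebraMap R₀ (LocalSubring.ofPrime R₀ 𝔓).toSubring (Φ.rangeRestrict q) ∈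
        IsLocalRing.maximalIdeal (LocalSubring.ofPrime R₀ 𝔓).toSubring :=
      (IsLocalization.AtPrime.to_map_mem_maximal_iff _ 𝔓 _).mpr ha
    have hnu : ¬ IsUnit
        (algebraMap R₀ (LocalSubring.ofPrime R₀ 𝔓).toSubring (Φ.rangeRestrict q)) := hmax
    rcases lt_or_eq_of_le (hW1 q) with hlt | heq
    · exact hlt
    · exfalso
      apply hnu
      apply hWloc.map_nonunit
      have hq0 : Φ q ≠ 0 := by
        intro h0
        rw [h0, map_zero] at heq
        exact zero_ne_one heq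
      have hinv : (Φ q)⁻¹ ∈ W.toLocalSubring.toSubring := by
        show (Φ q)⁻¹ ∈ W
        rw [← ValuationSubring.valuation_le_one_iff, map_inv₀, heq, inv_one]
      exact isUnit_iff_exists_inv.mpr ⟨⟨(Φ q)⁻¹, hinv⟩, Subtype.ext (mul_inv_cancel₀ hq0)⟩
  -- the reference element
  have hpL0 : ((p : ℤ) : L) ≠ 0 := by
    exact_mod_cast hpprime.ne_zero
  have hΦC : ∀ c : B, Φ (MvPolynomial.C c) = (c : L) := by
    intro c
    simp [hΦ]
  have hplt : W.valuation ((p : ℤ) : L) < 1 := by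
    have h1 : MvPolynomial.C (algebraMap ℤ B p) ∈ 𝔓' :=
      Ideal.mem_map_of_mem _ ((hpJ p).mpr dvd_rfl)
    have h2 := hW2 _ h1
    rw [hΦC] at h2
    simpa using h2
  have hνlt : W.valuation ν < 1 := by
    have h1 : MvPolynomial.C νB ∈ 𝔓' := Ideal.mem_map_of_mem _ hν𝔭
    have h2 := hW2 _ h1
    rw [hΦC] at h2
    exact h2
  -- integer polynomials in `t` have valuations in `v(p) ^ ℕ`
  set γ := W.valuation ((p : ℤ) : L) with hγ
  have hγ0 : γ ≠ 0 := (Valuation.ne_zero_iff _).mpr hpL0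
  have hCp : ¬ IsUnit (MvPolynomial.C p : MvPolynomial t ℤ) := by
    intro hu
    have h1 : IsUnit (MvPolynomial.constantCoeff (MvPolynomial.C p : MvPolynomial t ℤ)) :=
      hu.map _
    rw [MvPolynomial.constantCoeff_C] at h1
    exact hpprime.not_isUnit h1
  have hcoef : ∀ a ∈ Algebra.adjoin ℤ (Set.range (Subtype.val : t → L)), a ≠ 0 →
      ∃ m : ℕ, W.valuation a = γ ^ m := by
    intro a ha ha0
    rw [Algebra.adjoin_range_eq_range_aeval] at ha
    obtain ⟨c, rfl⟩ := ha
    have hc0 : c ≠ 0 := by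
      rintro rfl
      exact ha0 (map_zero _)
    obtain ⟨m, c', hnd, hcc'⟩ := WfDvdMonoid.max_power_factor' hc0 hCp
    refine ⟨m, ?_⟩
    have hex : ∃ i, ¬ p ∣ c'.coeff i := by
      by_contra hall
      push Not at hall
      exact hnd ((MvPolynomial.C_dvd_iff_dvd_coeff p c').mpr hall)
    obtain ⟨i, hi⟩ := hex
    have hq' : MvPolynomial.map (algebraMap ℤ B) c' ∉ 𝔓' := by
      intro hmem
      have h1 := (MvPolynomial.mem_map_C_iff.mp hmem) i
      rw [MvPolynomial.coeff_map] at h1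
      exact hi ((hpJ _).mp h1)
    have h2 := hW3 _ hq'
    have h3 : Φ (MvPolynomial.map (algebraMap ℤ B) c') =
        MvPolynomial.aeval (Subtype.val : t → L) c' := by
      rw [hΦ]
      exact MvPolynomial.aeval_map_algebraMap (A := B) (Subtype.val : t → L) c'
    rw [h3] at h2
    have h4 : MvPolynomial.aeval (Subtype.val : t → L) c =
        ((p : ℤ) : L) ^ m * MvPolynomial.aeval (Subtype.val : t → L) c' := by
      rw [hcc', map_mul, map_pow, MvPolynomial.aeval_C]
      simp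
    show W.valuation (MvPolynomial.aeval (Subtype.val : t → L) c) = γ ^ m
    rw [h4, map_mul, map_pow, h2, mul_one]
  have halgL : Algebra.IsAlgebraic (Algebra.adjoin ℤ (Set.range (Subtype.val : t → L))) L :=
    ht.isAlgebraic
  refine ⟨W, ((p : ℤ) : L), ⟨hplt, hpL0, ?_⟩, hνlt⟩
  intro b hb
  obtain ⟨P, hP0, hPb⟩ := halgL.isAlgebraic b
  have hsum : ∑ i ∈ Finset.range (P.natDegree + 1), ((P.coeff i : L)) * b ^ i = 0 := by
    rw [← hPb, aeval_eq_sum_range]
    apply Finset.sum_congr rfl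
    intro i _
    rw [Algebra.smul_def]
    rfl
  have hne : ∃ i ∈ Finset.range (P.natDegree + 1), ((P.coeff i : L)) ≠ 0 := by
    refine ⟨P.natDegree, Finset.self_mem_range_succ _, ?_⟩
    have : P.coeff P.natDegree ≠ 0 := by
      rw [coeff_natDegree]
      exact leadingCoeff_ne_zero.mpr hP0
    simpa using this
  exact arch_of_relation W.valuation hγ0 hb P.natDegree (fun i => (P.coeff i : L)) hsum hne
    (fun i hi => hcoef _ (P.coeff i).2 hi)

/-- A field of characteristic zero carries a real-valued absolute value that is not `1` at a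
given nonzero element whose inverse is not integral over `ℤ`. -/
theorem exists_absVal_ne_one_of_inv_not_isIntegral [CharZero L] {ν : L} (hν0 : ν ≠ 0)
    (hint : ¬ IsIntegral ℤ ν⁻¹) : ∃ v : AbsoluteValue L ℝ, v ν ≠ 1 := by
  by_cases halg : IsAlgebraic ℤ ν
  · obtain ⟨W, π, hW, hν⟩ := exists_arch_mixed hν0 halg hint
    exact ⟨absVal hW, absVal_ne_one_of_valuation_ne_one hW hν0 (ne_of_lt hν)⟩
  · have htr : Transcendental ℚ ν := by
      intro h
      exact halg ((IsFractionRing.isAlgebraic_iff ℤ ℚ L).mpr h)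
    exact exists_absVal_ne_one (k := ℚ) htr

/-- A field of characteristic zero carries a real-valued absolute value that is not `1` at a
given nonzero element `μ` such that `μ` or `μ⁻¹` is not integral over `ℤ`. -/
theorem exists_absVal_ne_one_of_not_isIntegral [CharZero L] {μ : L} (hμ0 : μ ≠ 0)
    (hint : ¬ IsIntegral ℤ μ ∨ ¬ IsIntegral ℤ μ⁻¹) : ∃ v : AbsoluteValue L ℝ, v μ ≠ 1 := by
  rcases hint with h | h
  · have h' : ¬ IsIntegral ℤ (μ⁻¹)⁻¹ := by rwa [inv_inv]
    obtain ⟨v, hv⟩ := exists_absVal_ne_one_of_inv_not_isIntegral (inv_ne_zero hμ0) h'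
    refine ⟨v, fun h1 => hv ?_⟩
    rw [map_inv₀, h1, inv_one]
  · exact exists_absVal_ne_one_of_inv_not_isIntegral hμ0 h

end Vale.Agent.H49.RankOne
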