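import Vale.Agent.H49.ArchCase

/-!
# Matrices no power of which is unipotent

A square matrix `M` over a field such that `M ^ m - 1` is not nilpotent for any `m ≥ 1` has an
eigenvalue, in the algebraic closure, that is not a root of unity.
-/

namespace Vale.Agent.H49

open Polynomial

/-- Over an algebraically closed field, a square matrix all of whose eigenvalues are roots of
unity has a power that is unipotent. -/
theorem exists_pow_sub_one_pow_eq_zero {L : Type*} [Field L] [IsAlgClosed L] {n : ℕ}
    (A : Matrix (Fin n) (Fin n) L) (h : ∀ a ∈ A.charpoly.roots, ∃ N : ℕ, 0 < N ∧ a ^ N = 1) :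
    ∃ N c : ℕ, 0 < N ∧ (A ^ N - 1) ^ c = 0 := by
  classical
  choose! Nf hNf using h
  set N : ℕ := ∏ a ∈ A.charpoly.roots.toFinset, Nf a with hN
  have hNpos : 0 < N := by
    apply Finset.prod_pos
    intro a ha
    exact (hNf a (Multiset.mem_toFinset.mp ha)).1
  have hroot : ∀ a ∈ A.charpoly.roots, a ^ N = 1 := by
    intro a ha
    obtain ⟨c, hc⟩ := Finset.dvd_prod_of_mem Nf (Multiset.mem_toFinset.mpr ha)
    rw [hN, hc, pow_mul, (hNf a ha).2, one_pow]
  set c := Multiset.card A.charpoly.roots with hc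
  have hsplit : A.charpoly = (A.charpoly.roots.map (X - C ·)).prod :=
    (IsAlgClosed.splits A.charpoly).eq_prod_roots_of_monic (Matrix.charpoly_monic A)
  have hdvd1 : A.charpoly ∣ (X ^ N - 1 : L[X]) ^ c := by
    have h1 : (A.charpoly.roots.map (X - C ·)).prod ∣
        (A.charpoly.roots.map (fun _ => (X ^ N - 1 : L[X]))).prod := by
      apply Multiset.prod_dvd_prod_of_dvd
      intro a ha
      rw [dvd_iff_isRoot]
      simp [hroot a ha]
    rw [← hsplit] at h1
    simpa [hc] using h1
  obtain ⟨r, hr⟩ := hdvd1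
  have h3 : aeval A ((X ^ N - 1 : L[X]) ^ c) = 0 := by
    rw [hr, map_mul, Matrix.aeval_self_charpoly, zero_mul]
  refine ⟨N, c, hNpos, ?_⟩
  simpa using h3

/-- A matrix no power of which is unipotent has an eigenvalue that is not a root of unity. -/
theorem exists_root_not_rootOfUnity {K : Type*} [Field K] {n : ℕ} (M : Matrix (Fin n) (Fin n) K)
    (hM : ∀ m : ℕ, 0 < m → ¬ IsNilpotent (M ^ m - 1)) :
    ∃ μ : AlgebraicClosure K, aeval μ M.charpoly = 0 ∧ ∀ m : ℕ, 0 < m → μ ^ m ≠ 1 := by
  classical
  by_contra hcon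
  push Not at hcon
  set A : Matrix (Fin n) (Fin n) (AlgebraicClosure K) :=
    M.map (algebraMap K (AlgebraicClosure K)) with hA
  have hA' : A = (algebraMap K (AlgebraicClosure K)).mapMatrix M := rfl
  have hroots : ∀ a ∈ A.charpoly.roots, ∃ N : ℕ, 0 < N ∧ a ^ N = 1 := by
    intro a ha
    apply hcon a
    have h1 : A.charpoly.eval a = 0 := (mem_roots'.mp ha).2
    have h2 : A.charpoly = M.charpoly.map (algebraMap K (AlgebraicClosure K)) :=
      Matrix.charpoly_map M (algebraMap K (AlgebraicClosure K))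
    rw [h2, eval_map, ← aeval_def] at h1
    exact h1
  obtain ⟨N, c, hN, hpow⟩ := exists_pow_sub_one_pow_eq_zero A hroots
  apply hM N hN
  refine ⟨c, ?_⟩
  have hinj : Function.Injective
      (fun B : Matrix (Fin n) (Fin n) K => B.map (algebraMap K (AlgebraicClosure K))) :=
    Matrix.map_injective (FaithfulSMul.algebraMap_injective K (AlgebraicClosure K))
  apply hinj
  have h4 : ((M ^ N - 1) ^ c).map (algebraMap K (AlgebraicClosure K)) = (A ^ N - 1) ^ c := by
    have h5 : (algebraMap K (AlgebraicClosure K)).mapMatrix ((M ^ N - 1) ^ c) =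
        ((algebraMap K (AlgebraicClosure K)).mapMatrix M ^ N - 1) ^ c := by
      rw [map_pow, map_sub, map_pow, map_one]
    exact h5
  show ((M ^ N - 1) ^ c).map (algebraMap K (AlgebraicClosure K)) =
    (0 : Matrix (Fin n) (Fin n) K).map (algebraMap K (AlgebraicClosure K))
  rw [h4, hpow]
  simp

end Vale.Agent.H49
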