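import Mathlib

/-!
# A real-valued absolute value from a valuation that is archimedean relative to an element

Let `v` be a (Krull) valuation on a field `L` and `μ ∈ L` with `0 < v μ < 1` such that every
nonzero `b ∈ L` satisfies `v b ^ n = v μ ^ k` for some `n ≥ 1` and `k : ℤ`.  Then
`b ↦ exp (-(k / n))` is a real-valued absolute value on `L` whose value at `μ` is `exp (-1)`.
-/

namespace Vale.Agent.H49.RankOne

variable {L : Type*} [Field L] {Γ : Type*} [LinearOrderedCommGroupWithZero Γ]

/-- `v` is archimedean relative to `μ`. -/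
structure Arch (v : Valuation L Γ) (μ : L) : Prop where
  lt_one : v μ < 1
  ne_zero : μ ≠ 0
  arch : ∀ b : L, b ≠ 0 → ∃ n : ℕ, 0 < n ∧ ∃ k : ℤ, v b ^ n = v μ ^ k

variable {v : Valuation L Γ} {μ : L}

theorem Arch.pos (h : Arch v μ) : 0 < v μ := by
  have := (Valuation.ne_zero_iff v).mpr h.ne_zero
  exact zero_lt_iff.mpr this

open Classical in
/-- The real-valued order of an element. -/
noncomputable def ord (h : Arch v μ) (b : L) : ℝ :=
  if hb : b = 0 then 0 else
    ((h.arch b hb).choose_spec.2.choose : ℝ) / ((h.arch b hb).choose : ℝ)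

theorem zpow_inj (h : Arch v μ) {a b : ℤ} (hab : v μ ^ a = v μ ^ b) : a = b := by
  have hinj := zpow_right_injective₀ h.pos (ne_of_lt h.lt_one)
  exact hinj hab

theorem ord_eq (h : Arch v μ) {b : L} (hb : b ≠ 0) {n : ℕ} (hn : 0 < n) {k : ℤ}
    (hk : v b ^ n = v μ ^ k) : ord h b = (k : ℝ) / (n : ℝ) := by
  unfold ord
  rw [dif_neg hb]
  set n₀ := (h.arch b hb).choose with hn₀
  have hn₀pos : 0 < n₀ := (h.arch b hb).choose_spec.1
  set k₀ := (h.arch b hb).choose_spec.2.choose with hk₀
  have hk₀spec : v b ^ n₀ = v μ ^ k₀ := (h.arch b hb).choose_spec.2.choose_spec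
  have key : k₀ * (n : ℤ) = k * (n₀ : ℤ) := by
    apply zpow_inj h
    rw [zpow_mul, zpow_mul, ← hk₀spec, ← hk, zpow_natCast, zpow_natCast, ← pow_mul, ← pow_mul,
      mul_comm]
  have hnR : (n : ℝ) ≠ 0 := by positivity
  have hn₀R : (n₀ : ℝ) ≠ 0 := by positivity
  rw [div_eq_div_iff hn₀R hnR]
  exact_mod_cast key

theorem ord_mul (h : Arch v μ) {a b : L} (ha : a ≠ 0) (hb : b ≠ 0) :
    ord h (a * b) = ord h a + ord h b := by
  obtain ⟨n, hn, k, hk⟩ := h.arch a ha
  obtain ⟨m, hm, l, hl⟩ := h.arch b hb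
  have hab : v (a * b) ^ (n * m) = v μ ^ (k * m + l * n) := by
    rw [map_mul, mul_pow, pow_mul, hk, mul_comm n m, pow_mul, hl, zpow_add₀ (ne_of_gt h.pos),
      zpow_mul, zpow_mul, zpow_natCast, zpow_natCast]
  rw [ord_eq h (mul_ne_zero ha hb) (Nat.mul_pos hn hm) hab, ord_eq h ha hn hk, ord_eq h hb hm hl]
  have hnR : (n : ℝ) ≠ 0 := by positivity
  have hmR : (m : ℝ) ≠ 0 := by positivity
  push_cast
  field_simp

theorem ord_anti (h : Arch v μ) {a b : L} (ha : a ≠ 0) (hb : b ≠ 0) (hab : v a ≤ v b) :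
    ord h b ≤ ord h a := by
  obtain ⟨n, hn, k, hk⟩ := h.arch a ha
  obtain ⟨m, hm, l, hl⟩ := h.arch b hb
  have h1 : v a ^ (n * m) ≤ v b ^ (m * n) := by
    rw [mul_comm m n]
    exact pow_le_pow_left₀ zero_le hab _
  rw [pow_mul, pow_mul, hk, hl, ← zpow_natCast, ← zpow_natCast, ← zpow_mul, ← zpow_mul] at h1
  have h2 : l * (n : ℤ) ≤ k * (m : ℤ) := by
    by_contra hcon
    rw [not_le] at hcon
    have := zpow_lt_zpow_right_of_lt_one₀ h.pos h.lt_one hcon
    exact absurd h1 (not_le.mpr this)
  rw [ord_eq h ha hn hk, ord_eq h hb hm hl]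
  have hnR : (0 : ℝ) < n := by positivity
  have hmR : (0 : ℝ) < m := by positivity
  rw [div_le_div_iff₀ hmR hnR]
  exact_mod_cast h2

theorem ord_self (h : Arch v μ) : ord h μ = 1 := by
  have : v μ ^ 1 = v μ ^ (1 : ℤ) := by simp
  rw [ord_eq h h.ne_zero Nat.one_pos this]
  simp

open Classical in
/-- The absolute value attached to a valuation that is archimedean relative to `μ`. -/
noncomputable def absVal (h : Arch v μ) : AbsoluteValue L ℝ where
  toFun b := if b = 0 then 0 else Real.exp (-ord h b)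
  map_mul' a b := by
    by_cases ha : a = 0
    · simp [ha]
    by_cases hb : b = 0
    · simp [hb]
    rw [if_neg (mul_ne_zero ha hb), if_neg ha, if_neg hb, ord_mul h ha hb, neg_add, Real.exp_add]
  nonneg' b := by
    by_cases hb : b = 0
    · simp [hb]
    · simp only [if_neg hb]
      exact (Real.exp_pos _).le
  eq_zero' b := by
    by_cases hb : b = 0
    · simp [hb]
    · simp only [hb, iff_false]
      exact (Real.exp_pos _).ne'
  add_le' a b := by
    by_cases ha : a = 0
    · simp [ha]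
    by_cases hb : b = 0
    · simp [hb]
    by_cases hab : a + b = 0
    · simp only [hab, if_true, if_neg ha, if_neg hb]
      exact add_nonneg (Real.exp_pos _).le (Real.exp_pos _).le
    simp only [if_neg hab, if_neg ha, if_neg hb]
    rcases le_max_iff.mp (Valuation.map_add v a b) with h1 | h1
    · have := ord_anti h hab ha h1
      have h2 : Real.exp (-ord h (a + b)) ≤ Real.exp (-ord h a) :=
        Real.exp_le_exp.mpr (by linarith)
      linarith [(Real.exp_pos (-ord h b)).le]
    · have := ord_anti h hab hb h1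
      have h2 : Real.exp (-ord h (a + b)) ≤ Real.exp (-ord h b) :=
        Real.exp_le_exp.mpr (by linarith)
      linarith [(Real.exp_pos (-ord h a)).le]

theorem absVal_apply_of_ne_zero (h : Arch v μ) {b : L} (hb : b ≠ 0) :
    absVal h b = Real.exp (-ord h b) := by
  classical
  show (if b = 0 then (0 : ℝ) else Real.exp (-ord h b)) = _
  rw [if_neg hb]

theorem absVal_self_ne_one (h : Arch v μ) : absVal h μ ≠ 1 := by
  rw [absVal_apply_of_ne_zero h h.ne_zero, ord_self h]
  intro hcon
  have h0 : Real.exp (-1) < Real.exp 0 := Real.exp_lt_exp.mpr (by norm_num)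
  rw [Real.exp_zero] at h0
  linarith

end Vale.Agent.H49.RankOne
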