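import Vale.Agent.H49.AbelSupport

/-!
# Restriction of matrices over `L1 G` to a finite-index subgroup

For a subgroup `K` of `G` with coset representatives `sec c` (`c : G ⧸ K`), a matrix `e` over
`L1 G` indexed by `n` gives a matrix `res e` over `L1 K` indexed by `n × G ⧸ K`, with entries
`k ↦ e i j (sec c * k * (sec d)⁻¹)`.  This is multiplicative, and the class-sum trace of `res e`
at the `K`-class of `x : K` is a positive integer multiple of the trace of `e` at the `G`-class
of `x`.
-/

namespace Vale.Agent.H49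

open scoped BigOperators

namespace L1

variable {G : Type*} [Group G] (K : Subgroup G)

/-- Chosen representatives of the left cosets of `K`. -/
noncomputable def sec (c : G ⧸ K) : G := Quotient.out c

theorem mk_sec (c : G ⧸ K) : (QuotientGroup.mk (sec K c) : G ⧸ K) = c :=
  QuotientGroup.out_eq' c

/-- The parametrization `(k, u) ↦ a * k * (sec u)⁻¹` of `G` by `K × G ⧸ K`. -/
noncomputable def param (a : G) : K × (G ⧸ K) ≃ G where
  toFun p := a * p.1 * (sec K p.2)⁻¹
  invFun h := (⟨a⁻¹ * h * sec K (QuotientGroup.mk (h⁻¹ * a)), by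
      have h1 : (QuotientGroup.mk (h⁻¹ * a) : G ⧸ K)
          = QuotientGroup.mk (sec K (QuotientGroup.mk (h⁻¹ * a))) := (mk_sec K _).symm
      have h2 := QuotientGroup.eq.mp h1
      have h3 : a⁻¹ * h * sec K (QuotientGroup.mk (h⁻¹ * a))
          = (h⁻¹ * a)⁻¹ * sec K (QuotientGroup.mk (h⁻¹ * a)) := by group
      rw [h3]
      exact h2⟩, QuotientGroup.mk (h⁻¹ * a))
  left_inv p := by
    obtain ⟨k, u⟩ := p
    have hu : (QuotientGroup.mk ((a * (k : G) * (sec K u)⁻¹)⁻¹ * a) : G ⧸ K) = u := by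
      have h1 : (a * (k : G) * (sec K u)⁻¹)⁻¹ * a = sec K u * ((k : G)⁻¹) := by group
      rw [h1, QuotientGroup.mk_mul_of_mem _ (K.inv_mem k.2), mk_sec]
    ext
    · simp only
      rw [hu]
      group
    · simp only
      exact hu
  right_inv h := by
    simp only
    group

theorem param_apply (a : G) (k : K) (u : G ⧸ K) :
    param K a (k, u) = a * k * (sec K u)⁻¹ := rfl

/-- Summation over `G` along the parametrization by `K × G ⧸ K`. -/
theorem tsum_param [Fintype (G ⧸ K)] (a : G) (f : G → ℂ) (hf : Summable f) :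
    ∑' h, f h = ∑ u : G ⧸ K, ∑' k : K, f (a * k * (sec K u)⁻¹) := by
  have h1 : ∑' h, f h = ∑' p : K × (G ⧸ K), f (param K a p) := ((param K a).tsum_eq f).symm
  have hs : Summable fun p : K × (G ⧸ K) => f (param K a p) := (param K a).summable_iff.mpr hf
  have h2 : ∑' p : K × (G ⧸ K), f (param K a p)
      = ∑' q : (G ⧸ K) × K, f (param K a (q.2, q.1)) :=
    ((Equiv.prodComm (G ⧸ K) K).tsum_eq (fun p : K × (G ⧸ K) => f (param K a p))).symm
  have hs2 : Summable fun q : (G ⧸ K) × K => f (param K a (q.2, q.1)) :=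
    (Equiv.prodComm (G ⧸ K) K).summable_iff.mpr hs
  rw [h1, h2, hs2.tsum_prod, tsum_fintype]
  rfl

/-- The function `k ↦ e (a * k * b⁻¹)` on `K`. -/
noncomputable def restrictFun (e : L1 G) (a b : G) : L1 K :=
  mk' (fun k : K => e (a * k * b⁻¹)) (by
    have hinj : Function.Injective (fun k : K => a * (k : G) * b⁻¹) := by
      intro k k' h
      have h' : (k : G) = k' := by
        have := mul_right_cancel h
        exact mul_left_cancel this
      exact Subtype.ext h'
    exact e.summable.comp_injective hinj)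

theorem restrictFun_apply (e : L1 G) (a b : G) (k : K) :
    restrictFun K e a b k = e (a * k * b⁻¹) := rfl

section matrix

variable {n : Type*} [Fintype n] [DecidableEq n] [Fintype (G ⧸ K)] [DecidableEq (G ⧸ K)]

/-- Restriction of a matrix over `L1 G` to the subgroup `K`. -/
noncomputable def res (e : Matrix n n (L1 G)) : Matrix (n × (G ⧸ K)) (n × (G ⧸ K)) (L1 K) :=
  fun p q => restrictFun K (e p.1 q.1) (sec K p.2) (sec K q.2)

theorem res_mul (A B : Matrix n n (L1 G)) : res K (A * B) = res K A * res K B := by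
  ext ⟨i, c⟩ ⟨j, d⟩ k
  rw [Matrix.mul_apply, sum_apply, Fintype.sum_prod_type]
  show (A * B) i j (sec K c * k * (sec K d)⁻¹) = _
  rw [Matrix.mul_apply, sum_apply]
  refine Finset.sum_congr rfl (fun l _ => ?_)
  rw [mul_apply, tsum_param K (sec K c) _ (summable_conv (A i l) (B l j) _)]
  refine Finset.sum_congr rfl (fun u _ => ?_)
  rw [mul_apply]
  refine tsum_congr (fun k' => ?_)
  show A i l (sec K c * k' * (sec K u)⁻¹)
      * B l j ((sec K c * k' * (sec K u)⁻¹)⁻¹ * (sec K c * k * (sec K d)⁻¹))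
    = A i l (sec K c * k' * (sec K u)⁻¹) * B l j (sec K u * ((k'⁻¹ * k : K) : G) * (sec K d)⁻¹)
  congr 2
  push_cast
  group

end matrix

section trace

/-- The `K`-conjugates of `x`, as a subset of `G`. -/
def kconj (x : K) : Set G := {z | ∃ k : K, z = k * x * (k : G)⁻¹}

theorem mem_kconj_iff (x : K) (k' : K) : (k' : G) ∈ kconj K x ↔ k' ∈ conjugatesOf x := by
  constructor
  · rintro ⟨k, hk⟩
    exact isConj_iff.mpr ⟨k, Subtype.ext (by simpa using hk.symm)⟩
  · intro h
    obtain ⟨k, hk⟩ := isConj_iff.mp h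
    exact ⟨k, by rw [← hk]; simp⟩

theorem kconj_subset (x : K) : kconj K x ⊆ (K : Set G) := by
  rintro z ⟨k, rfl⟩
  exact K.mul_mem (K.mul_mem k.2 x.2) (K.inv_mem k.2)

theorem kconj_conj (x : K) (k : K) (z : G) :
    (k : G)⁻¹ * z * k ∈ kconj K x ↔ z ∈ kconj K x := by
  constructor
  · rintro ⟨k1, h⟩
    refine ⟨k * k1, ?_⟩
    have h1 : z = k * ((k : G)⁻¹ * z * k) * (k : G)⁻¹ := by group
    rw [h1, h]
    push_cast
    group
  · rintro ⟨k1, h⟩
    refine ⟨k⁻¹ * k1, ?_⟩
    rw [h]
    push_cast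
    group

theorem kconj_rep (x : K) (y u : G) :
    (sec K (QuotientGroup.mk u))⁻¹ * y * sec K (QuotientGroup.mk u) ∈ kconj K x
      ↔ u⁻¹ * y * u ∈ kconj K x := by
  obtain ⟨k, hk⟩ := QuotientGroup.mk_out_eq_mul K u
  have h1 : sec K (QuotientGroup.mk u) = u * k := hk
  rw [h1]
  have h2 : (u * (k : G))⁻¹ * y * (u * k) = (k : G)⁻¹ * (u⁻¹ * y * u) * k := by group
  rw [h2, kconj_conj]

variable [Fintype (G ⧸ K)]

open Classical in
/-- The number of cosets `c` such that `(sec c)⁻¹ * y * sec c` is a `K`-conjugate of `x`. -/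
noncomputable def fixCount (x : K) (y : G) : ℕ :=
  (Finset.univ.filter (fun c : G ⧸ K => (sec K c)⁻¹ * y * sec K c ∈ kconj K x)).card

theorem fixCount_conj (x : K) (g y : G) : fixCount K x (g * y * g⁻¹) = fixCount K x y := by
  classical
  unfold fixCount
  refine Finset.card_equiv (MulAction.toPerm (g⁻¹ : G)) (fun c => ?_)
  simp only [Finset.mem_filter, Finset.mem_univ, true_and]
  obtain ⟨u, rfl⟩ := QuotientGroup.mk_surjective c
  rw [kconj_rep]
  have h1 : (MulAction.toPerm (g⁻¹ : G)) (QuotientGroup.mk u : G ⧸ K)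
      = QuotientGroup.mk (g⁻¹ * u) := rfl
  rw [h1, kconj_rep]
  have h2 : (g⁻¹ * u)⁻¹ * y * (g⁻¹ * u) = u⁻¹ * (g * y * g⁻¹) * u := by group
  rw [h2]

theorem fixCount_pos (x : K) : 0 < fixCount K x (x : G) := by
  classical
  unfold fixCount
  apply Finset.card_pos.mpr
  refine ⟨QuotientGroup.mk (1 : G), ?_⟩
  simp only [Finset.mem_filter, Finset.mem_univ, true_and]
  rw [kconj_rep]
  exact ⟨1, by simp⟩

theorem fixCount_eq_zero (x : K) (y : G) (hy : y ∉ conjugatesOf (x : G)) :
    fixCount K x y = 0 := by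
  classical
  unfold fixCount
  rw [Finset.card_eq_zero, Finset.filter_eq_empty_iff]
  intro c _ hc
  apply hy
  obtain ⟨k, hk⟩ := hc
  refine isConj_iff.mpr ⟨sec K c * k, ?_⟩
  have h1 : y = sec K c * ((sec K c)⁻¹ * y * sec K c) * (sec K c)⁻¹ := by group
  rw [h1, hk]
  group

/-- Conjugation by `s`, as a permutation of `G`. -/
def conjEquiv (s : G) : G ≃ G where
  toFun y := s⁻¹ * y * s
  invFun z := s * z * s⁻¹
  left_inv y := by group
  right_inv z := by group

theorem tr1_restrict (x : K) (a : L1 G) (s : G) :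
    tr1 (conjugatesOf x) (restrictFun K a s s)
      = ∑' y : G, (kconj K x).indicator (fun _ => a y) (s⁻¹ * y * s) := by
  unfold tr1
  have hA : ∑' k : K, (conjugatesOf x).indicator (fun k => restrictFun K a s s k) k
      = ∑' k : K, (kconj K x).indicator (fun z => a (s * z * s⁻¹)) (k : G) := by
    refine tsum_congr (fun k => ?_)
    by_cases hk : k ∈ conjugatesOf x
    · rw [Set.indicator_of_mem hk, Set.indicator_of_mem ((mem_kconj_iff K x k).mpr hk)]
      rfl
    · rw [Set.indicator_of_notMem hk,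
        Set.indicator_of_notMem (fun h => hk ((mem_kconj_iff K x k).mp h))]
  have hB : ∑' k : K, (kconj K x).indicator (fun z => a (s * z * s⁻¹)) (k : G)
      = ∑' z : G, (kconj K x).indicator (fun z => a (s * z * s⁻¹)) z := by
    refine Function.Injective.tsum_eq Subtype.val_injective ?_
    intro z hz
    have hz' : z ∈ kconj K x := by
      by_contra hnot
      exact hz (Set.indicator_of_notMem hnot _)
    exact ⟨⟨z, kconj_subset K x hz'⟩, rfl⟩
  have hC : ∑' z : G, (kconj K x).indicator (fun z => a (s * z * s⁻¹)) z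
      = ∑' y : G, (kconj K x).indicator (fun z => a (s * z * s⁻¹)) (s⁻¹ * y * s) :=
    ((conjEquiv s).tsum_eq _).symm
  rw [hA, hB, hC]
  refine tsum_congr (fun y => ?_)
  by_cases hy : s⁻¹ * y * s ∈ kconj K x
  · rw [Set.indicator_of_mem hy, Set.indicator_of_mem hy]
    congr 1
    group
  · rw [Set.indicator_of_notMem hy, Set.indicator_of_notMem hy]

theorem sum_tr1_restrict (x : K) (a : L1 G) :
    ∑ c : G ⧸ K, tr1 (conjugatesOf x) (restrictFun K a (sec K c) (sec K c))
      = (fixCount K x (x : G) : ℂ) * tr1 (conjugatesOf (x : G)) a := by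
  classical
  simp_rw [tr1_restrict]
  have hs : ∀ c : G ⧸ K, Summable fun y : G =>
      (kconj K x).indicator (fun _ => a y) ((sec K c)⁻¹ * y * sec K c) := by
    intro c
    refine Summable.of_norm_bounded a.summable (fun y => ?_)
    by_cases hy : (sec K c)⁻¹ * y * sec K c ∈ kconj K x
    · rw [Set.indicator_of_mem hy]
    · rw [Set.indicator_of_notMem hy, norm_zero]
      exact norm_nonneg _
  rw [← Summable.tsum_finsetSum (fun c _ => hs c)]
  unfold tr1
  rw [← tsum_mul_left]
  refine tsum_congr (fun y => ?_)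
  have h1 : ∑ c : G ⧸ K, (kconj K x).indicator (fun _ => a y) ((sec K c)⁻¹ * y * sec K c)
      = (fixCount K x y : ℂ) * a y := by
    unfold fixCount
    rw [Finset.card_filter, Nat.cast_sum, Finset.sum_mul]
    refine Finset.sum_congr rfl (fun c _ => ?_)
    by_cases hy : (sec K c)⁻¹ * y * sec K c ∈ kconj K x
    · rw [Set.indicator_of_mem hy, if_pos hy]
      simp
    · rw [Set.indicator_of_notMem hy, if_neg hy]
      simp
  rw [h1]
  by_cases hy : y ∈ conjugatesOf (x : G)
  · rw [Set.indicator_of_mem hy]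
    obtain ⟨g, hg⟩ := isConj_iff.mp hy
    rw [← hg, fixCount_conj]
  · rw [Set.indicator_of_notMem hy, fixCount_eq_zero K x y hy]
    simp

variable {n : Type*} [Fintype n] [DecidableEq n] [DecidableEq (G ⧸ K)]

theorem mtr_res (x : K) (e : Matrix n n (L1 G)) :
    mtr (conjugatesOf x) (res K e)
      = (fixCount K x (x : G) : ℂ) * mtr (conjugatesOf (x : G)) e := by
  rw [mtr_apply, mtr_apply, Fintype.sum_prod_type, Finset.mul_sum]
  refine Finset.sum_congr rfl (fun i _ => ?_)
  exact sum_tr1_restrict K x (e i i)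

end trace

/-- **Virtual abelian support theorem.** Let `K` be a finite-index subgroup of `G`, `ψ` an
additive map from `K` to an abelian group and `e` an idempotent matrix over `L1 G`.  Then the
values `ψ x`, for `x ∈ K` whose `G`-conjugacy class carries a nonzero class-sum trace of `e`,
lie in a finite set of elements of finite order. -/
theorem exists_finite_torsion_support_finiteIndex [K.FiniteIndex] {n : Type*} [Fintype n]
    [DecidableEq n] {A : Type*} [AddCommGroup A]
    (ψ : K → A) (hψ : ∀ a b : K, ψ (a * b) = ψ a + ψ b)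
    (e : Matrix n n (L1 G)) (he : e * e = e) :
    ∃ Φ : Finset A, (∀ a ∈ Φ, IsOfFinAddOrder a) ∧
      ∀ x : K, mtr (conjugatesOf (x : G)) e ≠ 0 → ψ x ∈ Φ := by
  classical
  haveI : Fintype (G ⧸ K) := Fintype.ofFinite _
  have hE : res K e * res K e = res K e := by rw [← res_mul, he]
  obtain ⟨Φ, hΦ, hsupp⟩ := exists_finite_torsion_support ψ hψ (res K e) hE
  refine ⟨Φ, hΦ, fun x hx => hsupp x ?_⟩
  rw [mtr_res]
  exact mul_ne_zero (Nat.cast_ne_zero.mpr (fixCount_pos K x).ne') hx

end L1

end Vale.Agent.H49
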