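import Vale.Agent.H49.RankOne

/-!
# An absolute value that is not `1` at a given transcendental element

Let `L` be a field that is an algebra over a field `k`, and let `μ ∈ L` be transcendental over
`k`.  Then `L` carries a real-valued absolute value `v` with `v μ ≠ 1`.

Proof: extend `{μ}` to a transcendence basis `t` of `L` over `k`, let `F₁ = k(t \ {μ})`; then `μ`
is transcendental over `F₁` and `L` is algebraic over `F₁(μ)`.  A valuation ring `W` of `L`
containing `F₁[μ]` in which `μ` is not a unit (Chevalley) is archimedean relative to `μ`.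
-/

namespace Vale.Agent.H49.RankOne

open Polynomial IntermediateField.algebraAdjoinAdjoin

variable {k L : Type*} [Field k] [Field L] [Algebra k L]

/-- In a valued field, if a finite sum vanishes and has a nonzero term, two distinct terms have
the same nonzero valuation. -/
theorem exists_pair_eq_of_sum_eq_zero {Γ : Type*} [LinearOrderedCommGroupWithZero Γ]
    (v : Valuation L Γ) {ι : Type*} (S : Finset ι) (a : ι → L) (hsum : ∑ i ∈ S, a i = 0)
    (hne : ∃ i ∈ S, a i ≠ 0) : ∃ i ∈ S, ∃ j ∈ S, i ≠ j ∧ v (a i) = v (a j) ∧ v (a i) ≠ 0 := by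
  classical
  obtain ⟨i₁, hi₁, hai₁⟩ := hne
  obtain ⟨i, hi, hmax⟩ := Finset.exists_max_image S (fun i => v (a i)) ⟨i₁, hi₁⟩
  have hvi : v (a i) ≠ 0 := by
    intro h0
    have := hmax i₁ hi₁
    rw [h0] at this
    exact hai₁ ((Valuation.zero_iff v).mp (le_antisymm this zero_le))
  by_contra hcon
  push Not at hcon
  have hlt : ∀ j ∈ S.erase i, v (a j) < v (a i) := by
    intro j hj
    have hji : j ≠ i := Finset.ne_of_mem_erase hj
    have hjS : j ∈ S := Finset.mem_of_mem_erase hj
    rcases lt_or_eq_of_le (hmax j hjS) with h | h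
    · exact h
    · exact absurd (hcon i hi j hjS (Ne.symm hji) h.symm) hvi
  have h1 : v (∑ j ∈ S.erase i, a j) < v (a i) := Valuation.map_sum_lt v hvi hlt
  have h2 : a i + ∑ j ∈ S.erase i, a j = 0 := by
    rw [Finset.add_sum_erase S a hi, hsum]
  have h3 : v (a i + ∑ j ∈ S.erase i, a j) = v (a i) := Valuation.map_add_eq_of_lt_left v h1
  rw [h2, map_zero] at h3
  exact hvi h3.symm

theorem exists_arch {μ : L} (hμ : Transcendental k μ) :
    ∃ W : ValuationSubring L, Arch W.valuation μ := by
  classical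
  have hμ0 : μ ≠ 0 := by
    rintro rfl
    exact hμ (isAlgebraic_zero)
  -- a transcendence basis containing `μ`
  have hind : AlgebraicIndepOn k id ({μ} : Set L) := by
    unfold AlgebraicIndepOn
    exact (algebraicIndependent_singleton_iff (⟨μ, rfl⟩ : ({μ} : Set L))).mpr hμ
  obtain ⟨t, hst, ht⟩ := exists_isTranscendenceBasis_superset hind
  have hμt : μ ∈ t := hst (Set.mem_singleton μ)
  set i₀ : t := ⟨μ, hμt⟩ with hi₀
  set s : Set t := {i | i ≠ i₀} with hs
  have htr : Transcendental (Algebra.adjoin k (Subtype.val '' s : Set L)) μ :=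
    ht.1.transcendental_adjoin (s := s) (i := i₀) (by simp [hs])
  have htrF : Transcendental (IntermediateField.adjoin k (Subtype.val '' s : Set L)) μ := by
    intro halg
    exact htr ((IsFractionRing.isAlgebraic_iff (Algebra.adjoin k (Subtype.val '' s : Set L))
      (IntermediateField.adjoin k (Subtype.val '' s : Set L)) L).mpr halg)
  set F₁ : IntermediateField k L := IntermediateField.adjoin k (Subtype.val '' s : Set L) with hF₁
  -- the ring `F₁[μ]`
  set B : Subalgebra F₁ L := Algebra.adjoin F₁ ({μ} : Set L) with hB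
  have hμB : μ ∈ B := Algebra.self_mem_adjoin_singleton F₁ μ
  have hBrange : ∀ c ∈ B, ∃ g : F₁[X], aeval μ g = c := by
    intro c hc
    rw [hB, Algebra.adjoin_singleton_eq_range_aeval] at hc
    exact hc
  set A : Subring L := B.toSubring with hA
  have hμA : μ ∈ A := hμB
  set I : Ideal A := Ideal.span {(⟨μ, hμA⟩ : A)} with hI
  have hItop : I ≠ ⊤ := by
    intro htop
    have h1 : (1 : A) ∈ I := by rw [htop]; trivial
    obtain ⟨a, ha⟩ := Ideal.mem_span_singleton'.mp h1
    obtain ⟨g, hg⟩ := hBrange a.1 a.2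
    have h2 : aeval μ (g * X - 1) = 0 := by
      have h3 : (a : L) * μ = 1 := by
        have := congrArg (fun z : A => (z : L)) ha
        simpa using this
      simp [hg, h3]
    have h4 := transcendental_iff.mp htrF _ h2
    have h5 := congrArg (fun q : F₁[X] => q.coeff 0) h4
    simp at h5
  obtain ⟨W, hAW, hIW⟩ := Ideal.image_subset_nonunits_valuationSubring I hItop
  have hμW : W.valuation μ < 1 := by
    have : μ ∈ W.nonunits :=
      hIW ⟨⟨μ, hμA⟩, Ideal.subset_span (Set.mem_singleton _), rfl⟩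
    exact this
  have hBW : ∀ c ∈ B, W.valuation c ≤ 1 := by
    intro c hc
    exact (ValuationSubring.valuation_le_one_iff W c).mpr (hAW hc)
  have hFW : ∀ c : F₁, c ≠ 0 → W.valuation (c : L) = 1 := by
    intro c hc
    have h1 : W.valuation (c : L) ≤ 1 := hBW _ (B.algebraMap_mem c)
    have h2 : W.valuation ((c⁻¹ : F₁) : L) ≤ 1 := hBW _ (B.algebraMap_mem c⁻¹)
    have hc' : (c : L) ≠ 0 := by simpa using hc
    have h3 : W.valuation ((c⁻¹ : F₁) : L) = (W.valuation (c : L))⁻¹ := by
      push_cast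
      rw [map_inv₀]
    rw [h3] at h2
    have hpos : 0 < W.valuation (c : L) := zero_lt_iff.mpr ((Valuation.ne_zero_iff _).mpr hc')
    have h4 : 1 ≤ W.valuation (c : L) := (inv_le_one₀ hpos).mp h2
    exact le_antisymm h1 h4
  -- every nonzero element of `B` has valuation a power of that of `μ`
  have hBval : ∀ c ∈ B, c ≠ 0 → ∃ m : ℕ, W.valuation c = W.valuation μ ^ m := by
    intro c hc hc0
    obtain ⟨g, hg⟩ := hBrange c hc
    have hg0 : g ≠ 0 := by
      rintro rfl
      exact hc0 (by simpa using hg.symm)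
    obtain ⟨h, hgh, hnd⟩ := exists_eq_pow_rootMultiplicity_mul_and_not_dvd g hg0 0
    simp only [map_zero, sub_zero] at hgh hnd
    have hh0 : h.coeff 0 ≠ 0 := fun h0 => hnd (X_dvd_iff.mpr h0)
    refine ⟨g.rootMultiplicity 0, ?_⟩
    have h1 : aeval μ h = aeval μ h.divX * μ + algebraMap F₁ L (h.coeff 0) := by
      conv_lhs => rw [← divX_mul_X_add h]
      simp
    have h2 : W.valuation (aeval μ h.divX * μ) < 1 := by
      rw [map_mul]
      have h3 : W.valuation (aeval μ h.divX) ≤ 1 := by
        apply hBW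
        rw [hB, Algebra.adjoin_singleton_eq_range_aeval]
        exact ⟨_, rfl⟩
      calc W.valuation (aeval μ h.divX) * W.valuation μ ≤ 1 * W.valuation μ :=
            mul_le_mul_left h3 _
        _ = W.valuation μ := one_mul _
        _ < 1 := hμW
    have h4 : W.valuation (aeval μ h) = 1 := by
      rw [h1, add_comm]
      have h5 : W.valuation (algebraMap F₁ L (h.coeff 0)) = 1 := hFW _ hh0
      rw [Valuation.map_add_eq_of_lt_left _ (by rw [h5]; exact h2), h5]
    have hc_eq : c = μ ^ (g.rootMultiplicity 0) * aeval μ h := by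
      rw [← hg]
      conv_lhs => rw [hgh]
      simp
    rw [hc_eq, map_mul, h4, mul_one, map_pow]
  -- `k[t] ⊆ F₁[μ]`
  have htB : Algebra.adjoin k (Set.range (Subtype.val : t → L)) ≤ B.restrictScalars k := by
    apply Algebra.adjoin_le
    rintro _ ⟨y, rfl⟩
    by_cases hy : y = i₀
    · rw [hy]; exact hμB
    · have hyF : (y : L) ∈ F₁ := IntermediateField.subset_adjoin k _ ⟨y, hy, rfl⟩
      exact B.algebraMap_mem (⟨y, hyF⟩ : F₁)
  have halgL : Algebra.IsAlgebraic (Algebra.adjoin k (Set.range (Subtype.val : t → L))) L :=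
    ht.isAlgebraic
  refine ⟨W, hμW, hμ0, ?_⟩
  intro b hb
  obtain ⟨P, hP0, hPb⟩ := halgL.isAlgebraic b
  set γ := W.valuation μ with hγ
  have hγ0 : γ ≠ 0 := (Valuation.ne_zero_iff _).mpr hμ0
  have hsum : ∑ i ∈ Finset.range (P.natDegree + 1), ((P.coeff i : L)) * b ^ i = 0 := by
    rw [← hPb, aeval_eq_sum_range]
    apply Finset.sum_congr rfl
    intro i _
    rw [Algebra.smul_def]
    rfl
  have hne : ∃ i ∈ Finset.range (P.natDegree + 1), ((P.coeff i : L)) * b ^ i ≠ 0 := by
    refine ⟨P.natDegree, Finset.self_mem_range_succ _, ?_⟩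
    apply mul_ne_zero
    · have : P.coeff P.natDegree ≠ 0 := by
        rw [coeff_natDegree]
        exact leadingCoeff_ne_zero.mpr hP0
      simpa using this
    · exact pow_ne_zero _ hb
  obtain ⟨i, hi, j, hj, hij, hveq, hvne⟩ :=
    exists_pair_eq_of_sum_eq_zero W.valuation _ _ hsum hne
  have hvb0 : W.valuation b ≠ 0 := (Valuation.ne_zero_iff _).mpr hb
  have hcoef : ∀ i : ℕ, W.valuation ((P.coeff i : L) * b ^ i) ≠ 0 →
      ∃ m : ℕ, W.valuation (P.coeff i : L) = γ ^ m := by
    intro i hi0
    have hc0 : (P.coeff i : L) ≠ 0 := by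
      intro h0
      apply hi0
      rw [h0, zero_mul, map_zero]
    exact hBval _ (htB (P.coeff i).2) hc0
  obtain ⟨mi, hmi⟩ := hcoef i hvne
  obtain ⟨mj, hmj⟩ := hcoef j (hveq ▸ hvne)
  rw [map_mul, map_mul, hmi, hmj, map_pow, map_pow] at hveq
  -- `γ ^ mi * v b ^ i = γ ^ mj * v b ^ j`
  rcases Nat.lt_or_gt_of_ne hij with hlt | hlt
  · refine ⟨j - i, Nat.sub_pos_of_lt hlt, (mi : ℤ) - mj, ?_⟩
    have hj' : j = (j - i) + i := (Nat.sub_add_cancel hlt.le).symm
    rw [hj', pow_add, ← mul_assoc] at hveq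
    have h1 : γ ^ mi = γ ^ mj * W.valuation b ^ (j - i) :=
      mul_right_cancel₀ (pow_ne_zero _ hvb0) hveq
    rw [zpow_sub₀ hγ0, zpow_natCast, zpow_natCast, h1]
    field_simp
  · refine ⟨i - j, Nat.sub_pos_of_lt hlt, (mj : ℤ) - mi, ?_⟩
    have hi' : i = (i - j) + j := (Nat.sub_add_cancel hlt.le).symm
    rw [hi', pow_add, ← mul_assoc] at hveq
    have h1 : γ ^ mi * W.valuation b ^ (i - j) = γ ^ mj :=
      mul_right_cancel₀ (pow_ne_zero _ hvb0) hveq
    rw [zpow_sub₀ hγ0, zpow_natCast, zpow_natCast, ← h1]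
    field_simp

/-- A field that contains an element `μ` transcendental over a subfield carries a real-valued
absolute value that is not `1` at `μ`. -/
theorem exists_absVal_ne_one {μ : L} (hμ : Transcendental k μ) :
    ∃ v : AbsoluteValue L ℝ, v μ ≠ 1 := by
  obtain ⟨W, hW⟩ := exists_arch (k := k) hμ
  exact ⟨absVal hW, absVal_self_ne_one hW⟩

end Vale.Agent.H49.RankOne
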