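import Vale.Agent.H49.L1Trace

/-!
# Twisting `L1 G` by unitary characters, and vanishing of class-sum traces
-/

namespace Vale.Agent.H49

open scoped BigOperators

namespace L1

variable {G : Type*} [Group G]

/-- Pointwise multiplication by a unimodular function. -/
noncomputable def twistFun (χ : G → ℂ) (hχ : ∀ g, ‖χ g‖ = 1) (a : L1 G) : L1 G :=
  mk' (fun g => χ g * a g) (by simpa [norm_mul, hχ] using a.summable)

theorem twistFun_apply (χ : G → ℂ) (hχ : ∀ g, ‖χ g‖ = 1) (a : L1 G) (g : G) :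
    twistFun χ hχ a g = χ g * a g := rfl

theorem char_one (χ : G → ℂ) (hχ : ∀ g, ‖χ g‖ = 1) (hmul : ∀ g h, χ (g * h) = χ g * χ h) :
    χ 1 = 1 := by
  have h1 : χ 1 * χ 1 = χ 1 := by rw [← hmul, mul_one]
  have h0 : χ 1 ≠ 0 := by
    intro h
    have := hχ 1
    rw [h, norm_zero] at this
    exact zero_ne_one this
  exact mul_left_cancel₀ h0 (by rw [h1, mul_one])

/-- Twisting by a unitary character is a ring endomorphism of `L1 G`. -/
noncomputable def twist (χ : G → ℂ) (hχ : ∀ g, ‖χ g‖ = 1)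
    (hmul : ∀ g h, χ (g * h) = χ g * χ h) : L1 G →+* L1 G where
  toFun := twistFun χ hχ
  map_one' := by
    classical
    ext g
    rw [twistFun_apply, one_apply']
    split_ifs with h
    · subst h
      rw [char_one χ hχ hmul, mul_one]
    · simp
  map_mul' a b := by
    ext g
    rw [twistFun_apply, mul_apply, mul_apply, ← tsum_mul_left]
    refine tsum_congr (fun h => ?_)
    rw [twistFun_apply, twistFun_apply]
    have : χ g = χ h * χ (h⁻¹ * g) := by rw [← hmul]; simp
    rw [this]; ring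
  map_zero' := by
    ext g
    simp [twistFun_apply]
  map_add' a b := by
    ext g
    simp [twistFun_apply, mul_add]

theorem twist_apply (χ : G → ℂ) (hχ : ∀ g, ‖χ g‖ = 1)
    (hmul : ∀ g h, χ (g * h) = χ g * χ h) (a : L1 G) :
    twist χ hχ hmul a = twistFun χ hχ a := rfl

theorem tr1_twist (C : Set G) (χ : G → ℂ) (hχ : ∀ g, ‖χ g‖ = 1) (c : ℂ)
    (hc : ∀ g ∈ C, χ g = c) (a : L1 G) :
    tr1 C (twistFun χ hχ a) = c * tr1 C a := by
  unfold tr1
  rw [← tsum_mul_left]
  refine tsum_congr (fun g => ?_)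
  by_cases hg : g ∈ C
  · simp [Set.indicator_of_mem hg, twistFun_apply, hc g hg]
  · simp [Set.indicator_of_notMem hg]

theorem nrm_twist_sub (χ : G → ℂ) (hχ : ∀ g, ‖χ g‖ = 1) (χ' : G → ℂ) (hχ' : ∀ g, ‖χ' g‖ = 1)
    (a : L1 G) :
    nrm (twistFun χ hχ a - twistFun χ' hχ' a) = ∑' g, ‖χ g - χ' g‖ * ‖a g‖ := by
  unfold nrm
  refine tsum_congr (fun g => ?_)
  rw [sub_apply, twistFun_apply, twistFun_apply, ← sub_mul, norm_mul]

/-- The unitary character `g ↦ exp (i t φ(g))` attached to a real-valued function `φ`. -/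
noncomputable def echar (φ : G → ℝ) (t : ℝ) (g : G) : ℂ :=
  Complex.exp ((t * φ g : ℝ) * Complex.I)

theorem norm_echar (φ : G → ℝ) (t : ℝ) (g : G) : ‖echar φ t g‖ = 1 :=
  Complex.norm_exp_ofReal_mul_I _

theorem echar_mul (φ : G → ℝ) (hφ : ∀ a b, φ (a * b) = φ a + φ b) (t : ℝ) (g h : G) :
    echar φ t (g * h) = echar φ t g * echar φ t h := by
  unfold echar
  rw [hφ, ← Complex.exp_add]
  congr 1
  push_cast
  ring

theorem continuous_echar (φ : G → ℝ) (g : G) : Continuous fun t : ℝ => echar φ t g := by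
  unfold echar
  fun_prop

theorem tendsto_nrm_twist (φ : G → ℝ) (a : L1 G) (s : ℝ) :
    Filter.Tendsto (fun t => nrm (twistFun (echar φ t) (norm_echar φ t) a
      - twistFun (echar φ s) (norm_echar φ s) a)) (nhds s) (nhds 0) := by
  simp_rw [nrm_twist_sub]
  have key := tendsto_tsum_of_dominated_convergence (𝓕 := nhds s)
    (f := fun t g => ‖echar φ t g - echar φ s g‖ * ‖a g‖) (g := fun _ => (0 : ℝ))
    (bound := fun g => 2 * ‖a g‖) (a.summable.mul_left 2) ?_ ?_
  · simpa using key
  · intro g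
    have hc : Continuous fun t => ‖echar φ t g - echar φ s g‖ * ‖a g‖ := by
      have := continuous_echar φ g
      fun_prop
    have := hc.tendsto s
    simpa using this
  · refine Filter.Eventually.of_forall (fun t g => ?_)
    rw [norm_mul, norm_norm, norm_norm]
    refine mul_le_mul_of_nonneg_right ?_ (norm_nonneg _)
    calc ‖echar φ t g - echar φ s g‖ ≤ ‖echar φ t g‖ + ‖echar φ s g‖ := norm_sub_le _ _
      _ = 2 := by rw [norm_echar, norm_echar]; norm_num

section matrix

variable {n : Type*} [Fintype n] [DecidableEq n]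

/-- Entrywise twisting of matrices over `L1 G` by the character `exp (i t φ)`. -/
noncomputable def mtwist (φ : G → ℝ) (hφ : ∀ a b, φ (a * b) = φ a + φ b) (t : ℝ) :
    Matrix n n (L1 G) →+* Matrix n n (L1 G) :=
  (twist (echar φ t) (norm_echar φ t) (echar_mul φ hφ t)).mapMatrix

theorem mtwist_apply (φ : G → ℝ) (hφ : ∀ a b, φ (a * b) = φ a + φ b) (t : ℝ)
    (A : Matrix n n (L1 G)) (i j : n) :
    mtwist φ hφ t A i j = twistFun (echar φ t) (norm_echar φ t) (A i j) := rfl

theorem tendsto_msize_mtwist (φ : G → ℝ) (hφ : ∀ a b, φ (a * b) = φ a + φ b)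
    (A : Matrix n n (L1 G)) (s : ℝ) :
    Filter.Tendsto (fun t => msize (mtwist φ hφ t A - mtwist φ hφ s A)) (nhds s) (nhds 0) := by
  unfold msize
  have h0 : (0 : ℝ) = ∑ _i : n, ∑ _j : n, (0 : ℝ) := by simp
  rw [h0]
  refine tendsto_finsetSum _ (fun i _ => tendsto_finsetSum _ (fun j _ => ?_))
  exact tendsto_nrm_twist φ (A i j) s

/-- If `φ : G → ℝ` is additive and takes a constant nonzero value on the conjugation-invariant
set `C`, then the class-sum trace over `C` of every idempotent matrix over `L1 G` vanishes. -/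
theorem mtr_eq_zero_of_hom (φ : G → ℝ) (hφ : ∀ a b, φ (a * b) = φ a + φ b)
    (C : Set G) (hC : ∀ g h : G, g * h ∈ C → h * g ∈ C) (r : ℝ) (hr : r ≠ 0)
    (hCφ : ∀ g ∈ C, φ g = r)
    (e : Matrix n n (L1 G)) (he : e * e = e) : mtr C e = 0 := by
  have hidem : ∀ t, mtwist φ hφ t e * mtwist φ hφ t e = mtwist φ hφ t e := fun t => by
    rw [← map_mul, he]
  have hF : ∀ t, mtr C (mtwist φ hφ t e) = Complex.exp ((t * r : ℝ) * Complex.I) * mtr C e := by
    intro t
    simp only [mtr_apply, Finset.mul_sum]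
    refine Finset.sum_congr rfl (fun i _ => ?_)
    rw [mtwist_apply]
    exact tr1_twist C _ _ _ (fun g hg => by rw [echar, hCφ g hg]) (e i i)
  have hloc : IsLocallyConstant (fun t : ℝ => mtr C (mtwist φ hφ t e)) := by
    rw [IsLocallyConstant.iff_eventually_eq]
    intro s
    have h1 := tendsto_msize_mtwist φ hφ e s
    have h2 : ∀ᶠ t in nhds s, msize (mtwist φ hφ t e - mtwist φ hφ s e) < 1 :=
      h1.eventually (gt_mem_nhds zero_lt_one)
    filter_upwards [h2] with t ht
    exact mtr_eq_of_close C hC _ _ (hidem s) (hidem t) ht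
  have hconst := hloc.apply_eq_of_preconnectedSpace (Real.pi / r) 0
  rw [hF, hF] at hconst
  have h3 : ((Real.pi / r * r : ℝ) : ℂ) * Complex.I = Real.pi * Complex.I := by
    rw [div_mul_cancel₀ _ hr]
  rw [h3, Complex.exp_pi_mul_I] at hconst
  simp only [zero_mul, Complex.ofReal_zero, Complex.exp_zero, one_mul, neg_mul] at hconst
  have h4 : (2 : ℂ) * mtr C e = 0 := by linear_combination -hconst
  simpa using h4

end matrix

end L1

end Vale.Agent.H49
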