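import Vale.Agent.H49.Length

/-!
# Undistorted elements with virtually cyclic centralizer
-/

namespace Vale.Agent.H49

open scoped BigOperators

namespace K1

variable {G : Type*} [Group G]

theorem zpow_injective_of_length (x : G) (ℓ : G → ℝ) (c : ℝ) (hc : 0 < c)
    (hx : ∀ n : ℤ, c * |(n : ℝ)| ≤ ℓ (x ^ n)) : Function.Injective (fun n : ℤ => x ^ n) := by
  intro n m hnm
  by_contra hne
  have hnm' : x ^ n = x ^ m := hnm
  have hd : x ^ (n - m) = 1 := by rw [zpow_sub, hnm', mul_inv_cancel]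
  have hd0 : n - m ≠ 0 := sub_ne_zero.mpr hne
  have hk : ∀ k : ℕ, c * k ≤ ℓ 1 := by
    intro k
    have h1 : x ^ ((k : ℤ) * (n - m)) = 1 := by rw [mul_comm, zpow_mul, hd, one_zpow]
    have h2 := hx ((k : ℤ) * (n - m))
    rw [h1] at h2
    have h3 : (k : ℝ) ≤ |(((k : ℤ) * (n - m) : ℤ) : ℝ)| := by
      have h4 : (1 : ℤ) ≤ |n - m| := Int.one_le_abs hd0
      have h5 : (1 : ℝ) ≤ |((n - m : ℤ) : ℝ)| := by exact_mod_cast h4
      have h6 : |(((k : ℤ) * (n - m) : ℤ) : ℝ)| = (k : ℝ) * |((n - m : ℤ) : ℝ)| := by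
        rw [Int.cast_mul, abs_mul]
        simp
      rw [h6]
      nlinarith [Nat.cast_nonneg (α := ℝ) k]
    nlinarith
  obtain ⟨k, hk'⟩ := exists_nat_gt (ℓ 1 / c)
  have h7 := hk k
  rw [div_lt_iff₀ hc] at hk'
  linarith

open Classical in
/-- The function `x ^ n ↦ c * n` on the powers of `x` (and `0` elsewhere). -/
noncomputable def zchar (x : G) (c : ℝ) (g : G) : ℝ :=
  if h : ∃ n : ℤ, x ^ n = g then c * ((Classical.choose h : ℤ) : ℝ) else 0

theorem zchar_zpow (x : G) (c : ℝ) (hinj : Function.Injective (fun n : ℤ => x ^ n)) (n : ℤ) :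
    zchar x c (x ^ n) = c * n := by
  have h : ∃ m : ℤ, x ^ m = x ^ n := ⟨n, rfl⟩
  unfold zchar
  rw [dif_pos h]
  have h1 : Classical.choose h = n := hinj (Classical.choose_spec h)
  rw [h1]

/-- **Undistorted elements with virtually cyclic centralizer.** Let `ℓ : G → ℝ` be subadditive
and `x ∈ G` with `ℓ (x ^ n) ≥ c |n|` for all integers `n` (some `c > 0`), and suppose that the
cyclic group generated by `x` has finite index in the centralizer of `x`.  Then the class-sum
trace over the conjugacy class of `x` of every idempotent matrix over `L1 G` vanishes. -/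
theorem mtr_eq_zero_of_undistorted {n : Type*} [Fintype n] [DecidableEq n] (x : G) (ℓ : G → ℝ)
    (hℓ : ∀ g h, ℓ (g * h) ≤ ℓ g + ℓ h) (c : ℝ) (hc : 0 < c)
    (hx : ∀ n : ℤ, c * |(n : ℝ)| ≤ ℓ (x ^ n))
    (hfin : ((Subgroup.zpowers x).subgroupOf (Subgroup.centralizer {x})).FiniteIndex)
    (e : Matrix n n (L1 G)) (he : e * e = e) : L1.mtr (conjugatesOf x) e = 0 := by
  have hinj := zpow_injective_of_length x ℓ c hc hx
  refine mtr_eq_zero_of_length x ℓ hℓ (Subgroup.zpowers x) (Subgroup.mem_zpowers x) hfin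
    (zchar x c) ?_ ?_ ?_ e he
  · intro a ha b hb
    obtain ⟨n, rfl⟩ := Subgroup.mem_zpowers_iff.mp ha
    obtain ⟨m, rfl⟩ := Subgroup.mem_zpowers_iff.mp hb
    rw [← zpow_add, zchar_zpow x c hinj, zchar_zpow x c hinj, zchar_zpow x c hinj]
    push_cast
    ring
  · intro η hη
    obtain ⟨n, rfl⟩ := Subgroup.mem_zpowers_iff.mp hη
    rw [zchar_zpow x c hinj, abs_mul, abs_of_pos hc]
    exact hx n
  · have h1 := zchar_zpow x c hinj 1
    rw [zpow_one] at h1
    rw [h1]
    simpa using hc.ne'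

end K1

end Vale.Agent.H49
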